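import Crest.Agent.R163.E2.Num

/-!
# R163/E2/Defs: a kernel checker for positivity of exponential sums on `[0,∞)³`

An instance is `val y = Re ∑_g ∑_t exp (ω·y) (A + B (λ_g·y))` with `ω_i = -a_i + i T e_i`.
Boxes are dyadic (grid `2^-16`).  Leaves: `T` tensor Taylor expansion of order 4 per axis at the centre
(coefficients are Kronecker-packed in big integers, `X1 = 2^W, X2 = 2^(6W), X3 = 2^(36W)`), `I` zeroth order bound (also for
unbounded boxes), `K` the side constraint fails on the box, `L` the box lies in the local region near `0`.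
-/

set_option autoImplicit false

namespace Crest.Agent.R163.E2

structure Tm where
  a1 : ℕ
  a2 : ℕ
  a3 : ℕ
  A : Cx
  B : Cx

structure Gp where
  e1 : Bool
  e2 : Bool
  e3 : Bool
  l1 : Cx
  l2 : Cx
  l3 : Cx
  ts : List Tm

structure Inst where
  T : ℕ
  gs : List Gp
  /-- side constraint `c0 ≤ ∑ c exp (-(a·y))` -/
  c0 : ℕ
  con : List (ℕ × ℕ × ℕ × ℕ)

/-- the exponent `-a + i T e` -/
def om (T a : ℕ) (e : Bool) : Cx := ⟨-(a : ℤ), cond e (T : ℤ) 0⟩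

noncomputable def Tm.cval (T : ℕ) (g : Gp) (t : Tm) (y1 y2 y3 : ℝ) : ℂ :=
  Complex.exp ((om T t.a1 g.e1).toC * y1 + (om T t.a2 g.e2).toC * y2 + (om T t.a3 g.e3).toC * y3) *
    (t.A.toC + t.B.toC * (g.l1.toC * y1 + g.l2.toC * y2 + g.l3.toC * y3))

noncomputable def Inst.val (I : Inst) (y1 y2 y3 : ℝ) : ℝ :=
  (I.gs.map fun g => (g.ts.map fun t => (t.cval I.T g y1 y2 y3).re).sum).sum

def Inst.Con (I : Inst) (y1 y2 y3 : ℝ) : Prop :=
  (I.c0 : ℝ) ≤ (I.con.map fun c => (c.2.2.2 : ℝ) *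
    Real.exp (-((c.1 : ℝ) * y1 + (c.2.1 : ℝ) * y2 + (c.2.2.1 : ℝ) * y3))).sum

/-- an interval: `[lo/2^16, lo/2^16 + 2/2^k]`, or `[lo/2^16, ∞)` -/
structure Ax where
  lo : ℕ
  k : ℕ
  inf : Bool

def Ax.mem (x : Ax) (y : ℝ) : Prop :=
  (x.lo : ℝ) / 2 ^ 16 ≤ y ∧ (x.inf = false → y ≤ (x.lo : ℝ) / 2 ^ 16 + 2 / 2 ^ x.k)
/-- centre and upper end, scaled by `2^16` (for `1 ≤ k ≤ 16`) -/
def Ax.cen (x : Ax) : ℕ := Nat.add x.lo (Nat.pow 2 (Nat.sub 16 x.k))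
def Ax.hi (x : Ax) : ℕ := Nat.add x.lo (Nat.pow 2 (Nat.sub 17 x.k))
def Ax.ok (x : Ax) : Bool :=
  and (Nat.ble 1 x.k) (and (Nat.ble x.k 16) (Nat.ble x.hi 4194303))
def Ax.left (x : Ax) : Ax := cond x.inf ⟨x.lo, x.k, false⟩ ⟨x.lo, x.k.succ, false⟩
def Ax.right (x : Ax) : Ax := cond x.inf ⟨x.hi, x.k, true⟩ ⟨x.cen, x.k.succ, false⟩

def mx (d3 : Bool) (y1 y2 y3 : ℝ) : ℝ := max y1 (max y2 (cond d3 y3 0))

/-- the conclusion on a box -/
def Holds (I : Inst) (d3 : Bool) (k0 : ℕ) (b1 b2 b3 : Ax) : Prop :=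
  ∃ δ : ℝ, 0 < δ ∧ ∀ y1 y2 y3 : ℝ, b1.mem y1 → b2.mem y2 → b3.mem y3 → I.Con y1 y2 y3 →
    δ * min 1 (mx d3 y1 y2 y3) ^ k0 ≤ I.val y1 y2 y3

/-- the conclusion of the local check -/
def LocHolds (I : Inst) (d3 : Bool) (k0 j : ℕ) : Prop :=
  ∃ δ : ℝ, 0 < δ ∧ ∀ y1 y2 y3 : ℝ, 0 ≤ y1 → 0 ≤ y2 → 0 ≤ y3 → y1 ≤ 1 / 2 ^ j → y2 ≤ 1 / 2 ^ j →
    y3 ≤ 1 / 2 ^ j → δ * mx d3 y1 y2 y3 ^ k0 ≤ I.val y1 y2 y3

/-! ### Packed Taylor tensors -/

/-- `∑_{j ≤ m} (m!/j!) (ω X)^j` by Horner's rule -/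
noncomputable def vec1 (m : ℕ) (X : ℤ) (ω : Cx) : Cx :=
  (Cx.smul X ω).force fun wx =>
    (Nat.rec (fun _ acc => acc) (fun j ih c acc =>
      force (Nat.mul c j.succ) fun c' => ((acc.mul wx).add ⟨c', 0⟩).force fun a => ih c' a) m :
        ℕ → Cx → Cx) 1 ⟨1, 0⟩

/-- tensor `V1(2^W) V2(2^(bW)) V3(2^(b²W))`, `b = m + 2` -/
noncomputable def ten (m W T : ℕ) (g : Gp) (t : Tm) : Cx :=
  ((vec1 m (Int.ofNat (Nat.pow 2 W)) (om T t.a1 g.e1)).mul
    (vec1 m (Int.ofNat (Nat.pow 2 (Nat.mul (m + 2) W))) (om T t.a2 g.e2))).mul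
    (vec1 m (Int.ofNat (Nat.pow 2 (Nat.mul (Nat.mul (m + 2) (m + 2)) W))) (om T t.a3 g.e3))

/-- `λ1 X1 + λ2 X2 + λ3 X3` -/
def linX (m W : ℕ) (g : Gp) : Cx :=
  ((Cx.smul (Int.ofNat (Nat.pow 2 W)) g.l1).add
    (Cx.smul (Int.ofNat (Nat.pow 2 (Nat.mul (m + 2) W))) g.l2)).add
    (Cx.smul (Int.ofNat (Nat.pow 2 (Nat.mul (Nat.mul (m + 2) (m + 2)) W))) g.l3)

/-- an integer upper bound for `|ω|` -/
def wOf (T a : ℕ) (e : Bool) : ℕ :=
  cond e (Nat.succ (Nat.sqrt (Nat.add (Nat.mul a a) (Nat.mul T T)))) a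

/-- `∑_{i<n} 2^(W i)` -/
def ones (W n : ℕ) : ℕ := Nat.div (Nat.pow 2 (Nat.mul W n)) (Nat.pred (Nat.pow 2 W))

structure PT where
  s1 : ℕ
  s2 : ℕ
  s3 : ℕ
  U : ℕ
  nA : ℕ
  nB : ℕ
  q1 : ℕ
  q2 : ℕ
  q3 : ℕ

structure PG where
  e1 : Bool
  e2 : Bool
  e3 : Bool
  l1 : Cx
  l2 : Cx
  l3 : Cx
  LX : Cx
  ts : List PT

structure Cfg where
  W : ℕ
  KO : ℕ
  amax : ℕ
  wmax : ℕ

structure Pre where
  eT : List ℕ
  cT : List Cx
  gs : List PG
  NA : ℕ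
  NBL : ℕ
  M80 : ℕ
  MK : ℕ
  OFF : ℕ
  ONES : ℕ
  MW1 : ℕ
  MW6 : ℕ
  MW36 : ℕ
  half : ℕ
  ok : Bool

/-- offset making the blocks nonnegative (the odd constant only randomises low bits) -/
def offs (KO : ℕ) : ℕ := Nat.add (Nat.pow 2 KO) 11400714819323198485

def blk (KO : ℕ) (z : ℤ) : ℕ := Int.toNat (Int.add z (Int.ofNat (offs KO)))

noncomputable def mkPT {α : Type} (c : Cfg) (T : ℕ) (g : Gp) (t : Tm) (k : PT → Bool → α) : α :=
  (ten 4 c.W T g t).force fun V => (t.A.mul V).force fun AV => (t.B.mul V).force fun BV =>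
  force (Nat.add 1 (Nat.shiftLeft (Nat.add (blk c.KO AV.re) (Nat.shiftLeft (Nat.add (blk c.KO AV.im)
    (Nat.shiftLeft (Nat.add (blk c.KO BV.re) (Nat.shiftLeft (blk c.KO BV.im) (c.KO + 80)))
      (c.KO + 80))) (c.KO + 80))) 80)) fun U =>
  force (sh t.a1) fun s1 => force (sh t.a2) fun s2 => force (sh t.a3) fun s3 =>
  force t.A.n1 fun nA => force t.B.n1 fun nB =>
  force (wOf T t.a1 g.e1) fun w1 => force (wOf T t.a2 g.e2) fun w2 => force (wOf T t.a3 g.e3) fun w3 =>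
  force (Nat.pow w1 5) fun q1 => force (Nat.pow w2 5) fun q2 => force (Nat.pow w3 5) fun q3 =>
  k ⟨s1, s2, s3, U, nA, nB, q1, q2, q3⟩
    (and (and (Nat.blt AV.n1 (Nat.pow 2 c.KO)) (Nat.blt BV.n1 (Nat.pow 2 c.KO)))
      (and (and (Nat.ble t.a1 c.amax) (and (Nat.ble t.a2 c.amax) (Nat.ble t.a3 c.amax)))
        (and (Nat.ble w1 c.wmax) (and (Nat.ble w2 c.wmax) (Nat.ble w3 c.wmax)))))

noncomputable def mkPTs {α : Type} (c : Cfg) (T : ℕ) (g : Gp) (ts : List Tm) :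
    (List PT → Bool → α) → α :=
  List.rec (fun k => k [] true) (fun t _ ih k => mkPT c T g t fun p b => ih fun l b' =>
    Bool.rec (k (p :: l) false) (k (p :: l) true) (and b b')) ts

noncomputable def mkPGs {α : Type} (c : Cfg) (T : ℕ) (gs : List Gp) : (List PG → Bool → α) → α :=
  List.rec (fun k => k [] true) (fun g _ ih k => mkPTs c T g g.ts fun ts b =>
    (Cx.smul 65536 (linX 4 c.W g)).force fun LX => ih fun l b' =>
      Bool.rec (k (⟨g.e1, g.e2, g.e3, g.l1, g.l2, g.l3, LX, ts⟩ :: l) false)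
        (k (⟨g.e1, g.e2, g.e3, g.l1, g.l2, g.l3, LX, ts⟩ :: l) true)
        (and (and b b') (Nat.ble g.ts.length 8192))) gs

noncomputable def Inst.NA (I : Inst) : ℕ := sumL (fun g : Gp => sumL (fun t : Tm => t.A.n1) g.ts) I.gs
noncomputable def Inst.NBL (I : Inst) : ℕ :=
  sumL (fun g : Gp => Nat.mul (sumL (fun t : Tm => t.B.n1) g.ts)
    (Nat.add g.l1.n1 (Nat.add g.l2.n1 g.l3.n1))) I.gs

noncomputable def mkPre {α : Type} (I : Inst) (c : Cfg) (k : Pre → α) : α :=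
  sqN 28 xi0 fun eT => sqC 28 ze0 fun cT => mkPGs c I.T I.gs fun gs ok =>
  force I.NA fun NA => force I.NBL fun NBL =>
  force (Nat.pred (Nat.pow 2 80)) fun M80 => force (Nat.pred (Nat.pow 2 (c.KO + 80))) fun MK =>
  force (offs c.KO) fun OFF => force (ones c.W 216) fun ONES =>
  force (Nat.pred (Nat.pow 2 c.W)) fun MW1 => force (Nat.pred (Nat.pow 2 (Nat.mul 6 c.W))) fun MW6 =>
  force (Nat.pred (Nat.pow 2 (Nat.mul 36 c.W))) fun MW36 =>
  force (Nat.pow 2 (Nat.pred c.W)) fun half =>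
  k ⟨eT, cT, gs, NA, NBL, M80, MK, OFF, ONES, MW1, MW6, MW36, half,
    and ok (and (Nat.ble c.amax 64) (and (Nat.ble I.T 63) (and (Nat.ble 2 c.W) (Nat.ble 64 c.KO))))⟩

/-- Horner sum over six base-`2^Wd` digits (mask `M = 2^Wd - 1`) of `c`, weights `2^(k (5 - i))`; `f true` on even positions -/
def six (M Wd k : ℕ) (f : Bool → ℕ → ℕ) (c0 : ℕ) : ℕ :=
  let c1 := Nat.shiftRight c0 Wd
  let c2 := Nat.shiftRight c1 Wd
  let c3 := Nat.shiftRight c2 Wd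
  let c4 := Nat.shiftRight c3 Wd
  let c5 := Nat.shiftRight c4 Wd
  Nat.add (Nat.shiftLeft (Nat.add (Nat.shiftLeft (Nat.add (Nat.shiftLeft (Nat.add (Nat.shiftLeft
    (Nat.add (Nat.shiftLeft (f true (Nat.land c0 M)) k) (f false (Nat.land c1 M))) k)
    (f true (Nat.land c2 M))) k) (f false (Nat.land c3 M))) k) (f true (Nat.land c4 M))) k)
    (f false (Nat.land c5 M))

/-- negative part (`ev = true`) or absolute value of the signed lane `l - h` -/
def mag (h : ℕ) (ev : Bool) (l : ℕ) : ℕ :=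
  cond ev (Nat.sub h l) (Nat.add (Nat.sub h l) (Nat.sub l h))

/-- `rOf t1 t2 t3 t.s1 t.s2 t.s3 * t.U`, inlined -/
noncomputable def tmU (t1 t2 t3 : ℕ) (t : PT) : ℕ :=
  PT.rec (fun s1 s2 s3 U _ _ _ _ _ => Nat.mul (Nat.shiftRight (Nat.mul (Nat.shiftRight (Nat.mul
    (Nat.land (Nat.shiftRight t1 s1) 158456325028528675187087900671)
    (Nat.land (Nat.shiftRight t2 s2) 158456325028528675187087900671)) 96)
    (Nat.land (Nat.shiftRight t3 s3) 158456325028528675187087900671)) 128) U) t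

theorem tmU_eq (t1 t2 t3 : ℕ) (t : PT) : tmU t1 t2 t3 t = rOf t1 t2 t3 t.s1 t.s2 t.s3 * t.U := rfl

/-- remainder bound of one term, inlined -/
noncomputable def tmR (u1 u2 u3 H1 H2 H3 H Λ : ℕ) (t : PT) : ℕ :=
  PT.rec (fun s1 s2 s3 _ nA nB q1 q2 q3 => Nat.mul (Nat.mul (Nat.add
    (Nat.shiftRight (Nat.mul (Nat.shiftRight (Nat.mul
    (Nat.land (Nat.shiftRight u1 s1) 158456325028528675187087900671)
    (Nat.land (Nat.shiftRight u2 s2) 158456325028528675187087900671)) 96)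
    (Nat.land (Nat.shiftRight u3 s3) 158456325028528675187087900671)) 128) 2)
    (Nat.add (Nat.shiftLeft nA 16) (Nat.mul nB Λ)))
    (Nat.sub (Nat.mul (Nat.mul (Nat.add H1 q1) (Nat.add H2 q2)) (Nat.add H3 q3)) H)) t

theorem tmR_eq (u1 u2 u3 H1 H2 H3 H Λ : ℕ) (t : PT) : tmR u1 u2 u3 H1 H2 H3 H Λ t =
    (rOf u1 u2 u3 t.s1 t.s2 t.s3 + 2) * (t.nA <<< 16 + t.nB * Λ) *
      ((H1 + t.q1) * (H2 + t.q2) * (H3 + t.q3) - H) := rfl

/-- signed packed Taylor polynomial of one group, scale `2^64 * 2^64 * 2^16 * 24^3`; `K = KO + 80` -/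
noncomputable def grpX (K : ℕ) (P : Pre) (t1 t2 t3 : ℕ) (z1 z2 z3 : Cx) (n1 n2 n3 : ℕ)
    (g : PG) : ℤ :=
  force (sumL (tmU t1 t2 t3) g.ts) fun V =>
  forceZ (Int.neg (Int.ofNat (Nat.mul (Nat.land V P.M80) P.OFF))) fun o =>
  force (Nat.shiftRight V 80) fun V1 =>
  force (Nat.shiftRight V1 K) fun V2 =>
  force (Nat.shiftRight V2 K) fun V3 =>
  (cond g.e1 z1 ⟨Int.ofNat one96, 0⟩).force fun za =>
  (cond g.e2 (mulC za z2) za).force fun zb =>
  ((cond g.e3 (mulC zb z3) zb).shr 32).force fun z =>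
  (z.mul ((((Cx.smul (Int.ofNat n1) g.l1).add (Cx.smul (Int.ofNat n2) g.l2)).add
    (Cx.smul (Int.ofNat n3) g.l3)).add g.LX)).force fun w =>
  Int.add (Int.sub (Int.mul (Int.mul 65536 z.re) (Int.add (Int.ofNat (Nat.land V1 P.MK)) o))
      (Int.mul (Int.mul 65536 z.im) (Int.add (Int.ofNat (Nat.land V2 P.MK)) o)))
    (Int.sub (Int.mul w.re (Int.add (Int.ofNat (Nat.land V3 P.MK)) o))
      (Int.mul w.im (Int.add (Int.ofNat (Nat.shiftRight V3 K)) o)))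

/-- remainder bound of one group, scale `2^64 * 2^16 * H1 H2 H3` -/
noncomputable def grpR (u1 u2 u3 H1 H2 H3 H h1 h2 h3 : ℕ) (g : PG) : ℕ :=
  force (Nat.add (Nat.mul g.l1.n1 h1) (Nat.add (Nat.mul g.l2.n1 h2) (Nat.mul g.l3.n1 h3))) fun Λ =>
  sumL (tmR u1 u2 u3 H1 H2 H3 H Λ) g.ts

/-- Taylor leaf (all three axes finite) -/
noncomputable def chkT (I : Inst) (c : Cfg) (P : Pre) (b1 b2 b3 : Ax) : Bool :=
  force b1.cen fun n1 => force b2.cen fun n2 => force b3.cen fun n3 =>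
  force b1.hi fun h1 => force b2.hi fun h2 => force b3.hi fun h3 =>
  force (expTab P.eT c.amax n1) fun t1 => force (expTab P.eT c.amax n2) fun t2 =>
  force (expTab P.eT c.amax n3) fun t3 =>
  force (expTab P.eT c.amax b1.lo) fun u1 => force (expTab P.eT c.amax b2.lo) fun u2 =>
  force (expTab P.eT c.amax b3.lo) fun u3 =>
  (powC P.cT (Nat.mul I.T n1) ⟨Int.ofNat one96, 0⟩).force fun z1 =>
  (powC P.cT (Nat.mul I.T n2) ⟨Int.ofNat one96, 0⟩).force fun z2 =>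
  (powC P.cT (Nat.mul I.T n3) ⟨Int.ofNat one96, 0⟩).force fun z3 =>
  force (Nat.add c.KO 80) fun K =>
  force (Nat.add P.half (Nat.land (Nat.add t1 (Nat.add (Nat.mul 3 t2) (Nat.mul 5 t3)))
    18446744073709551615)) fun hf =>
  force (Int.toNat (Int.add (sumZ (grpX K P t1 t2 t3 z1 z2 z3 n1 n2 n3) P.gs)
    (Int.ofNat (Nat.mul hf P.ONES)))) fun N =>
  force (six P.MW36 (Nat.mul 36 c.W) b3.k (fun e3 c3 => six P.MW6 (Nat.mul 6 c.W) b2.k (fun e2 c2 =>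
    Bool.rec (six P.MW1 c.W b1.k (fun _ l => mag hf false l) c2)
      (six P.MW1 c.W b1.k (fun e1 l => mag hf e1 l) c2) (and e3 e2)) c3) N) fun S =>
  force (Nat.shiftLeft 120 (Nat.mul 5 b1.k)) fun H1 => force (Nat.shiftLeft 120 (Nat.mul 5 b2.k)) fun H2 =>
  force (Nat.shiftLeft 120 (Nat.mul 5 b3.k)) fun H3 => force (Nat.mul (Nat.mul H1 H2) H3) fun H =>
  force (sumL (grpR u1 u2 u3 H1 H2 H3 H h1 h2 h3) P.gs) fun Rm =>
  force (Nat.add (Nat.add b1.k b2.k) b3.k) fun ks =>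
  force (Nat.add (Nat.shiftLeft P.NA 16)
    (Nat.mul P.NBL (Nat.add (Nat.add (Nat.add h1 h2) h3) 65536))) fun NN =>
  and (and (and (and b1.ok b2.ok) b3.ok) (not (or (or b1.inf b2.inf) b3.inf)))
    (and (Nat.blt (Nat.add (Nat.shiftLeft (Nat.mul NN (Nat.pow (Nat.add c.wmax 3) 12)) 130)
        18446744073709551616) P.half)
      (Nat.blt (Nat.add (Nat.add (Nat.mul 125 S) (Nat.shiftLeft Rm 64))
          (Nat.shiftLeft (Nat.mul (Nat.mul 10368000 NN) (Nat.pow (Nat.mul (Nat.mul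
            (Nat.add (Nat.pow 2 b1.k) c.wmax) (Nat.add (Nat.pow 2 b2.k) c.wmax))
            (Nat.add (Nat.pow 2 b3.k) c.wmax)) 4)) (Nat.add 64 ks)))
        (Nat.shiftLeft (Nat.mul 125 (Nat.sub (Nat.land N P.MW1) hf)) (Nat.mul 5 ks))))

/-- bound for `y exp (-a (y - lo))` on the axis, scaled by `2^16` (junk if `inf` and `a = 0`) -/
def yBd (x : Ax) (a : ℕ) : ℕ := cond x.inf (Nat.add x.lo (Nat.succ (Nat.div 65536 a))) x.hi

def Cx.isZ (a : Cx) : Bool := Nat.beq a.n1 0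

/-- the term is a positive multiple of a real exponential -/
noncomputable def Tm.isPos (g : Gp) (t : Tm) : Bool :=
  and (not (or (or g.e1 g.e2) g.e3)) (and t.B.isZ (Int.rec (fun _ => true) (fun _ => false) t.A.re))

/-- zeroth order leaf -/
noncomputable def chkI (I : Inst) (c : Cfg) (P : Pre) (b1 b2 b3 : Ax) : Bool :=
  force (expTab P.eT c.amax b1.hi) fun t1 => force (expTab P.eT c.amax b2.hi) fun t2 =>
  force (expTab P.eT c.amax b3.hi) fun t3 =>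
  force (expTab P.eT c.amax b1.lo) fun u1 => force (expTab P.eT c.amax b2.lo) fun u2 =>
  force (expTab P.eT c.amax b3.lo) fun u3 =>
  and (and (and b1.ok b2.ok) b3.ok) (and
    (allL (fun g : Gp => allL (fun t : Tm => or t.B.isZ (and (and
      (or (not b1.inf) (or g.l1.isZ (Nat.ble 1 t.a1))) (or (not b2.inf) (or g.l2.isZ (Nat.ble 1 t.a2))))
      (or (not b3.inf) (or g.l3.isZ (Nat.ble 1 t.a3))))) g.ts) I.gs)
    (Nat.blt
      (sumL (fun g : Gp => sumL (fun t : Tm => cond (t.isPos g) 0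
        (Nat.mul (Nat.add (rOf u1 u2 u3 (sh t.a1) (sh t.a2) (sh t.a3)) 2)
          (Nat.add (Nat.shiftLeft t.A.n1 16) (Nat.mul t.B.n1 (Nat.add (Nat.mul g.l1.n1 (yBd b1 t.a1))
            (Nat.add (Nat.mul g.l2.n1 (yBd b2 t.a2)) (Nat.mul g.l3.n1 (yBd b3 t.a3)))))))) g.ts) I.gs)
      (sumL (fun g : Gp => sumL (fun t : Tm =>
        cond (and (t.isPos g) (and (and (or (not b1.inf) (Nat.beq t.a1 0))
            (or (not b2.inf) (Nat.beq t.a2 0))) (or (not b3.inf) (Nat.beq t.a3 0))))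
          (Nat.shiftLeft (Nat.mul (Nat.sub
            (rOf t1 t2 t3 (sh t.a1) (sh t.a2) (sh t.a3)) 2) t.A.re.toNat) 16)
          0) g.ts) I.gs)))

/-- the side constraint fails on the whole box -/
noncomputable def chkK (I : Inst) (c : Cfg) (P : Pre) (b1 b2 b3 : Ax) : Bool :=
  force (expTab P.eT c.amax b1.lo) fun u1 => force (expTab P.eT c.amax b2.lo) fun u2 =>
  force (expTab P.eT c.amax b3.lo) fun u3 =>
  and (and (and b1.ok b2.ok) b3.ok) (and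
    (allL (fun x : ℕ × ℕ × ℕ × ℕ => and (Nat.ble x.1 c.amax) (and (Nat.ble x.2.1 c.amax)
      (Nat.ble x.2.2.1 c.amax))) I.con)
    (Nat.blt (sumL (fun x : ℕ × ℕ × ℕ × ℕ => Nat.mul x.2.2.2 (Nat.add
      (rOf u1 u2 u3 (sh x.1) (sh x.2.1) (sh x.2.2.1)) 2)) I.con)
      (Nat.shiftLeft I.c0 64)))

/-- the box lies in `[0, 2^-j]³` -/
def chkL (j : ℕ) (b1 b2 b3 : Ax) : Bool :=
  and (Nat.ble 1 j) (and (and (and (Nat.beq b1.lo 0) (Nat.beq b2.lo 0)) (Nat.beq b3.lo 0))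
    (and (and (and (Nat.blt j b1.k) (Nat.blt j b2.k)) (Nat.blt j b3.k))
      (not (or (or b1.inf b2.inf) b3.inf))))

inductive Tr where
  | T : Tr
  | I : Tr
  | K : Tr
  | L : Tr
  | x : Tr → Tr → Tr
  | y : Tr → Tr → Tr
  | z : Tr → Tr → Tr

noncomputable def Ax.force {α : Type} (a : Ax) (k : Ax → α) : α :=
  E2.force a.lo fun lo => E2.force a.k fun kk =>
    Bool.rec (k ⟨lo, kk, false⟩) (k ⟨lo, kk, true⟩) a.inf

noncomputable def chkTree (I : Inst) (c : Cfg) (j : ℕ) (P : Pre) (t : Tr) : Ax → Ax → Ax → Bool :=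
  Tr.rec (chkT I c P) (chkI I c P) (chkK I c P) (chkL j)
    (fun _ _ l r b1 b2 b3 => and b1.ok
      (and (b1.left.force fun a => l a b2 b3) (b1.right.force fun a => r a b2 b3)))
    (fun _ _ l r b1 b2 b3 => and b2.ok
      (and (b2.left.force fun a => l b1 a b3) (b2.right.force fun a => r b1 a b3)))
    (fun _ _ l r b1 b2 b3 => and b3.ok
      (and (b3.left.force fun a => l b1 b2 a) (b3.right.force fun a => r b1 b2 a))) t

noncomputable def check (I : Inst) (c : Cfg) (j : ℕ) (t : Tr) (b1 b2 b3 : Ax) : Bool :=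
  mkPre I c fun P => and P.ok (chkTree I c j P t b1 b2 b3)

/-! ### The local check at the origin -/

/-- polynomials in three variables as lists of monomials -/
abbrev Poly := List (ℕ × ℕ × ℕ × ℤ)

noncomputable def Poly.ev (p : Poly) (y1 y2 y3 : ℝ) : ℝ :=
  (p.map fun m => (m.2.2.2 : ℝ) * y1 ^ m.1 * y2 ^ m.2.1 * y3 ^ m.2.2.1).sum

def Poly.mul (p q : Poly) : Poly :=
  p.flatMap fun a => q.map fun b =>
    (a.1 + b.1, a.2.1 + b.2.1, a.2.2.1 + b.2.2.1, Int.mul a.2.2.2 b.2.2.2)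

/-- add one monomial to a merged list -/
noncomputable def Poly.ins (i j k : ℕ) (c : ℤ) (p : Poly) : Poly :=
  List.rec [(i, j, k, c)] (fun m l ih =>
    cond (and (Nat.beq m.1 i) (and (Nat.beq m.2.1 j) (Nat.beq m.2.2.1 k)))
      (forceZ (Int.add m.2.2.2 c) fun s => (i, j, k, s) :: l) (m :: ih)) p

noncomputable def Poly.merge (p : Poly) : Poly :=
  List.rec [] (fun m _ ih => Poly.ins m.1 m.2.1 m.2.2.1 m.2.2.2 ih) p

/-- packed exact Taylor tensor at the origin (order `m` per axis, scale `(m!)^3`) -/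
noncomputable def locX (I : Inst) (m W : ℕ) : ℤ :=
  sumZ (fun g : Gp => (linX m W g).force fun LX => sumZ (fun t : Tm =>
    (ten m W I.T g t).force fun V => ((t.A.add (t.B.mul LX)).force fun c =>
      Int.sub (Int.mul c.re V.re) (Int.mul c.im V.im))) g.ts) I.gs

/-- the `n` lowest signed lanes of `N` as monomials, lane `s + i` has exponents the base-`b` digits -/
noncomputable def unpack (W b n : ℕ) : ℕ → ℕ → Poly :=
  Nat.rec (fun _ _ => []) (fun _ ih s N =>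
    force (Nat.mod s b) fun i => force (Nat.mod (Nat.div s b) b) fun j =>
    force (Nat.div s (Nat.mul b b)) fun k =>
    forceZ (Int.sub (Int.ofNat (Nat.land N (Nat.pred (Nat.pow 2 W)))) (Int.ofNat (Nat.pow 2 (Nat.pred W)))) fun c =>
    force (Nat.shiftRight N W) fun N' => force s.succ fun s' => (i, j, k, c) :: ih s' N') n

noncomputable def Inst.wm (I : Inst) (f : Gp → Tm → ℕ) : ℕ :=
  List.rec 0 (fun g _ ih => List.rec ih (fun t _ ih' => Nat.max (f g t) ih') g.ts) I.gs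
noncomputable def Inst.w1 (I : Inst) : ℕ := I.wm fun g t => wOf I.T t.a1 g.e1
noncomputable def Inst.w2 (I : Inst) : ℕ := I.wm fun g t => wOf I.T t.a2 g.e2
noncomputable def Inst.w3 (I : Inst) : ℕ := I.wm fun g t => wOf I.T t.a3 g.e3

/-- exact Taylor coefficients at the origin -/
noncomputable def coefs (I : Inst) (m W : ℕ) : Poly :=
  unpack W (m + 2) ((m + 2) * (m + 2) * (m + 2)) 0 (Int.toNat (Int.add (locX I m W)
    (Int.ofNat (Nat.mul (Nat.pow 2 (Nat.pred W)) (ones W ((m + 2) * (m + 2) * (m + 2)))))))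

/-- no lane overflows -/
noncomputable def coefsOk (I : Inst) (m W : ℕ) : Bool :=
  and (Nat.ble 2 W) (Nat.blt (Nat.mul (Nat.add I.NA I.NBL)
    (Nat.pow (Nat.mul (Nat.mul (I.w1 + m) (I.w2 + m)) (I.w3 + m)) m)) (Nat.pow 2 (Nat.pred W)))

def deg (m : ℕ × ℕ × ℕ × ℤ) : ℕ := Nat.add m.1 (Nat.add m.2.1 m.2.2.1)

/-- all coefficients of degree `< k0` vanish -/
noncomputable def lowZero (k0 : ℕ) (p : Poly) : Bool :=
  allL (fun m => or (Nat.ble k0 (deg m)) (Nat.beq m.2.2.2.natAbs 0)) p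

/-- lower the largest exponent `n` times -/
noncomputable def red (n : ℕ) : ℕ → ℕ → ℕ → ℕ × ℕ × ℕ :=
  Nat.rec (fun a b c => (a, b, c)) (fun _ ih a b c =>
    cond (and (Nat.ble b a) (Nat.ble c a)) (force a.pred fun a' => ih a' b c)
      (cond (Nat.ble c b) (force b.pred fun b' => ih a b' c) (force c.pred fun c' => ih a b c'))) n

/-- domination of a monomial of degree in `[k0, k0 + D]` on `[0,2^-j]³`, scale `2^(j D)` -/
noncomputable def dom (k0 j D : ℕ) (p : Poly) : Poly :=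
  List.rec [] (fun m _ ih =>
    cond (Nat.ble (deg m) k0)
      (cond (Nat.beq (deg m) k0)
        ((m.1, m.2.1, m.2.2.1, Int.mul m.2.2.2 (Int.ofNat (Nat.pow 2 (Nat.mul j D)))) :: ih) ih)
      (Int.rec (fun _ => ih) (fun n =>
        let r := red (Nat.sub (deg m) k0) m.1 m.2.1 m.2.2.1
        (r.1, r.2.1, r.2.2, Int.mul (Int.negSucc n)
          (Int.ofNat (Nat.pow 2 (Nat.mul j (Nat.sub D (Nat.sub (deg m) k0))))))  :: ih) m.2.2.2)) p

/-- `-∑ c s²` -/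
def negSos (sos : List (ℕ × Poly)) : Poly :=
  sos.flatMap fun s => Poly.mul [(0, 0, 0, -(s.1 : ℤ))] (Poly.mul s.2 s.2)

/-- remainder constant of axis `i`, scale `sc (m!)^3 2^(j D)` -/
noncomputable def remC (I : Inst) (k0 m j sc w : ℕ) : ℤ :=
  Int.negSucc (Nat.div (4 * sc * (I.NA + I.NBL) * w ^ (m + 1) * m.factorial ^ 3 *
    2 ^ (j * (3 * (m + 1) - k0))) ((m + 1).factorial * 2 ^ (j * (m + 1 - k0))))

/-- coefficient of a monomial in a merged list is positive -/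
noncomputable def hasPos (i j k : ℕ) (p : Poly) : Bool :=
  List.rec false (fun m _ ih => or (and (and (Nat.beq m.1 i) (and (Nat.beq m.2.1 j) (Nat.beq m.2.2.1 k)))
    (decide (0 < m.2.2.2))) ih) p

/-- local check: `sc * (Taylor polynomial) - ∑ c s²` is dominated coefficientwise -/
noncomputable def locCheck (I : Inst) (d3 : Bool) (k0 m j W sc : ℕ) (sos : List (ℕ × Poly)) : Bool :=
  let p := Poly.mul [(0, 0, 0, (sc : ℤ))] (coefs I m W) ++ negSos sos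
  let r := Poly.merge ((k0, 0, 0, remC I k0 m j sc I.w1) :: (0, k0, 0, remC I k0 m j sc I.w2) ::
    cond d3 [(0, 0, k0, remC I k0 m j sc I.w3)] [] ++ dom k0 j (3 * (m + 1) - k0) p)
  and (and (coefsOk I m W) (and (Nat.ble 1 sc) (and (Nat.ble 1 k0) (Nat.ble k0 (m + 1)))))
    (and (and (or d3 (Nat.beq I.w3 0))
      (Nat.ble ((I.w1 + I.w2 + I.w3) ^ (m + 1)) ((m + 1).factorial * 2 ^ (j * (m + 1)))))
    (and (and (lowZero k0 p) (allL (fun x => Nat.ble (deg x) (3 * (m + 1))) p))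
    (and (allL (fun x => decide (0 ≤ x.2.2.2)) r)
      (and (hasPos k0 0 0 r) (and (hasPos 0 k0 0 r) (or (not d3) (hasPos 0 0 k0 r)))))))

/-- vanishing to order `k0` at the origin -/
noncomputable def vanCheck (I : Inst) (k0 W : ℕ) : Bool :=
  and (coefsOk I k0 W) (lowZero k0 (coefs I k0 W))

end Crest.Agent.R163.E2
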