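import Crest.Agent.R163.E2.Apx
import Crest.Agent.R163.E2.Defs

/-!
# R163/E2/Norm: a tiny calculus of exponential sums with a kernel-decidable identity test

A term is `exp (w·y) (A + B·y)` with Gaussian integer data.  `EL.reZero p = true` implies that the real part of `p`
vanishes identically (terms are conjugated to a canonical sign of `Im w`, merged, and compared with zero).
Typical use: build `p` from the structure of an expression with `++`, `EL.mul`, `EL.smul`, prove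
`EL.val p y = (expression : ℂ)` by `simp [val_append, val_mul, …]`, and check
`EL.reZero (p ++ EL.smul ⟨-1,0⟩ I.toEL) = true` by `decide +kernel`.
-/

set_option autoImplicit false

namespace Crest.Agent.R163.E2

structure ET where
  w1 : Cx
  w2 : Cx
  w3 : Cx
  A : Cx
  B1 : Cx
  B2 : Cx
  B3 : Cx

noncomputable def ET.val (t : ET) (y1 y2 y3 : ℝ) : ℂ :=
  Complex.exp (t.w1.toC * y1 + t.w2.toC * y2 + t.w3.toC * y3) *
    (t.A.toC + t.B1.toC * y1 + t.B2.toC * y2 + t.B3.toC * y3)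

abbrev EL := List ET

noncomputable def EL.val (p : EL) (y1 y2 y3 : ℝ) : ℂ := (p.map fun t => t.val y1 y2 y3).sum

/-- product of a pure exponential term `s` (its `B` is ignored) with `t` -/
def ET.mul (s t : ET) : ET :=
  ⟨s.w1.add t.w1, s.w2.add t.w2, s.w3.add t.w3, s.A.mul t.A, s.A.mul t.B1, s.A.mul t.B2, s.A.mul t.B3⟩
def ET.pure (t : ET) : Bool := t.B1.isZ && t.B2.isZ && t.B3.isZ
def EL.mul (p q : EL) : EL := p.flatMap fun s => q.map fun t => s.mul t
def EL.pure (p : EL) : Bool := p.all ET.pure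
def EL.smul (c : Cx) (p : EL) : EL :=
  p.map fun t => ⟨t.w1, t.w2, t.w3, c.mul t.A, c.mul t.B1, c.mul t.B2, c.mul t.B3⟩

def Cx.conj (a : Cx) : Cx := ⟨a.re, -a.im⟩
def Cx.reP (a : Cx) : Cx := ⟨a.re, 0⟩
def ET.conj (t : ET) : ET :=
  ⟨t.w1.conj, t.w2.conj, t.w3.conj, t.A.conj, t.B1.conj, t.B2.conj, t.B3.conj⟩
/-- canonical representative of the real part -/
def ET.canon (t : ET) : ET :=
  if t.w1.im < 0 then t.conj else if 0 < t.w1.im then t else
  if t.w2.im < 0 then t.conj else if 0 < t.w2.im then t else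
  if t.w3.im < 0 then t.conj else if 0 < t.w3.im then t else
  ⟨t.w1, t.w2, t.w3, t.A.reP, t.B1.reP, t.B2.reP, t.B3.reP⟩

noncomputable def ET.force {α : Type} (t : ET) (k : ET → α) : α :=
  t.w1.force fun a => t.w2.force fun b => t.w3.force fun c => t.A.force fun d =>
  t.B1.force fun e => t.B2.force fun f => t.B3.force fun g => k ⟨a, b, c, d, e, f, g⟩

noncomputable def EL.ins (t : ET) (p : EL) : EL :=
  List.rec [t] (fun s l ih => cond (decide (s.w1 = t.w1 ∧ s.w2 = t.w2 ∧ s.w3 = t.w3))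
    (ET.force ⟨s.w1, s.w2, s.w3, s.A.add t.A, s.B1.add t.B1, s.B2.add t.B2, s.B3.add t.B3⟩
      fun r => r :: l) (s :: ih)) p

noncomputable def EL.merge (p : EL) : EL :=
  List.rec [] (fun t _ ih => t.canon.force fun r => EL.ins r ih) p

noncomputable def EL.reZero (p : EL) : Bool := allL (fun t : ET => t.A.isZ && t.pure) p.merge

def Inst.toEL (I : Inst) : EL :=
  I.gs.flatMap fun g => g.ts.map fun t => ⟨om I.T t.a1 g.e1, om I.T t.a2 g.e2, om I.T t.a3 g.e3, t.A,
    t.B.mul g.l1, t.B.mul g.l2, t.B.mul g.l3⟩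

theorem EL.val_nil (y1 y2 y3 : ℝ) : EL.val [] y1 y2 y3 = 0 := rfl
theorem EL.val_cons (t : ET) (p : EL) (y1 y2 y3 : ℝ) :
    EL.val (t :: p) y1 y2 y3 = t.val y1 y2 y3 + EL.val p y1 y2 y3 := by
  simp [EL.val]
theorem EL.val_append (p q : EL) (y1 y2 y3 : ℝ) :
    EL.val (p ++ q) y1 y2 y3 = EL.val p y1 y2 y3 + EL.val q y1 y2 y3 := by
  simp [EL.val]
theorem EL.val_flatMap {α : Type} (l : List α) (f : α → EL) (y1 y2 y3 : ℝ) :
    EL.val (l.flatMap f) y1 y2 y3 = (l.map fun a => EL.val (f a) y1 y2 y3).sum := by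
  induction l with
  | nil => rfl
  | cons a l ih => rw [List.flatMap_cons, EL.val_append, ih, List.map_cons, List.sum_cons]
theorem Norm_isZ {a : Cx} (h : a.isZ = true) : a.toC = 0 := by
  have h1 : a.re.natAbs + a.im.natAbs = 0 := Nat.eq_of_beq_eq_true h
  have h2 : a.re = 0 := by omega
  have h3 : a.im = 0 := by omega
  simp [Cx.toC, h2, h3]

theorem Norm_pure {t : ET} (h : t.pure = true) : t.B1.toC = 0 ∧ t.B2.toC = 0 ∧ t.B3.toC = 0 := by
  simp only [ET.pure, Bool.and_eq_true] at h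
  exact ⟨Norm_isZ h.1.1, Norm_isZ h.1.2, Norm_isZ h.2⟩

theorem Norm_val_mul {s : ET} (hs : s.pure = true) (t : ET) (y1 y2 y3 : ℝ) :
    (s.mul t).val y1 y2 y3 = s.val y1 y2 y3 * t.val y1 y2 y3 := by
  obtain ⟨h1, h2, h3⟩ := Norm_pure hs
  simp only [ET.val, ET.mul, Cx.toC_add, Cx.toC_mul, h1, h2, h3]
  rw [show (s.w1.toC + t.w1.toC) * y1 + (s.w2.toC + t.w2.toC) * y2 + (s.w3.toC + t.w3.toC) * y3 =
    (s.w1.toC * y1 + s.w2.toC * y2 + s.w3.toC * y3) +
      (t.w1.toC * y1 + t.w2.toC * y2 + t.w3.toC * y3) by ring, Complex.exp_add]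
  ring

theorem Norm_val_map_mul {s : ET} (hs : s.pure = true) (q : EL) (y1 y2 y3 : ℝ) :
    EL.val (q.map fun t => s.mul t) y1 y2 y3 = s.val y1 y2 y3 * EL.val q y1 y2 y3 := by
  induction q with
  | nil => simp [EL.val]
  | cons t q ih => rw [List.map_cons, EL.val_cons, EL.val_cons, ih, Norm_val_mul hs, mul_add]

theorem Norm_toC_conj (a : Cx) : a.conj.toC = starRingEnd ℂ a.toC := by
  simp [Cx.toC, Cx.conj]

theorem Norm_val_conj (t : ET) (y1 y2 y3 : ℝ) :
    t.conj.val y1 y2 y3 = starRingEnd ℂ (t.val y1 y2 y3) := by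
  simp only [ET.val, ET.conj, Norm_toC_conj, map_mul, map_add, ← Complex.exp_conj,
    Complex.conj_ofReal]

theorem Norm_re_canon (t : ET) (y1 y2 y3 : ℝ) :
    (t.canon.val y1 y2 y3).re = (t.val y1 y2 y3).re := by
  have hc : (t.conj.val y1 y2 y3).re = (t.val y1 y2 y3).re := by
    rw [Norm_val_conj, Complex.conj_re]
  unfold ET.canon
  split_ifs with h1 h2 h3 h4 h5 h6
  any_goals first | exact hc | rfl
  have e1 : t.w1.im = 0 := by omega
  have e2 : t.w2.im = 0 := by omega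
  have e3 : t.w3.im = 0 := by omega
  have hw : t.w1.toC * y1 + t.w2.toC * y2 + t.w3.toC * y3 =
      ((t.w1.re * y1 + t.w2.re * y2 + t.w3.re * y3 : ℝ) : ℂ) := by
    simp [Cx.toC, e1, e2, e3]
  simp only [ET.val, hw, ← Complex.ofReal_exp, Complex.re_ofReal_mul]
  simp [Cx.toC, Cx.reP]

theorem Norm_force {α : Type} (t : ET) (k : ET → α) : t.force k = k t := by
  simp [ET.force]

theorem Norm_val_ins (t : ET) (p : EL) (y1 y2 y3 : ℝ) :
    (EL.ins t p).val y1 y2 y3 = t.val y1 y2 y3 + p.val y1 y2 y3 := by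
  induction p with
  | nil => exact EL.val_cons _ _ _ _ _
  | cons s l ih =>
    have h0 : EL.ins t (s :: l) = cond (decide (s.w1 = t.w1 ∧ s.w2 = t.w2 ∧ s.w3 = t.w3))
        (ET.force ⟨s.w1, s.w2, s.w3, s.A.add t.A, s.B1.add t.B1, s.B2.add t.B2, s.B3.add t.B3⟩
          fun r => r :: l) (s :: EL.ins t l) := rfl
    rw [h0, Norm_force]
    by_cases h : s.w1 = t.w1 ∧ s.w2 = t.w2 ∧ s.w3 = t.w3
    · rw [decide_eq_true h, cond_true, EL.val_cons, EL.val_cons]
      obtain ⟨h1, h2, h3⟩ := h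
      simp only [ET.val, Cx.toC_add, h1, h2, h3]
      ring
    · rw [decide_eq_false h, cond_false, EL.val_cons, EL.val_cons, ih]
      ring

theorem Norm_re_merge (p : EL) (y1 y2 y3 : ℝ) :
    (p.merge.val y1 y2 y3).re = (p.val y1 y2 y3).re := by
  induction p with
  | nil => rfl
  | cons t l ih =>
    have h0 : EL.merge (t :: l) = t.canon.force fun r => EL.ins r (EL.merge l) := rfl
    rw [h0, Norm_force, Norm_val_ins, EL.val_cons, Complex.add_re, Complex.add_re, ih,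
      Norm_re_canon]

theorem Norm_re_sum (l : List ℂ) : l.sum.re = (l.map Complex.re).sum := by
  induction l with
  | nil => rfl
  | cons a l ih => rw [List.sum_cons, Complex.add_re, ih, List.map_cons, List.sum_cons]

theorem EL.val_mul {p : EL} (hp : p.pure = true) (q : EL) (y1 y2 y3 : ℝ) :
    EL.val (p.mul q) y1 y2 y3 = EL.val p y1 y2 y3 * EL.val q y1 y2 y3 := by
  induction p with
  | nil => simp [EL.mul, EL.val]
  | cons s p ih =>
    simp only [EL.pure, List.all_cons, Bool.and_eq_true] at hp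
    have h1 : EL.mul (s :: p) q = (q.map fun t => s.mul t) ++ EL.mul p q := by
      simp [EL.mul]
    rw [h1, EL.val_append, ih hp.2, EL.val_cons, Norm_val_map_mul hp.1, add_mul]
theorem EL.val_smul (c : Cx) (p : EL) (y1 y2 y3 : ℝ) :
    EL.val (EL.smul c p) y1 y2 y3 = c.toC * EL.val p y1 y2 y3 := by
  induction p with
  | nil => simp [EL.smul, EL.val]
  | cons t p ih =>
    have h1 : EL.smul c (t :: p) =
        ⟨t.w1, t.w2, t.w3, c.mul t.A, c.mul t.B1, c.mul t.B2, c.mul t.B3⟩ :: EL.smul c p := rfl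
    rw [h1, EL.val_cons, EL.val_cons, ih]
    simp only [ET.val, Cx.toC_mul]
    ring
theorem EL.re_eq_zero {p : EL} (h : p.reZero = true) (y1 y2 y3 : ℝ) : (p.val y1 y2 y3).re = 0 := by
  rw [← Norm_re_merge]
  simp only [EL.reZero, allL_eq] at h
  generalize p.merge = q at h
  induction q with
  | nil => simp [EL.val]
  | cons t q ih =>
    simp only [List.all_cons, Bool.and_eq_true] at h
    obtain ⟨⟨hA, hp⟩, hq⟩ := h
    obtain ⟨h1, h2, h3⟩ := Norm_pure hp
    rw [EL.val_cons, Complex.add_re, ih hq]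
    simp [ET.val, Norm_isZ hA, h1, h2, h3]
theorem Inst.val_eq (I : Inst) (y1 y2 y3 : ℝ) : I.val y1 y2 y3 = (I.toEL.val y1 y2 y3).re := by
  rw [Inst.toEL, EL.val_flatMap, Norm_re_sum, List.map_map, Inst.val]
  congr 1
  refine List.map_congr_left fun g _ => ?_
  simp only [Function.comp, EL.val, List.map_map]
  rw [Norm_re_sum, List.map_map]
  congr 1
  refine List.map_congr_left fun t _ => ?_
  simp only [Function.comp, Tm.cval, ET.val, Cx.toC_mul]
  congr 2
  ring
theorem Inst.val_eq_of_reZero {I : Inst} {p : EL}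
    (h : EL.reZero (p ++ EL.smul ⟨-1, 0⟩ I.toEL) = true) (y1 y2 y3 : ℝ) :
    I.val y1 y2 y3 = (p.val y1 y2 y3).re := by
  have h1 := EL.re_eq_zero h y1 y2 y3
  have h2 : (⟨-1, 0⟩ : Cx).toC = -1 := by simp [Cx.toC]
  rw [EL.val_append, EL.val_smul, h2, Complex.add_re, neg_one_mul, Complex.neg_re] at h1
  rw [Inst.val_eq]
  linarith

/-- sums over permutations as sums over explicit lists -/
def perms3 : List (Fin 3 → Fin 3) :=
  [![0, 1, 2], ![0, 2, 1], ![1, 0, 2], ![1, 2, 0], ![2, 0, 1], ![2, 1, 0]]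
def perms4 : List (Fin 4 → Fin 4) :=
  [![0, 1, 2, 3], ![0, 1, 3, 2], ![0, 2, 1, 3], ![0, 2, 3, 1], ![0, 3, 1, 2], ![0, 3, 2, 1],
   ![1, 0, 2, 3], ![1, 0, 3, 2], ![1, 2, 0, 3], ![1, 2, 3, 0], ![1, 3, 0, 2], ![1, 3, 2, 0],
   ![2, 0, 1, 3], ![2, 0, 3, 1], ![2, 1, 0, 3], ![2, 1, 3, 0], ![2, 3, 0, 1], ![2, 3, 1, 0],
   ![3, 0, 1, 2], ![3, 0, 2, 1], ![3, 1, 0, 2], ![3, 1, 2, 0], ![3, 2, 0, 1], ![3, 2, 1, 0]]
theorem Norm_sum_perm {M : Type*} [AddCommMonoid M] {n : ℕ} (f : (Fin n → Fin n) → M)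
    (l : List (Fin n → Fin n)) (hl : l.Nodup)
    (h : ∀ g : Fin n → Fin n, g ∈ l ↔ Function.Injective g) :
    ∑ π : Equiv.Perm (Fin n), f π = (l.map f).sum := by
  rw [← List.sum_toFinset _ hl]
  refine Finset.sum_bij (fun π _ => (π : Fin n → Fin n)) (fun π _ => ?_) (fun π _ σ _ e => ?_)
    (fun g hg => ?_) fun _ _ => rfl
  · exact List.mem_toFinset.2 ((h _).2 π.injective)
  · exact DFunLike.coe_injective e
  · have hi := (h g).1 (List.mem_toFinset.1 hg)
    exact ⟨Equiv.ofBijective g (Finite.injective_iff_bijective.1 hi), Finset.mem_univ _, rfl⟩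

theorem sum_perm3 {M : Type*} [AddCommMonoid M] (f : (Fin 3 → Fin 3) → M) :
    ∑ π : Equiv.Perm (Fin 3), f π = (perms3.map f).sum := by
  refine Norm_sum_perm f perms3 (by decide) (by decide +kernel)
theorem sum_perm4 {M : Type*} [AddCommMonoid M] (f : (Fin 4 → Fin 4) → M) :
    ∑ π : Equiv.Perm (Fin 4), f π = (perms4.map f).sum := by
  refine Norm_sum_perm f perms4 (by decide +kernel) (by decide +kernel)

end Crest.Agent.R163.E2
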