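import Crest.Agent.R163.E2.Num

/-!
# R163/E2/Apx: error analysis of the fixed-point exponentials

Recipes.  Product rule: if `|ã - a 2^96| ≤ e1`, `|b̃ - b 2^96| ≤ e2`, `|a|,|b| ≤ 1`, `e1,e2 ≤ 2^48`, then the rounded product
has error `≤ e1 + e2 + 3` (cross term `e1 e2 / 2^96 ≤ 1`, rounding `≤ 1` per component, `√2 ≤ 2`).
Table entry `j` (the `2^j`-th power) has error `≤ 4 * 2^j - 3`; the accumulator of `powN`/`powC` has error
`≤ 4 * (exponent consumed so far)`.  Base constants: `Real.exp_bound` / `Complex.exp_bound` (about 8 terms) + `norm_num`.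
`mkTab x cnt pw = ∑_{k ≤ cnt} pw_k 2^(97 k)`, `pw_{k+1} = mulN pw_k x`, error of `pw_k` is `≤ k (4 n + 3)`, all lanes are
`< 2^97`; `Nat.and_two_pow_sub_one_eq_mod`, `Nat.shiftRight_eq_div_pow`, `Int.shiftRight_eq_div_pow`.
-/

set_option autoImplicit false

namespace Crest.Agent.R163.E2

noncomputable def eTab : List ℕ := sqN 28 xi0 id
noncomputable def cTab : List Cx := sqC 28 ze0 id

/-- the list of repeated squares -/
def apxSq {α : Type} (mul : α → α → α) : ℕ → α → List α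
  | 0, _ => []
  | n + 1, x => x :: apxSq mul n (mul x x)

/-- binary powering -/
def apxPow {α : Type} (mul : α → α → α) : List α → ℕ → α → α
  | [], _, acc => acc
  | b :: l, n, acc => if n = 0 then acc else apxPow mul l (n / 2) (if n % 2 = 1 then mul acc b else acc)

theorem apx_sqN {α : Type} (n x : ℕ) (k : List ℕ → α) : sqN n x k = k (apxSq mulN n x) := by
  induction n generalizing x k with
  | zero => rfl
  | succ n ih =>
    change force (mulN x x) (fun y => sqN n y fun l => k (x :: l)) = _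
    rw [force_eq, ih]
    rfl

theorem apx_sqC {α : Type} (n : ℕ) (x : Cx) (k : List Cx → α) :
    sqC n x k = k (apxSq mulC n x) := by
  induction n generalizing x k with
  | zero => rfl
  | succ n ih =>
    change (mulC x x).force (fun y => sqC n y fun l => k (x :: l)) = _
    rw [Cx.force_eq, ih]
    rfl

theorem apx_eTab : eTab = apxSq mulN 28 xi0 := apx_sqN 28 xi0 id
theorem apx_cTab : cTab = apxSq mulC 28 ze0 := apx_sqC 28 ze0 id

theorem apx_powN (tab : List ℕ) (n acc : ℕ) : powN tab n acc = apxPow mulN tab n acc := by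
  induction tab generalizing n acc with
  | nil => rfl
  | cons b l ih =>
    cases n with
    | zero => rfl
    | succ n =>
      change force ((n + 1) >>> 1) (fun n' => force (cond (Nat.beq ((n + 1) &&& 1) 1) (mulN acc b) acc)
        fun a => powN l n' a) = _
      rw [force_eq, force_eq, ih, apxPow, if_neg n.succ_ne_zero, Nat.shiftRight_eq_div_pow,
        Nat.and_one_is_mod]
      rcases Nat.mod_two_eq_zero_or_one (n + 1) with h | h <;> rw [h] <;> rfl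

theorem apx_powC (tab : List Cx) (n : ℕ) (acc : Cx) : powC tab n acc = apxPow mulC tab n acc := by
  induction tab generalizing n acc with
  | nil => rfl
  | cons b l ih =>
    cases n with
    | zero => rfl
    | succ n =>
      change force ((n + 1) >>> 1) (fun n' => cond (Nat.beq ((n + 1) &&& 1) 1)
        ((mulC acc b).force fun a => powC l n' a) (powC l n' acc)) = _
      rw [force_eq, Cx.force_eq, ih, ih, apxPow, if_neg n.succ_ne_zero, Nat.shiftRight_eq_div_pow,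
        Nat.and_one_is_mod]
      rcases Nat.mod_two_eq_zero_or_one (n + 1) with h | h <;> rw [h] <;> rfl

theorem apx_int_div (a : ℤ) (n : ℕ) : |((Int.shiftRight a n : ℤ) : ℝ) - a / 2 ^ n| ≤ 1 := by
  have h0 : Int.shiftRight a n = a / 2 ^ n := by
    have := Int.shiftRight_eq_div_pow a n
    push_cast at this
    exact this
  have hp : (0 : ℤ) < 2 ^ n := by positivity
  have hp' : (0 : ℝ) < 2 ^ n := by positivity
  have h1 : ((a / 2 ^ n * 2 ^ n : ℤ) : ℝ) ≤ a := by exact_mod_cast Int.ediv_mul_le a hp.ne'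
  have h2 : (a : ℝ) < (((a / 2 ^ n + 1) * 2 ^ n : ℤ) : ℝ) := by
    exact_mod_cast Int.lt_ediv_add_one_mul_self a hp
  rw [h0]
  generalize a / 2 ^ n = q at h1 h2
  push_cast at h1 h2
  have h3 := (le_div_iff₀ hp').2 h1
  have h4 := (div_lt_iff₀ hp').2 h2
  exact abs_le.2 ⟨by linarith, by linarith⟩

theorem apx_nat_div (a n : ℕ) : |((Nat.shiftRight a n : ℕ) : ℝ) - a / 2 ^ n| ≤ 1 :=
  apx_int_div (Int.ofNat a) n

theorem apx_prod {𝕜 : Type} [RCLike 𝕜] {a b x y : 𝕜} {e1 e2 : ℝ} (hx : ‖x‖ ≤ 1) (hy : ‖y‖ ≤ 1)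
    (h1 : e1 ≤ 2 ^ 48) (h2 : e2 ≤ 2 ^ 48) (ha : ‖a - x * 2 ^ 96‖ ≤ e1)
    (hb : ‖b - y * 2 ^ 96‖ ≤ e2) : ‖a * b / 2 ^ 96 - x * y * 2 ^ 96‖ ≤ e1 + e2 + 1 := by
  have e : a * b / 2 ^ 96 - x * y * 2 ^ 96 = (a - x * 2 ^ 96) * y + x * (b - y * 2 ^ 96) +
      (a - x * 2 ^ 96) * (b - y * 2 ^ 96) / 2 ^ 96 := by
    field_simp
    ring
  have h3 := norm_nonneg (a - x * 2 ^ 96)
  have h4 := norm_nonneg (b - y * 2 ^ 96)
  rw [e]
  refine (norm_add₃_le).trans (add_le_add (add_le_add ?_ ?_) ?_)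
  · rw [norm_mul]
    exact (mul_le_of_le_one_right h3 hy).trans ha
  · rw [norm_mul]
    exact (mul_le_of_le_one_left h4 hx).trans hb
  · rw [norm_div, norm_mul, norm_pow, RCLike.norm_two, div_le_one (by positivity)]
    calc _ ≤ (2 : ℝ) ^ 48 * 2 ^ 48 := mul_le_mul (ha.trans h1) (hb.trans h2) h4 (by positivity)
      _ = 2 ^ 96 := by norm_num

theorem apx_pow_spec {α 𝕜 : Type} [RCLike 𝕜] (φ : α → 𝕜) (mul : α → α → α)
    (hmul : ∀ {a b : α} {x y : 𝕜} {e1 e2 : ℝ}, ‖x‖ ≤ 1 → ‖y‖ ≤ 1 → e1 ≤ 2 ^ 48 → e2 ≤ 2 ^ 48 →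
      ‖φ a - x * 2 ^ 96‖ ≤ e1 → ‖φ b - y * 2 ^ 96‖ ≤ e2 →
      ‖φ (mul a b) - x * y * 2 ^ 96‖ ≤ e1 + e2 + 3)
    (L : ℕ) (x : α) (y : 𝕜) (j n : ℕ) (acc : α) (w : 𝕜) (E : ℝ) (hj : j + L ≤ 28) (hy : ‖y‖ ≤ 1)
    (hx : ‖φ x - y * 2 ^ 96‖ ≤ 4 * 2 ^ j - 3) (hn : n < 2 ^ L) (hw : ‖w‖ ≤ 1)
    (ha : ‖φ acc - w * 2 ^ 96‖ ≤ E) (hE : E ≤ 4 * 2 ^ j) :
    ‖φ (apxPow mul (apxSq mul L x) n acc) - w * y ^ n * 2 ^ 96‖ ≤ E + 4 * 2 ^ j * n := by
  induction L generalizing x y j n acc w E with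
  | zero =>
    obtain rfl : n = 0 := by omega
    simpa [apxSq, apxPow] using ha
  | succ L ih =>
    rw [apxSq, apxPow]
    have hb : (4 : ℝ) * 2 ^ j ≤ 2 ^ 48 :=
      calc (4 : ℝ) * 2 ^ j ≤ 4 * 2 ^ 28 := by gcongr; exacts [one_le_two, by omega]
        _ ≤ 2 ^ 48 := by norm_num
    have hx2 : ‖φ (mul x x) - y * y * 2 ^ 96‖ ≤ 4 * 2 ^ (j + 1) - 3 :=
      (hmul hy hy (by linarith) (by linarith) hx hx).trans (le_of_eq (by ring))
    have hy2 : ‖y * y‖ ≤ 1 := by rw [norm_mul]; exact mul_le_one₀ hy (norm_nonneg _) hy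
    have hp : (0 : ℝ) < 2 ^ j := by positivity
    split_ifs with h0 h1
    · subst h0
      simpa using ha
    · have h2 := ih (mul x x) (y * y) (j + 1) (n / 2) (mul acc x) (w * y) (E + 4 * 2 ^ j)
        (by omega) hy2 hx2 (by omega) (by rw [norm_mul]; exact mul_le_one₀ hw (norm_nonneg _) hy)
        ((hmul hw hy (by linarith) (by linarith) ha hx).trans (le_of_eq (by ring)))
        (by rw [pow_succ]; linarith)
      obtain ⟨m, rfl⟩ : ∃ m, n = 2 * m + 1 := ⟨n / 2, by omega⟩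
      rw [show (2 * m + 1) / 2 = m by omega] at h2 ⊢
      convert h2 using 1
      · congr 2; ring
      · push_cast; ring
    · have h2 := ih (mul x x) (y * y) (j + 1) (n / 2) acc w E
        (by omega) hy2 hx2 (by omega) hw ha (by rw [pow_succ]; linarith)
      obtain ⟨m, rfl⟩ : ∃ m, n = 2 * m := ⟨n / 2, by omega⟩
      rw [show 2 * m / 2 = m by omega] at h2 ⊢
      convert h2 using 1
      · congr 2; ring
      · push_cast; ring

theorem sqN_eq {α : Type} (k : List ℕ → α) : sqN 28 xi0 k = k eTab := by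
  rw [apx_sqN, apx_eTab]
theorem sqC_eq {α : Type} (k : List Cx → α) : sqC 28 ze0 k = k cTab := by
  rw [apx_sqC, apx_cTab]

namespace Cx
@[simp] theorem toC_add (a b : Cx) : (a.add b).toC = a.toC + b.toC := by
  simp only [toC, add, Int.add_def]; push_cast; ring
@[simp] theorem toC_mul (a b : Cx) : (a.mul b).toC = a.toC * b.toC := by
  simp only [toC, mul, Int.add_def, Int.mul_def, show ∀ a b : ℤ, Int.sub a b = a - b from fun _ _ => rfl]
  push_cast
  linear_combination (-(a.im : ℂ) * b.im) * Complex.I_sq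
@[simp] theorem toC_smul (c : ℤ) (a : Cx) : (Cx.smul c a).toC = (c : ℂ) * a.toC := by
  simp only [toC, smul, Int.mul_def]; push_cast; ring
@[simp] theorem toC_re (a : Cx) : a.toC.re = a.re := by
  simp [toC]
@[simp] theorem toC_im (a : Cx) : a.toC.im = a.im := by
  simp [toC]
theorem norm_toC_le (a : Cx) : ‖a.toC‖ ≤ a.n1 := by
  refine (Complex.norm_le_abs_re_add_abs_im _).trans (le_of_eq ?_)
  rw [toC_re, toC_im, n1, Nat.add_eq]
  push_cast [Nat.cast_natAbs]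
  rfl
theorem norm_shr_sub (a : Cx) (n : ℕ) : ‖(a.shr n).toC - a.toC / 2 ^ n‖ ≤ 2 := by
  refine (Complex.norm_le_abs_re_add_abs_im _).trans ?_
  have e : (2 : ℂ) ^ n = ((2 ^ n : ℝ) : ℂ) := by push_cast; rfl
  rw [e, Complex.sub_re, Complex.sub_im, Complex.div_ofReal_re, Complex.div_ofReal_im, toC_re,
    toC_im, toC_re, toC_im]
  exact (add_le_add (apx_int_div a.re n) (apx_int_div a.im n)).trans (by norm_num)
end Cx

theorem mulN_spec {a b : ℕ} {x y e1 e2 : ℝ} (hx : |x| ≤ 1) (hy : |y| ≤ 1) (h1 : e1 ≤ 2 ^ 48)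
    (h2 : e2 ≤ 2 ^ 48) (ha : |(a : ℝ) - x * 2 ^ 96| ≤ e1) (hb : |(b : ℝ) - y * 2 ^ 96| ≤ e2) :
    |(mulN a b : ℝ) - x * y * 2 ^ 96| ≤ e1 + e2 + 3 := by
  have h3 := apx_prod (𝕜 := ℝ) hx hy h1 h2 ha hb
  have h4 := apx_nat_div (a * b) 96
  push_cast at h4
  rw [Real.norm_eq_abs] at h3
  exact (abs_sub_le _ ((a : ℝ) * b / 2 ^ 96) _).trans (by unfold mulN; rw [Nat.mul_eq]; linarith)
theorem mulC_spec {a b : Cx} {x y : ℂ} {e1 e2 : ℝ} (hx : ‖x‖ ≤ 1) (hy : ‖y‖ ≤ 1) (h1 : e1 ≤ 2 ^ 48)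
    (h2 : e2 ≤ 2 ^ 48) (ha : ‖a.toC - x * 2 ^ 96‖ ≤ e1) (hb : ‖b.toC - y * 2 ^ 96‖ ≤ e2) :
    ‖(mulC a b).toC - x * y * 2 ^ 96‖ ≤ e1 + e2 + 3 := by
  have h3 := apx_prod hx hy h1 h2 ha hb
  have h4 := Cx.norm_shr_sub (a.mul b) 96
  rw [Cx.toC_mul] at h4
  exact (norm_sub_le_norm_sub_add_norm_sub _ (a.toC * b.toC / 2 ^ 96) _).trans
    (by unfold mulC; linarith)

theorem apx_xi0 : |(xi0 : ℝ) - Real.exp (-(1 / 2 ^ 16)) * 2 ^ 96| ≤ 1 := by
  have h := Real.exp_bound (x := -(1 / 2 ^ 16)) (by rw [abs_neg, abs_of_pos] <;> norm_num)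
    (n := 7) (by norm_num)
  rw [abs_neg, abs_of_pos (a := (1 / 2 ^ 16 : ℝ)) (by norm_num), abs_le] at h
  simp only [Finset.sum_range_succ, Finset.sum_range_zero, Nat.factorial] at h
  norm_num at h
  rw [abs_le, xi0]
  constructor <;> norm_num <;> linarith [h.1, h.2]

theorem apx_ze0 : ‖ze0.toC - Complex.exp (1 / 2 ^ 16 * Complex.I) * 2 ^ 96‖ ≤ 1 := by
  have hn : ‖(1 / 2 ^ 16 * Complex.I : ℂ)‖ = 1 / 2 ^ 16 := by simp
  have h := Complex.exp_bound (x := 1 / 2 ^ 16 * Complex.I) (by rw [hn]; norm_num)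
    (n := 7) (by norm_num)
  rw [hn] at h
  have h2 : ‖ze0.toC - (∑ m ∈ Finset.range 7,
      (1 / 2 ^ 16 * Complex.I : ℂ) ^ m / m.factorial) * 2 ^ 96‖ ≤ 9 / 10 := by
    have e : (∑ m ∈ Finset.range 7, (1 / 2 ^ 16 * Complex.I : ℂ) ^ m / m.factorial) * 2 ^ 96 =
        ((2 ^ 96 - 2 ^ 64 / 2 + 2 ^ 32 / 24 - 1 / 720 : ℝ) : ℂ) +
          ((2 ^ 80 - 2 ^ 48 / 6 + 2 ^ 16 / 120 : ℝ) : ℂ) * Complex.I := by
      simp only [Finset.sum_range_succ, Finset.sum_range_zero, Nat.factorial, mul_pow,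
        pow_succ Complex.I, pow_zero, one_mul, Complex.I_mul_I, neg_mul, neg_neg]
      push_cast
      ring
    rw [e]
    refine (Complex.norm_le_abs_re_add_abs_im _).trans ?_
    simp only [Complex.sub_re, Complex.sub_im, Cx.toC_re, Cx.toC_im, Complex.add_re, Complex.add_im,
      Complex.ofReal_re, Complex.ofReal_im, Complex.mul_re, Complex.mul_im, Complex.I_re,
      Complex.I_im, ze0]
    norm_num [abs_of_nonneg, abs_of_nonpos]
  refine (norm_sub_le_norm_sub_add_norm_sub _ _ _).trans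
    ((add_le_add h2 (?_ : _ ≤ (1 / 10 : ℝ))).trans (by norm_num))
  rw [← sub_mul, norm_mul, norm_sub_rev, norm_pow, Complex.norm_two]
  refine (mul_le_mul_of_nonneg_right h (by positivity)).trans ?_
  norm_num [Nat.factorial]

theorem apx_one96 : ((one96 : ℕ) : ℝ) = 2 ^ 96 := by norm_num [one96]

theorem apx_oneC : (⟨Int.ofNat one96, 0⟩ : Cx).toC = 2 ^ 96 := by norm_num [Cx.toC, one96]

theorem apx_exp_le {t : ℝ} (ht : 0 ≤ t) : |Real.exp (-t)| ≤ 1 := by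
  rw [abs_of_pos (Real.exp_pos _)]
  exact Real.exp_le_one_iff.2 (neg_nonpos.2 ht)

theorem apx_expI (m : ℕ) : ‖Complex.exp ((m : ℂ) / 2 ^ 16 * Complex.I)‖ ≤ 1 := by
  have : (m : ℂ) / 2 ^ 16 = ((m / 2 ^ 16 : ℝ) : ℂ) := by push_cast; rfl
  rw [this, Complex.norm_exp_ofReal_mul_I]

theorem powN_spec {n : ℕ} (hn : n < 2 ^ 28) :
    |(powN eTab n one96 : ℝ) - Real.exp (-((n : ℝ) / 2 ^ 16)) * 2 ^ 96| ≤ 4 * (n : ℝ) := by
  have h := apx_pow_spec (𝕜 := ℝ) (fun a : ℕ => (a : ℝ)) mulN mulN_spec 28 xi0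
    (Real.exp (-(1 / 2 ^ 16))) 0 n one96 1 0 le_rfl (apx_exp_le (by norm_num))
    (apx_xi0.trans (by norm_num)) hn norm_one.le (by simp [apx_one96]) (by norm_num)
  rw [← Real.exp_nat_mul, Real.norm_eq_abs, ← apx_powN, ← apx_eTab] at h
  convert h using 1
  · congr 3; ring_nf
  · ring
theorem powC_spec {n : ℕ} (hn : n < 2 ^ 28) :
    ‖(powC cTab n ⟨Int.ofNat one96, 0⟩).toC -
      Complex.exp (((n : ℂ) / 2 ^ 16) * Complex.I) * 2 ^ 96‖ ≤ 4 * (n : ℝ) := by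
  have h := apx_pow_spec (𝕜 := ℂ) Cx.toC mulC mulC_spec 28 ze0
    (Complex.exp (1 / 2 ^ 16 * Complex.I)) 0 n ⟨Int.ofNat one96, 0⟩ 1 0 le_rfl
    (by simpa using apx_expI 1) (apx_ze0.trans (by norm_num)) hn norm_one.le
    (by rw [apx_oneC]; simp) (by norm_num)
  rw [← Complex.exp_nat_mul, ← apx_powC, ← apx_cTab] at h
  convert h using 1
  · congr 3; ring_nf
  · ring

theorem apx_mkTab (x cnt pw a : ℕ) (ha : a ≤ cnt)
    (h : ∀ k ≤ cnt, (fun p => mulN p x)^[k] pw < 2 ^ 97) :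
    mkTab x cnt pw / 2 ^ (97 * a) % 2 ^ 97 = (fun p => mulN p x)^[a] pw := by
  induction cnt generalizing pw a with
  | zero =>
    obtain rfl : a = 0 := by omega
    change pw / 2 ^ (97 * 0) % 2 ^ 97 = pw
    rw [mul_zero, pow_zero, Nat.div_one]
    exact Nat.mod_eq_of_lt (h 0 le_rfl)
  | succ cnt ih =>
    have e : mkTab x (cnt + 1) pw = pw + mkTab x cnt (mulN pw x) * 2 ^ 97 := by
      change force (mulN pw x) (fun pw' => pw + mkTab x cnt pw' <<< 97) = _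
      rw [force_eq, Nat.shiftLeft_eq]
    have h0 : pw < 2 ^ 97 := h 0 (Nat.zero_le _)
    rw [e]
    cases a with
    | zero =>
      rw [mul_zero, pow_zero, Nat.div_one, Nat.add_mul_mod_self_right]
      exact Nat.mod_eq_of_lt h0
    | succ a =>
      rw [mul_add, mul_one, add_comm (97 * a), pow_add, ← Nat.div_div_eq_div_mul,
        Nat.add_mul_div_right _ _ (by positivity), Nat.div_eq_of_lt h0, zero_add,
        ih _ a (by omega) fun k hk => h (k + 1) (by omega)]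
      rfl

theorem apx_lt {a : ℕ} {t e : ℝ} (ht : 0 ≤ t) (he : e ≤ 2 ^ 48)
    (h : |(a : ℝ) - Real.exp (-t) * 2 ^ 96| ≤ e) : a < 2 ^ 97 := by
  have h1 := (abs_le.1 h).2
  have h2 := (abs_le.1 (apx_exp_le ht)).2
  have h3 : (a : ℝ) < 2 ^ 97 := by nlinarith
  exact_mod_cast h3

theorem apx_le {a n : ℕ} (ha : a ≤ 64) (hn : n < 2 ^ 22) : (a : ℝ) * (4 * n + 3) ≤ 2 ^ 30 := by
  have h1 : (a : ℝ) ≤ 64 := by exact_mod_cast ha
  have h2 : (n : ℝ) + 1 ≤ 2 ^ 22 := by exact_mod_cast hn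
  calc (a : ℝ) * (4 * n + 3) ≤ 64 * 2 ^ 24 := mul_le_mul h1 (by linarith) (by positivity) (by norm_num)
    _ = 2 ^ 30 := by norm_num

theorem look_spec {amax n a : ℕ} (hm : amax ≤ 64) (hn : n < 2 ^ 22) (ha : a ≤ amax) :
    |(look (expTab eTab amax n) (sh a) : ℝ) - Real.exp (-((a : ℝ) * n / 2 ^ 16)) * 2 ^ 96|
      ≤ (a : ℝ) * (4 * n + 3) := by
  have hx := powN_spec (n := n) (hn.trans (by norm_num))
  have hn' : (n : ℝ) ≤ 2 ^ 22 := by exact_mod_cast hn.le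
  have h1 : ∀ k ≤ 64, |(((fun p => mulN p (powN eTab n one96))^[k] one96 : ℕ) : ℝ) -
      Real.exp (-((k : ℝ) * n / 2 ^ 16)) * 2 ^ 96| ≤ (k : ℝ) * (4 * n + 3) := by
    intro k hk
    induction k with
    | zero => simp [apx_one96]
    | succ k ih =>
      have h2 := mulN_spec (apx_exp_le (by positivity)) (apx_exp_le (by positivity))
        ((apx_le (by omega) hn).trans (by norm_num)) (by linarith) (ih (by omega)) hx
      rw [← Real.exp_add] at h2
      rw [Function.iterate_succ_apply']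
      convert h2 using 1
      · congr 4; push_cast; ring
      · push_cast; ring
  have h2 : look (expTab eTab amax n) (sh a) = (fun p => mulN p (powN eTab n one96))^[a] one96 := by
    have h3 : powN eTab n one96 < 2 ^ 97 := apx_lt (by positivity) (by linarith) hx
    rw [← apx_mkTab _ amax one96 a ha fun k hk => apx_lt (by positivity)
      ((apx_le (hk.trans hm) hn).trans (by norm_num)) (h1 k (hk.trans hm))]
    unfold expTab
    rw [force_eq]
    change ((powN eTab n one96 + mkTab (powN eTab n one96) amax one96 <<< 97) >>> (97 * (a + 1)))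
      &&& (2 ^ 97 - 1) = _
    rw [Nat.and_two_pow_sub_one_eq_mod, Nat.shiftRight_eq_div_pow, Nat.shiftLeft_eq, mul_add,
      mul_one, add_comm (97 * a), pow_add, ← Nat.div_div_eq_div_mul,
      Nat.add_mul_div_right _ _ (by positivity), Nat.div_eq_of_lt h3, zero_add]
  rw [h2]
  exact h1 a (ha.trans hm)

theorem rOf_spec {amax n1 n2 n3 a1 a2 a3 : ℕ} (hm : amax ≤ 64) (h1 : n1 < 2 ^ 22) (h2 : n2 < 2 ^ 22)
    (h3 : n3 < 2 ^ 22) (ha1 : a1 ≤ amax) (ha2 : a2 ≤ amax) (ha3 : a3 ≤ amax) :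
    |(rOf (expTab eTab amax n1) (expTab eTab amax n2) (expTab eTab amax n3) (sh a1) (sh a2) (sh a3) : ℝ)
      - Real.exp (-(((a1 : ℝ) * n1 + a2 * n2 + a3 * n3) / 2 ^ 16)) * 2 ^ 64| ≤ 2 := by
  have l1 := (look_spec hm h1 ha1).trans (apx_le (ha1.trans hm) h1)
  have l2 := (look_spec hm h2 ha2).trans (apx_le (ha2.trans hm) h2)
  have l3 := (look_spec hm h3 ha3).trans (apx_le (ha3.trans hm) h3)
  have m1 := mulN_spec (apx_exp_le (by positivity)) (apx_exp_le (by positivity)) (by norm_num)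
    (by norm_num) l1 l2
  rw [← Real.exp_add, ← neg_add] at m1
  have m2 := apx_prod (𝕜 := ℝ) (apx_exp_le (by positivity)) (apx_exp_le (by positivity))
    (by norm_num) (by norm_num) m1 l3
  rw [← Real.exp_add, Real.norm_eq_abs, show -((a1 : ℝ) * n1 / 2 ^ 16 + a2 * n2 / 2 ^ 16) +
    -(a3 * n3 / 2 ^ 16) = -((a1 * n1 + a2 * n2 + a3 * n3) / 2 ^ 16) by ring] at m2
  unfold rOf
  rw [Nat.mul_eq]
  have m3 := apx_nat_div (mulN (look (expTab eTab amax n1) (sh a1))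
    (look (expTab eTab amax n2) (sh a2)) * look (expTab eTab amax n3) (sh a3)) 128
  rw [Nat.cast_mul] at m3
  rw [abs_le] at m2 m3 ⊢
  constructor <;> linarith [m2.1, m2.2, m3.1, m3.2]

theorem apx_step {m k : ℕ} {za z : Cx} {E : ℝ} (hE : E ≤ 2 ^ 48) (e : Bool)
    (ha : ‖za.toC - Complex.exp ((m : ℂ) / 2 ^ 16 * Complex.I) * 2 ^ 96‖ ≤ E)
    (hz : ‖z.toC - Complex.exp ((k : ℂ) / 2 ^ 16 * Complex.I) * 2 ^ 96‖ ≤ 2 ^ 30) :
    ‖(cond e (mulC za z) za).toC -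
      Complex.exp (((m + cond e k 0 : ℕ) : ℂ) / 2 ^ 16 * Complex.I) * 2 ^ 96‖ ≤ E + 2 ^ 30 + 3 := by
  cases e with
  | false => exact ha.trans (by linarith)
  | true =>
    have h := mulC_spec (apx_expI m) (apx_expI k) hE (by norm_num) ha hz
    rw [← Complex.exp_add] at h
    have e : ((m + k : ℕ) : ℂ) / 2 ^ 16 * Complex.I =
        (m : ℂ) / 2 ^ 16 * Complex.I + (k : ℂ) / 2 ^ 16 * Complex.I := by
      push_cast
      ring
    rw [← e] at h
    exact h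

theorem apx_powC' {T n : ℕ} (hT : T ≤ 63) (hn : n < 2 ^ 22) :
    ‖(powC cTab (T * n) ⟨Int.ofNat one96, 0⟩).toC -
      Complex.exp (((T * n : ℕ) : ℂ) / 2 ^ 16 * Complex.I) * 2 ^ 96‖ ≤ 2 ^ 30 := by
  have h : T * n < 2 ^ 28 := lt_of_le_of_lt (Nat.mul_le_mul hT hn.le) (by norm_num)
  have h' : ((T * n : ℕ) : ℝ) ≤ 2 ^ 28 := by exact_mod_cast h.le
  exact (powC_spec h).trans (by linarith)

/-- the phase factor of a group, as computed in `grpX` -/
theorem phase_spec {T n1 n2 n3 : ℕ} (hT : T ≤ 63) (h1 : n1 < 2 ^ 22) (h2 : n2 < 2 ^ 22)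
    (h3 : n3 < 2 ^ 22) (e1 e2 e3 : Bool) :
    let z1 := powC cTab (T * n1) ⟨Int.ofNat one96, 0⟩
    let z2 := powC cTab (T * n2) ⟨Int.ofNat one96, 0⟩
    let z3 := powC cTab (T * n3) ⟨Int.ofNat one96, 0⟩
    let za := cond e1 z1 ⟨Int.ofNat one96, 0⟩
    let zb := cond e2 (mulC za z2) za
    ‖((cond e3 (mulC zb z3) zb).shr 32).toC - Complex.exp ((((cond e1 (T * n1) 0 : ℕ) : ℂ) +
      ((cond e2 (T * n2) 0 : ℕ) : ℂ) + ((cond e3 (T * n3) 0 : ℕ) : ℂ)) / 2 ^ 16 * Complex.I) * 2 ^ 64‖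
      ≤ 3 := by
  intro z1 z2 z3 za zb
  have ha : ‖za.toC - Complex.exp (((cond e1 (T * n1) 0 : ℕ) : ℂ) / 2 ^ 16 * Complex.I) * 2 ^ 96‖ ≤
      2 ^ 30 := by
    cases e1 with
    | false =>
      change ‖(⟨Int.ofNat one96, 0⟩ : Cx).toC - _‖ ≤ _
      rw [apx_oneC]
      simp
    | true => exact apx_powC' hT h1
  have hb := apx_step (by norm_num) e2 ha (apx_powC' hT h2)
  have hc := apx_step (by norm_num) e3 hb (apx_powC' hT h3)
  rw [Nat.cast_add, Nat.cast_add] at hc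
  have hd := Cx.norm_shr_sub (cond e3 (mulC zb z3) zb) 32
  refine (norm_sub_le_norm_sub_add_norm_sub _ _ _).trans
    ((add_le_add hd (?_ : _ ≤ (1 : ℝ))).trans (by norm_num))
  have e : ∀ u v : ℂ, u / 2 ^ 32 - v * 2 ^ 64 = (u - v * 2 ^ 96) / 2 ^ 32 := fun u v => by ring
  rw [e, norm_div, norm_pow, Complex.norm_two, div_le_one (by positivity)]
  exact hc.trans (by norm_num)

end Crest.Agent.R163.E2
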