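import Crest.Agent.R163.E2.Inst

/-! # R163/E2/CertDef: the statement of the verified inequalities (generated) -/

set_option autoImplicit false

namespace Crest.Agent.R163.E2

open Tr

structure CertE2 : Prop where
  hq4B : Holds q4B true 6 ⟨0, 2, true⟩ ⟨0, 2, true⟩ ⟨0, 2, true⟩
  hq4A : Holds q4A true 4 ⟨0, 2, true⟩ ⟨0, 2, true⟩ ⟨0, 2, true⟩
  hq4C : Holds q4C true 0 ⟨0, 2, true⟩ ⟨0, 2, true⟩ ⟨0, 2, true⟩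
  hq3B : Holds q3B false 4 ⟨0, 2, true⟩ ⟨0, 2, true⟩ ⟨0, 16, false⟩
  hq3A : Holds q3A false 4 ⟨0, 2, true⟩ ⟨0, 2, true⟩ ⟨0, 16, false⟩
  hq3C : Holds q3C false 0 ⟨0, 2, true⟩ ⟨0, 2, true⟩ ⟨0, 16, false⟩
  hgG : Holds gG false 4 ⟨0, 2, true⟩ ⟨0, 2, true⟩ ⟨0, 16, false⟩
  hgQ : Holds gQ false 4 ⟨0, 2, true⟩ ⟨0, 2, true⟩ ⟨0, 16, false⟩
  hgQC : Holds gQC false 4 ⟨0, 2, true⟩ ⟨0, 2, true⟩ ⟨0, 16, false⟩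
  hgH : Holds gH false 4 ⟨0, 2, true⟩ ⟨0, 2, true⟩ ⟨0, 16, false⟩
  hgC1 : Holds gC1 false 4 ⟨0, 2, true⟩ ⟨0, 2, true⟩ ⟨0, 16, false⟩
  hgC2 : Holds gC2 false 4 ⟨0, 2, true⟩ ⟨0, 2, true⟩ ⟨0, 16, false⟩
  hgC3 : Holds gC3 false 4 ⟨0, 2, true⟩ ⟨0, 2, true⟩ ⟨0, 16, false⟩
  hgC4 : Holds gC4 false 4 ⟨0, 2, true⟩ ⟨0, 2, true⟩ ⟨0, 16, false⟩
  van4B : vanCheck q4B 6 132 = true
  van4H : vanCheck q4H 4 93 = true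

end Crest.Agent.R163.E2
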