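import Crest.Agent.R163.E2.Inst

/-! # R163/E2/CertLoc: local checks (generated) -/

set_option autoImplicit false

namespace Crest.Agent.R163.E2

open Tr

theorem q4A_loc : locCheck q4A true 4 7 8 153 1
    [] = true := by
  decide +kernel

theorem q3B_loc : locCheck q3B false 4 7 6 98 1
    [] = true := by
  decide +kernel

theorem q3A_loc : locCheck q3A false 4 7 6 101 1
    [] = true := by
  decide +kernel

theorem gG_loc : locCheck gG false 4 7 8 111 1
    [] = true := by
  decide +kernel

theorem gQ_loc : locCheck gQ false 4 7 8 125 1
    [] = true := by
  decide +kernel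

theorem gQC_loc : locCheck gQC false 4 7 8 129 1
    [] = true := by
  decide +kernel

theorem gH_loc : locCheck gH false 4 7 8 120 1
    [] = true := by
  decide +kernel

theorem gC1_loc : locCheck gC1 false 4 7 8 119 1
    [] = true := by
  decide +kernel

theorem gC2_loc : locCheck gC2 false 4 7 8 120 1
    [] = true := by
  decide +kernel

theorem gC3_loc : locCheck gC3 false 4 7 8 119 1
    [] = true := by
  decide +kernel

theorem gC4_loc : locCheck gC4 false 4 7 8 122 1
    [] = true := by
  decide +kernel

theorem q4B_van : vanCheck q4B 6 132 = true := by decide +kernel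
theorem q4H_van : vanCheck q4H 4 93 = true := by decide +kernel

end Crest.Agent.R163.E2
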