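import Crest.Agent.R163.E2.Inst

/-! # R163/E2/CertLoc: local checks (generated) -/

set_option autoImplicit false

namespace Crest.Agent.R163.E2

open Tr

theorem q4B_loc : locCheck q4B true 6 9 9 186 1
    [(3031964134952485340263219200, [(3, 0, 0, 1), (2, 0, 1, 1), (1, 0, 2, -1), (2, 1, 0, 2), (0, 1, 2, -2), (0, 0, 3, -1)]),
    (75364309281801738859315200, [(3, 0, 0, 1), (2, 0, 1, 1), (1, 0, 2, -1), (0, 0, 3, -1)]),
    (75364309281801738859315200, [(3, 0, 0, 1), (2, 0, 1, -1), (1, 0, 2, -1), (0, 0, 3, 1)]),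
    (75364309281801738859315200, [(3, 0, 0, 1), (2, 0, 1, 1), (2, 1, 0, 4), (1, 0, 2, -1), (1, 2, 0, 4), (0, 2, 1, -4), (0, 1, 2, -4), (0, 0, 3, -1)]),
    (75364309281801738859315200, [(3, 0, 0, 1), (2, 1, 0, 2), (2, 0, 1, -1), (1, 1, 1, -4), (1, 0, 2, -1), (0, 1, 2, 2), (0, 0, 3, 1)])] = true := by
  decide +kernel


end Crest.Agent.R163.E2
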