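import Crest.Agent.R163.E2.Inst

/-! # R163/E2/CertT12: box checks (generated) -/

set_option autoImplicit false

namespace Crest.Agent.R163.E2

open Tr

theorem q4B_c21 : check q4B ⟨247, 42565, 48, 48⟩ 9
    (z (x (y (z (x (y T T) T) (x (y T T) T)) (z (x (y T T) T) (x (y T T) T))) (y (x (z T T) T) (x T T))) (z (x (y
    (z (y T T) (y T T)) (z T T)) (y (x T T) T)) (y (x (z T T) (z T T)) (x T T))))
    ⟨512, 8, false⟩ ⟨512, 8, false⟩ ⟨0, 7, false⟩ = true := by decide +kernel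

theorem q4B_c22 : check q4B ⟨247, 42565, 48, 48⟩ 9
    (z (x (y (z (y (x (z T T) (z T T)) (z (x T T) T)) (y (z T T) T)) (z (y (z T T) T) (y T T))) (y (z (y (z (x T
    T) T) (z T T)) (y T T)) (z (y (z T T) T) T))) (y (x (z (y T T) T) (z (y T T) T)) (x (z T T) (z T T))))
    ⟨0, 7, false⟩ ⟨0, 7, false⟩ ⟨1024, 7, false⟩ = true := by decide +kernel


end Crest.Agent.R163.E2
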