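import Crest.Agent.R163.E2.Inst

/-! # R163/E2/CertT21: box checks (generated) -/

set_option autoImplicit false

namespace Crest.Agent.R163.E2

open Tr

theorem q4B_c37 : check q4B ⟨247, 42565, 48, 48⟩ 9
    (y (z (y (z (x (y (z (x T T) T) (z T T)) (z T T)) (x (z T T) T)) (z (x (z T T) T) (x T I))) (y (x (z T T) I)
    (x T I))) (z (z (y (x T I) T) (x T I)) I))
    ⟨16384, 3, false⟩ ⟨0, 2, false⟩ ⟨0, 2, false⟩ = true := by decide +kernel

theorem q4B_c38 : check q4B ⟨247, 42565, 48, 48⟩ 9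
    (z (x (y (x (z (y (x (z (y (z (x T T) (x T T)) (z T T)) (y (x (z T T) (z T T)) (x T T))) (z (z (y T T) T) (y
    (x T T) T))) (x (z (x T T) (x T T)) (z T T))) (y (x (z (y (x (y T T) (y T T)) (x T T)) (y (x (y T T) T)
    T)) (z (y (x T T) T) T)) (x (z T T) T))) (z (y (z T T) T) (y (z T T) I))) (x (z (y (x (z (x T T) T) (z T
    T)) (x (z T T) I)) (x (y (z T T) I) I)) (z (y I I) I))) (y (z (x (y T I) I) I) I)) (z (x (y (x (z (y (x (z
    (y (x T T) T) (y (x T T) T)) (z T T)) (x (x T T) I)) (y (x (y (x (x T T) T) T) T) (x T I))) (z (y T I) I))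
    (x (z (x I I) I) I)) I) (y (x (x (x (x (x (y (y (y (x I I) I) I) I) (y (y (y I I) I) I)) (x (y (y (y I I)
    I) I) (y (y I I) I))) (x (x (y I I) I) I)) I) I) (x (x I I) I))))
    ⟨0, 2, false⟩ ⟨0, 2, false⟩ ⟨32768, 2, true⟩ = true := by decide +kernel


end Crest.Agent.R163.E2
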