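import Crest.Agent.R163.E2.Inst

/-! # R163/E2/CertT22: box checks (generated) -/

set_option autoImplicit false

namespace Crest.Agent.R163.E2

open Tr

theorem q4B_c39 : check q4B ⟨247, 42565, 48, 48⟩ 9
    (z (y (x (z (y (x (z (y (x (y (z (x T T) T) (x T T)) (y T T)) (x (x (z T T) T) (z T T))) (y (x (x T T) T) (x
    (x T I) I))) (z (y T T) T)) (x (z (x (y (z (x T T) T) (z (x I I) I)) (y (z I I) I)) (x (y I I) I)) I)) (y
    (x (z (x (y (x T I) I) (y I I)) (x (y T I) I)) I) (x I I))) (z (y I I) I)) (x (x (x I I) I) I)) (x (x (x I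
    I) I) I))
    ⟨0, 2, false⟩ ⟨32768, 2, true⟩ ⟨0, 2, true⟩ = true := by decide +kernel

theorem q4B_c40 : check q4B ⟨247, 42565, 48, 48⟩ 9
    (y (z (y (z (z (z (z (y I I) I) I) I) I) I) I) I)
    ⟨32768, 2, true⟩ ⟨0, 2, true⟩ ⟨0, 2, true⟩ = true := by decide +kernel

theorem q4A_c0 : check q4A ⟨250, 43085, 48, 48⟩ 8
    (y (z L (z (y (x (z (y (z (x T T) T) (x T T)) (y T T)) (z (y (x T T) T) (y T T))) (x (z (y T T) T) (z (y T T)
    T))) (y (x (z (y T T) T) (z T T)) (x (z T T) T)))) (z (y (z (x (y (z (x (y T T) T) (x T T)) (z (x T T) T))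
    (y (x (z T T) T) (x T T))) (x (y (z (x T T) T) (z T T)) (y (z T T) T))) (z (x (y (z T T) T) (y T T)) (x (y
    T T) T))) (z (y (x (z T T) (z T T)) (x T T)) (y (x T T) T))))
    ⟨0, 9, false⟩ ⟨0, 8, false⟩ ⟨0, 8, false⟩ = true := by decide +kernel


end Crest.Agent.R163.E2
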