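import Crest.Agent.R163.E2.Inst

/-! # R163/E2/CertT25: box checks (generated) -/

set_option autoImplicit false

namespace Crest.Agent.R163.E2

open Tr

theorem q4A_c5 : check q4A ⟨250, 43085, 48, 48⟩ 8
    (z (y (x (z (y T T) T) (z (y T T) T)) (x (z T T) T)) (y (z T T) T))
    ⟨0, 7, false⟩ ⟨0, 7, false⟩ ⟨1024, 7, false⟩ = true := by decide +kernel

theorem q4A_c6 : check q4A ⟨250, 43085, 48, 48⟩ 8
    (z (y (z (x (y (z (x T T) T) (z T T)) (y T T)) (x (z T T) T)) (z (x (y T T) T) T)) (z (y T T) T))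
    ⟨0, 7, false⟩ ⟨1024, 7, false⟩ ⟨0, 6, false⟩ = true := by decide +kernel

theorem q4A_c7 : check q4A ⟨250, 43085, 48, 48⟩ 8
    (y (z (x (y (z (x (y (x T T) T) T) (x (y T T) T)) (z (x T T) T)) (y (z T T) T)) (y (z (x T T) T) (z T T))) (z
    (y (x T T) T) T))
    ⟨1024, 7, false⟩ ⟨0, 6, false⟩ ⟨0, 6, false⟩ = true := by decide +kernel


end Crest.Agent.R163.E2
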