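import Crest.Agent.R163.E2.Inst

/-! # R163/E2/CertT26: box checks (generated) -/

set_option autoImplicit false

namespace Crest.Agent.R163.E2

open Tr

theorem q4A_c8 : check q4A ⟨250, 43085, 48, 48⟩ 8
    (z (y (x (z T T) T) T) T)
    ⟨0, 6, false⟩ ⟨0, 6, false⟩ ⟨2048, 6, false⟩ = true := by decide +kernel

theorem q4A_c9 : check q4A ⟨250, 43085, 48, 48⟩ 8
    (z (y (z (x (y (z T T) T) T) (x T T)) (z T T)) T)
    ⟨0, 6, false⟩ ⟨2048, 6, false⟩ ⟨0, 5, false⟩ = true := by decide +kernel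

theorem q4A_c10 : check q4A ⟨250, 43085, 48, 48⟩ 8
    (y (z (x (y (z (x T T) T) T) T) (z T T)) (z T T))
    ⟨2048, 6, false⟩ ⟨0, 5, false⟩ ⟨0, 5, false⟩ = true := by decide +kernel

theorem q4A_c11 : check q4A ⟨250, 43085, 48, 48⟩ 8
    (x (y (z T T) T) (z T T))
    ⟨0, 5, false⟩ ⟨0, 5, false⟩ ⟨4096, 5, false⟩ = true := by decide +kernel


end Crest.Agent.R163.E2
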