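import Crest.Agent.R163.E2.Inst

/-! # R163/E2/CertT28: box checks (generated) -/

set_option autoImplicit false

namespace Crest.Agent.R163.E2

open Tr

theorem q4A_c16 : check q4A ⟨250, 43085, 48, 48⟩ 8
    (y (z (y (x (z T T) T) (x T T)) (x T T)) (z (z T T) T))
    ⟨8192, 4, false⟩ ⟨0, 3, false⟩ ⟨0, 3, false⟩ = true := by decide +kernel

theorem q4A_c17 : check q4A ⟨250, 43085, 48, 48⟩ 8
    (x (y (z (x (y (x (z T T) T) (x T T)) (y T T)) (x (y (x (z T T) T) (x T T)) (y T T))) (z (x T T) (x T T))) (y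
    (z T T) T))
    ⟨0, 3, false⟩ ⟨0, 3, false⟩ ⟨16384, 3, false⟩ = true := by decide +kernel

theorem q4A_c18 : check q4A ⟨250, 43085, 48, 48⟩ 8
    (z (x (z (y (x (z (x T T) T) T) (x (x T T) T)) (y (x T T) (x T I))) (z (y T T) T)) (x (y (x (z T T) T) (x (z I
    I) I)) I))
    ⟨0, 3, false⟩ ⟨16384, 3, false⟩ ⟨0, 2, false⟩ = true := by decide +kernel


end Crest.Agent.R163.E2
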