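import Crest.Agent.R163.E2.Inst

/-! # R163/E2/CertT29: box checks (generated) -/

set_option autoImplicit false

namespace Crest.Agent.R163.E2

open Tr

theorem q4A_c19 : check q4A ⟨250, 43085, 48, 48⟩ 8
    (y (z (y (z (x (z T T) T) (x T I)) (z (x T I) I)) (y I I)) (z (z I I) I))
    ⟨16384, 3, false⟩ ⟨0, 2, false⟩ ⟨0, 2, false⟩ = true := by decide +kernel

theorem q4A_c20 : check q4A ⟨250, 43085, 48, 48⟩ 8
    (z (x (y (x (z (y (x (z (y (x T T) (x T T)) (y (x T T) T)) (z (y T T) T)) (x (z T T) I)) (y (x (y (x (z T T)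
    T) (x I I)) (y T I)) (x I I))) (z (y T I) I)) (x (z (x (y I I) I) I) I)) I) (y (x (x (x (x (x (y I I) (y I
    I)) (x I I)) I) I) I) I))
    ⟨0, 2, false⟩ ⟨0, 2, false⟩ ⟨32768, 2, true⟩ = true := by decide +kernel

theorem q4A_c21 : check q4A ⟨250, 43085, 48, 48⟩ 8
    (z (x (x (x (x (z (z (z (x I I) I) I) I) (z (z (z I I) I) I)) (z (z (z I I) I) I)) I) I) I)
    ⟨0, 2, false⟩ ⟨32768, 2, true⟩ ⟨0, 2, true⟩ = true := by decide +kernel


end Crest.Agent.R163.E2
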