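import Crest.Agent.R163.E2.Inst

/-! # R163/E2/CertT30: box checks (generated) -/

set_option autoImplicit false

namespace Crest.Agent.R163.E2

open Tr

theorem q4A_c22 : check q4A ⟨250, 43085, 48, 48⟩ 8
    I
    ⟨32768, 2, true⟩ ⟨0, 2, true⟩ ⟨0, 2, true⟩ = true := by decide +kernel

theorem q4C_c0 : check q4C ⟨207, 35656, 16, 18⟩ 0
    (x (y (z (x (y (z (x (y (z (x (y (z (x (y T T) (y T T)) (x (y T T) (y T T))) (z (x (y T (z T T)) (y T (z T
    T))) (x (y (z T T) T) (y T T)))) (y (z (x (y T T) (y T T)) (x (y T T) (y T T))) (z (x (y T T) T) (y T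
    T)))) (x (y (z (x (y T T) (y T T)) T) (z (x T T) T)) (y (z (x T T) T) T))) (z (y (x (z (y (x (z T T) T) (x
    T T)) (x T T)) T) (x (z T T) T)) (x (z T T) T))) (y (z (x (y (z (x T T) T) T) T) T) T)) (x (y (z (x (y (z
    T T) (x T T)) (y T T)) (x (y T T) (y T T))) (x (z (y T T) T) T)) (y (z T I) I))) (z (x (y (z (x (y T T) I)
    T) I) I) (x I I))) I) (z (x (y (z (x (y (x (y (z T T) (z T T)) (y T I)) (x I I)) I) (x (y (x (y T I) I) I)
    I)) I) I) (x (x (x I I) I) I))) I) I)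
    ⟨0, 2, true⟩ ⟨0, 2, true⟩ ⟨0, 2, true⟩ = true := by decide +kernel

theorem q3B_c0 : check q3B ⟨217, 6117, 18, 18⟩ 6
    (x (y (x (y (x (y (x (y (x (y (x (y L (y (x (y (x T T) T) (y T T)) (x T T))) (y (x (y (x (y T T) T) (x T T))
    (y T T)) (x (y T T) T))) (y (x (y T T) T) (x T T))) (y (x (y (x T T) T) (y T T)) (x T T))) (x (y T T) (y T
    T))) (y (x (y (x T T) T) T) T)) (x (y T T) T)) (y (x (y T T) T) T)) (x (y (x T T) T) (y T T))) (y (x (y T
    T) T) T)) (y (x (y (x (y T T) T) (x T T)) (y T T)) (y (x (x T T) T) (y (x (x T T) T) (x (x I I) I))))) (y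
    (x (y (x T T) (x T T)) (y (y I I) I)) (x (y T (y T I)) I)))
    ⟨0, 2, true⟩ ⟨0, 2, true⟩ ⟨0, 16, false⟩ = true := by decide +kernel


end Crest.Agent.R163.E2
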