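import Crest.Agent.R163.E2.Inst

/-! # R163/E2/CertT31: box checks (generated) -/

set_option autoImplicit false

namespace Crest.Agent.R163.E2

open Tr

theorem q3A_c0 : check q3A ⟨219, 6176, 18, 18⟩ 6
    (x (y (x (y (x (y (x (y (x (y (x (y L (y (x (y T T) (y T T)) (x T T))) (y (x (y (x (y T T) T) (x T T)) (y T
    T)) (y (x T T) T))) (y (x (y T T) T) (x T T))) (y (x (y (x T T) T) (y T T)) (y T T))) (y (x (y T T) T) T))
    (y (x (y (x T T) T) T) T)) (y (x T T) T)) (y (x (y T T) T) T)) (x (y T T) T)) (y (x T T) T)) (y (x (y T T)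
    T) (x (x I I) I))) (y (x (x (y T I) T) I) I))
    ⟨0, 2, true⟩ ⟨0, 2, true⟩ ⟨0, 16, false⟩ = true := by decide +kernel

theorem q3C_c0 : check q3C ⟨190, 5346, 6, 6⟩ 0
    (x (y (x (y (x T T) (x (y T T) (y T T))) (y (x T T) (x (y T T) T))) (y (x (y (x (y T T) (y T T)) T) (y T T))
    (y (x T T) (x I I)))) (y (x (x (y (x T T) T) T) I) (x (y T I) I)))
    ⟨0, 2, true⟩ ⟨0, 2, true⟩ ⟨0, 16, false⟩ = true := by decide +kernel

theorem gG_c0 : check gG ⟨225, 6351, 52, 52⟩ 8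
    (x (y (x (y (x (y (x (y (x (y (x (y (x (y (x (y L (y (x (y (x T T) T) (y T T)) (x T T))) (y (x (y (x (y T T)
    T) (x T T)) (y T T)) (y (x T T) T))) (y (x (y T T) (y T T)) (x T T))) (y (x (y (x T T) (x T T)) (y T T))
    (y (x T T) T))) (y (x (y T T) T) (x T T))) (y (x (y (x T T) T) (y T T)) (y T T))) (x (y T T) T)) (y (x (y
    T T) T) T)) (x (y T T) T)) K) (x (y (x T K) T) K)) K) (x (x (y (x T K) T) K) K)) K) (x (x I K) K)) K)
    ⟨0, 2, true⟩ ⟨0, 2, true⟩ ⟨0, 16, false⟩ = true := by decide +kernel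

theorem gQ_c0 : check gQ ⟨239, 6756, 54, 54⟩ 8
    (x (y (x (y (x (y (x (y (x (y (x (y (x (y (x (y L (x (y (y (x T T) T) T) (y (y T T) T))) (y (x (y (x (y T T)
    T) (x T T)) (y T T)) (x (y T T) (y T T)))) (x (y (x (y T T) T) T) (y (x T T) T))) (y (x (y (x (y T T) T)
    (x T T)) (y T T)) (x (y T T) T))) (x (y (x (y T T) T) T) (y (x T T) T))) (y (x (y (x (y T T) T) (x T T))
    (y T T)) (x (y T T) T))) (x (y (x (y T T) T) (x T T)) (y (x T T) T))) (y (x (y (x T T) (x T T)) (y T T))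
    (x (y T T) K))) (x (y (x (y T T) T) (x T T)) (y (x T K) K))) K) (x (y (x (y (x T T) T) K) (x (x T K) K))
    K)) K) (x (x (y (x (y T T) K) (x (y T T) K)) K) K)) K) (y (x (x (x (y (x (y T T) K) (x T K)) K) K) K) (y
    (x (x (x (x T K) K) K) K) (x (x (x (x I K) K) K) K)))) K)
    ⟨0, 2, true⟩ ⟨0, 2, true⟩ ⟨0, 16, false⟩ = true := by decide +kernel


end Crest.Agent.R163.E2
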