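import Crest.Agent.R163.E2.Inst

/-! # R163/E2/CertT32: box checks (generated) -/

set_option autoImplicit false

namespace Crest.Agent.R163.E2

open Tr

theorem gQC_c0 : check gQC ⟨242, 6842, 54, 57⟩ 8
    (x (y (x (y (x (y (x (y (x (y (x (y (x (y (x (y L (x (y (x (y T T) (y T T)) T) (y (x T T) T))) (y (x (y (x (y
    T T) T) (x T T)) (y T T)) (x (y T T) (y T T)))) (x (y (x (y T T) T) T) (y (x T T) T))) (y (x (y (x (y T T)
    T) (x T T)) (y T T)) (x (y T T) T))) (x (y (x (y T T) T) (x T T)) (y (x T T) T))) (y (x (y (x (y T T) T)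
    (x T T)) (y T T)) (x (y T T) T))) (x (y (x (y T T) (y T T)) (x T T)) (y (x T T) T))) (y (x (y (x (y T T)
    T) (x T T)) (y T T)) (x (y T T) K))) (x (y (x (y (x T T) T) (y T T)) (x (y T T) T)) (y (x T K) K))) K) (x
    (y (x (y (x (x T T) T) (x T K)) K) (x (x (y T T) K) K)) K)) K) (x (x (y (x (y T T) K) (x (y T T) K)) K)
    K)) K) (y (x (x (y (x (y (x T K) (x T K)) K) (x (x T K) K)) K) K) (y (x (x (x (y T T) K) K) K) (x (x (x (x
    I K) K) K) K)))) K)
    ⟨0, 2, true⟩ ⟨0, 2, true⟩ ⟨0, 16, false⟩ = true := by decide +kernel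

theorem gH_c0 : check gH ⟨234, 6611, 52, 52⟩ 8
    (x (y (x (y (x (y (x (y (x (y (x (y (x (y (x (y L (x (y (y (x T T) T) T) (y (y T T) T))) (y (x (y (x (y T T)
    T) (x T T)) (y T T)) (x (y T T) T))) (x (y (y (x T T) T) T) (y (y T T) T))) (y (x (y (x T T) (x T T)) (y T
    T)) (x (y T T) T))) (x (y (x T T) T) (y T T))) (y (x (y (x T T) T) (y T T)) (x (y T T) T))) (x (y (x T T)
    T) (y T T))) (y (x (y (x T T) T) (y T K)) (x T K))) (x (y (x T T) T) K)) K) (x (y (x (y T T) K) (x (y (x T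
    K) (y (x (y T K) K) K)) K)) K)) K) K) K) K) K)
    ⟨0, 2, true⟩ ⟨0, 2, true⟩ ⟨0, 16, false⟩ = true := by decide +kernel


end Crest.Agent.R163.E2
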