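import Crest.Agent.R163.E2.Inst

/-! # R163/E2/CertT34: box checks (generated) -/

set_option autoImplicit false

namespace Crest.Agent.R163.E2

open Tr

theorem gC4_c0 : check gC4 ⟨235, 6640, 52, 56⟩ 8
    (x (y (x (y (x (y (x (y (x (y (x (y (x (y (x (y L (x (y (y (x T T) T) T) (y (x T T) T))) (y (x (y (x (y T T)
    T) (x T T)) (y T T)) (x (y T T) T))) (x (y (x (y T T) T) T) (y (x T T) T))) (y (x (y (x (y T T) T) (x T
    T)) (y T T)) (x (y T T) T))) (x (y (x T T) (x T T)) (y (x T T) T))) (y (x (y (x T T) (x T T)) (y T T)) (x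
    (y T T) T))) (x (y (x (y T T) (y T T)) (x T T)) (y (x T T) (x T T)))) (y (x (y (x T T) (x T T)) (y T T))
    (x (y T T) K))) (x (y (x (y (x T T) T) (y T T)) (x T T)) (y (x T K) K))) K) (x (y (x (y T T) K) (x T K))
    K)) K) (x (x (y (x T K) T) K) K)) K) (x (x (x I K) K) K)) K)
    ⟨0, 2, true⟩ ⟨0, 2, true⟩ ⟨0, 16, false⟩ = true := by decide +kernel


end Crest.Agent.R163.E2
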