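import Crest.Agent.R163.E2.Pack

/-!
# R163/E2/LeafT: soundness of the Taylor leaf

Recipe.  `simp only [chkT, force_eq, Cx.force_eq, …]` after `preOf_eq`.  Let `n_i` be the centres, `y_i = n_i/2^16 + u_i`,
`|u_i| ≤ 2^-k_i`, `SC = 2^64 2^64 2^16 24^3`.  For a group `g` with computed phase `z̃` (`phase_spec`) and `r̃_t` (`rOf_spec`):
(1) block extraction: `V = ∑ r̃ U` has blocks `∑ r̃ < 2^80` and `∑ r̃ blk < 2^(KO+80)` (`r̃ ≤ 2^65`, at most `8192` terms,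
`blk < 2^(KO+2)`), so `grpX = Re ∑_t r̃ z̃ (2^16 A + B (λ·n + 2^16 linX)) ten`, which by `ten_toC`, `linX_toC`, `ev3_tcf`
(with `A' = 2^16 A + B λ·n`, `l_i' = 2^16 l_i`) is `ev3 6 F 2^W 2^(6W) 2^(36W)` for the integer tensor
`F i j k = ∑ Re (r̃ z̃ tcf …)` (`exists_cf_eq`, `ev3_re`); `|F| ≤ 2^130 NN (wmax+3)^12` (`norm_cf4_le`); the junk added to `half` is `< 2^64`.
(2) `six_spec` bounds `ev3 6 F u1 u2 u3` from below, and `ev3 6 F u / SC = ∑ Re ((r̃ z̃ / 2^128) (A + B λ·y) ∏ tay 4 (ω_i u_i))`.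
(3) replacing `r̃ z̃ / 2^128` by `exp (ω·c)` costs `6 * 2^-64 (nA + nB ∑|λ_i| hi_i) ∏ (1 + wmax 2^-k_i)^4` (`norm_tay_le`);
replacing `∏ tay` by `exp (ω·u)` costs `exp (-a·lo) (nA + nB ∑|λ_i| hi_i) (∏ (1 + w_i^5 / H_i) - 1)`, `H_i = 120 * 2^(5 k_i)`
(`norm_exp_sub_tay3` with `E_i = exp (a_i 2^-k_i)`), and `exp (-a·lo) ≤ (rOf u.. + 2) / 2^64`.
The final test is `125 S + Rm 2^64 + 125*6*24^3 NN (∏(2^k+w))^4 2^(64+ks) < 125 T0 2^(5 ks)` (`24^3 * 125 = 120^3`).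
-/

set_option autoImplicit false

namespace Crest.Agent.R163.E2

open Finset

/-! ### double list sums as finite sums -/

theorem LeafT_flat (gs : List Gp) : ∃ (n : ℕ) (γ : Fin n → Gp) (τ : Fin n → Tm),
    (∀ i, γ i ∈ gs ∧ τ i ∈ (γ i).ts) ∧ ∀ (M : Type) [AddCommMonoid M] (f : Gp → Tm → M),
      (gs.map fun g => (g.ts.map (f g)).sum).sum = ∑ i, f (γ i) (τ i) := by
  let L : List (Gp × Tm) := gs.flatMap fun g => g.ts.map fun t => (g, t)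
  refine ⟨L.length, fun i => L[i].1, fun i => L[i].2, fun i => ?_, fun M _ f => ?_⟩
  · have h : L[i] ∈ L := List.getElem_mem _
    obtain ⟨g, hg, h2⟩ := List.mem_flatMap.1 h
    obtain ⟨t, ht, e⟩ := List.mem_map.1 h2
    show L[i].1 ∈ gs ∧ L[i].2 ∈ (L[i].1).ts
    rw [← e]
    exact ⟨hg, ht⟩
  · have h1 : (gs.map fun g => (g.ts.map (f g)).sum).sum = (L.map fun p => f p.1 p.2).sum := by
      simp only [L]
      clear L
      induction gs with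
      | nil => simp
      | cons g l ih => simp [List.flatMap_cons, ih, Function.comp_def]
    rw [h1, ← Fin.sum_univ_fun_getElem]
    rfl

/-! ### axes -/

theorem LeafT_ax {b : Ax} (h : b.ok = true) : b.lo ≤ b.cen ∧ b.cen ≤ b.hi ∧ b.hi < 2 ^ 22 ∧
    (b.cen : ℝ) / 2 ^ 16 = b.lo / 2 ^ 16 + 1 / 2 ^ b.k ∧
    (b.hi : ℝ) / 2 ^ 16 = b.lo / 2 ^ 16 + 2 / 2 ^ b.k := by
  simp only [Ax.ok, Bool.and_eq_true, Nat.ble_eq] at h
  obtain ⟨h1, h2, h3⟩ := h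
  have e1 : b.cen = b.lo + 2 ^ (16 - b.k) := rfl
  have e2 : b.hi = b.lo + 2 ^ (17 - b.k) := rfl
  have e3 : (2 : ℝ) ^ 16 = 2 ^ (16 - b.k) * 2 ^ b.k := by rw [← pow_add]; congr 1; omega
  have e4 : (2 : ℝ) ^ (17 - b.k) = 2 * 2 ^ (16 - b.k) := by rw [← pow_succ']; congr 1; omega
  have e5 : 2 ^ (16 - b.k) ≤ 2 ^ (17 - b.k) := Nat.pow_le_pow_right (by norm_num) (by omega)
  refine ⟨e1 ▸ Nat.le_add_right _ _, by omega, by omega, ?_, ?_⟩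
  · rw [e1]; push_cast; rw [add_div]; congr 1; rw [e3]; field_simp
  · rw [e2]; push_cast; rw [add_div, e4]; congr 1; rw [e3]; field_simp

theorem LeafT_mem {b : Ax} (h : b.ok = true) (hi : b.inf = false) {y : ℝ} (hy : b.mem y) :
    |y - b.cen / 2 ^ 16| ≤ 1 / 2 ^ b.k ∧ |y| ≤ b.hi / 2 ^ 16 := by
  obtain ⟨-, -, -, e1, e2⟩ := LeafT_ax h
  obtain ⟨h1, h2⟩ := hy
  have h2 := h2 hi
  have h0 : (0 : ℝ) ≤ b.lo / 2 ^ 16 := by positivity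
  have e3 : (2 : ℝ) / 2 ^ b.k = 1 / 2 ^ b.k + 1 / 2 ^ b.k := by ring
  refine ⟨abs_le.2 ⟨by linarith, by linarith⟩, ?_⟩
  rw [abs_of_nonneg (by linarith)]
  linarith

theorem LeafT_om (T a : ℕ) (e : Bool) (n : ℕ) : (om T a e).toC * (((n : ℝ) / 2 ^ 16 : ℝ) : ℂ) =
    ((-((a : ℝ) * n / 2 ^ 16) : ℝ) : ℂ) + ((cond e (T * n) 0 : ℕ) : ℂ) / 2 ^ 16 * Complex.I := by
  cases e <;> simp [om, Cx.toC] <;> ring

/-- the facts about one axis of the Taylor expansion -/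
theorem LeafT_axis (T a : ℕ) (e : Bool) {wm k : ℕ} (hw : wOf T a e ≤ wm) {u : ℝ}
    (hu : |u| ≤ 1 / 2 ^ k) :
    Real.exp ((om T a e).toC * u).re ≤ Real.exp (a / 2 ^ k) ∧
    ‖(om T a e).toC * u‖ ^ (4 + 1) / ((4 + 1).factorial : ℝ) ≤
      (wOf T a e : ℝ) ^ 5 / (120 * 2 ^ (5 * k)) ∧
    ‖tay 4 ((om T a e).toC * u)‖ ≤ ((2 ^ k + wm) / 2 ^ k) ^ 4 := by
  have h1 : ‖(om T a e).toC * u‖ ≤ wOf T a e / 2 ^ k := by
    rw [norm_mul, Complex.norm_real, Real.norm_eq_abs, div_eq_mul_one_div]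
    exact mul_le_mul (norm_om_le T a e) hu (abs_nonneg _) (Nat.cast_nonneg _)
  refine ⟨Real.exp_le_exp.2 ?_, ?_, (norm_tay_le _ _).trans ?_⟩
  · rw [Complex.mul_re, Complex.ofReal_re, Complex.ofReal_im, mul_zero, sub_zero, Cx.toC_re]
    have h2 := (abs_le.1 hu).1
    have h3 : (0 : ℝ) ≤ a := Nat.cast_nonneg _
    have e1 : ((om T a e).re : ℝ) = -a := by simp [om]
    rw [e1, div_eq_mul_one_div]
    nlinarith
  · have h2 := pow_le_pow_left₀ (norm_nonneg _) h1 5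
    rw [div_pow, ← pow_mul, mul_comm k 5] at h2
    have e1 : (((4 + 1).factorial : ℕ) : ℝ) = 120 := by norm_num [Nat.factorial]
    rw [e1, mul_comm (120 : ℝ), ← div_div]
    exact div_le_div_of_nonneg_right h2 (by norm_num)
  · refine pow_le_pow_left₀ (by positivity) ?_ 4
    have h2 : (wOf T a e : ℝ) / 2 ^ k ≤ wm / 2 ^ k :=
      div_le_div_of_nonneg_right (by exact_mod_cast hw) (by positivity)
    rw [add_div, div_self (by positivity)]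
    linarith

/-! ### the error of one term -/

theorem LeafT_err {p e P C rz : ℂ} {R Q c : ℝ} (h1 : ‖rz - p * 2 ^ 128‖ ≤ 6 * 2 ^ 64)
    (h2 : ‖p‖ * ‖e - P‖ ≤ R) (h3 : ‖P‖ ≤ Q) (h4 : ‖C‖ ≤ c) :
    (rz * (C * P)).re / 2 ^ 128 - c * R - c * (6 * Q / 2 ^ 64) ≤ (p * e * C).re := by
  have e1 : rz * (C * P) / 2 ^ 128 - p * e * C =
      C * ((rz - p * 2 ^ 128) * P / 2 ^ 128 - p * (e - P)) := by ring
  have e2 : (rz * (C * P)).re / 2 ^ 128 = (rz * (C * P) / 2 ^ 128).re := by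
    rw [show (2 : ℂ) ^ 128 = ((2 ^ 128 : ℝ) : ℂ) by push_cast; rfl, Complex.div_ofReal_re]
  have h5 : ‖(rz - p * 2 ^ 128) * P / 2 ^ 128‖ ≤ 6 * Q / 2 ^ 64 := by
    rw [norm_div, norm_mul, norm_pow, Complex.norm_ofNat]
    calc _ ≤ 6 * 2 ^ 64 * Q / 2 ^ 128 :=
          div_le_div_of_nonneg_right (mul_le_mul h1 h3 (norm_nonneg _) (by positivity)) (by positivity)
      _ = _ := by ring
  have h6 : ‖(rz - p * 2 ^ 128) * P / 2 ^ 128 - p * (e - P)‖ ≤ 6 * Q / 2 ^ 64 + R :=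
    (norm_sub_le _ _).trans (add_le_add h5 (by rwa [norm_mul]))
  have h7 : ‖rz * (C * P) / 2 ^ 128 - p * e * C‖ ≤ c * (6 * Q / 2 ^ 64 + R) := by
    rw [e1, norm_mul]
    exact mul_le_mul h4 h6 (norm_nonneg _) ((norm_nonneg _).trans h4)
  have h8 := (Complex.re_le_norm _).trans h7
  rw [Complex.sub_re, ← e2] at h8
  linarith

theorem LeafT_rz {r ρ θ : ℝ} {z : ℂ} (hρ : 0 ≤ ρ) (hr : |r - Real.exp (-ρ) * 2 ^ 64| ≤ 2)
    (hz : ‖z - Complex.exp (θ * Complex.I) * 2 ^ 64‖ ≤ 3) :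
    |r| ≤ 2 ^ 64 + 2 ∧ ‖z‖ ≤ 2 ^ 64 + 3 ∧
    ‖r * z - Complex.exp ((-ρ : ℝ) + θ * Complex.I) * 2 ^ 128‖ ≤ 6 * 2 ^ 64 := by
  have h0 : Real.exp (-ρ) ≤ 1 := Real.exp_le_one_iff.2 (by linarith)
  have h1 := Real.exp_pos (-ρ)
  have h2 : ‖Complex.exp (θ * Complex.I) * 2 ^ 64‖ = 2 ^ 64 := by
    rw [norm_mul, Complex.norm_exp_ofReal_mul_I, norm_pow, Complex.norm_ofNat, one_mul]
  have h3 : ‖z‖ ≤ 2 ^ 64 + 3 := by
    have := norm_le_norm_add_norm_sub' z (Complex.exp (θ * Complex.I) * 2 ^ 64)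
    linarith
  refine ⟨?_, h3, ?_⟩
  · rw [abs_le] at hr ⊢
    constructor <;> nlinarith [hr.1, hr.2]
  · have e1 : r * z - Complex.exp ((-ρ : ℝ) + θ * Complex.I) * 2 ^ 128 =
        ((r - Real.exp (-ρ) * 2 ^ 64 : ℝ) : ℂ) * z +
          ((Real.exp (-ρ) * 2 ^ 64 : ℝ) : ℂ) * (z - Complex.exp (θ * Complex.I) * 2 ^ 64) := by
      rw [Complex.exp_add, ← Complex.ofReal_exp]
      push_cast; ring
    rw [e1]
    refine (norm_add_le _ _).trans ?_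
    rw [norm_mul, norm_mul, Complex.norm_real, Complex.norm_real, Real.norm_eq_abs,
      Real.norm_of_nonneg (by positivity : 0 ≤ Real.exp (-ρ) * 2 ^ 64)]
    have h4 := mul_le_mul hr h3 (norm_nonneg _) (by norm_num)
    have h5 := mul_le_mul (mul_le_of_le_one_left (by positivity : (0 : ℝ) ≤ 2 ^ 64) h0) hz
      (norm_nonneg _) (by positivity)
    linarith [show (6 : ℝ) ≤ 2 ^ 64 by norm_num]

/-- coefficient tensor of one term, expanded at the centre `n / 2^16` -/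
noncomputable def LeafT_G (T n1 n2 n3 : ℕ) (g : Gp) (t : Tm) : ℕ → ℕ → ℕ → ℂ :=
  tcf 4 (om T t.a1 g.e1).toC (om T t.a2 g.e2).toC (om T t.a3 g.e3).toC
    (65536 * t.A.toC + t.B.toC * (n1 * g.l1.toC + n2 * g.l2.toC + n3 * g.l3.toC)) t.B.toC
    (65536 * g.l1.toC) (65536 * g.l2.toC) (65536 * g.l3.toC)

theorem LeafT_lin (g : Gp) (t : Tm) {y1 y2 y3 h1 h2 h3 : ℝ} (a1 : |y1| ≤ h1) (a2 : |y2| ≤ h2)
    (a3 : |y3| ≤ h3) : ‖t.B.toC * (g.l1.toC * y1 + g.l2.toC * y2 + g.l3.toC * y3)‖ ≤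
      t.B.n1 * (g.l1.n1 * h1 + (g.l2.n1 * h2 + g.l3.n1 * h3)) := by
  have k : ∀ (l : Cx) (y h : ℝ), |y| ≤ h → ‖l.toC * y‖ ≤ l.n1 * h := fun l y h hy => by
    rw [norm_mul, Complex.norm_real, Real.norm_eq_abs]
    exact mul_le_mul (Cx.norm_toC_le l) hy (abs_nonneg _) (Nat.cast_nonneg _)
  rw [norm_mul]
  refine mul_le_mul (Cx.norm_toC_le _) ?_ (norm_nonneg _) (Nat.cast_nonneg _)
  have := norm_add₃_le (a := g.l1.toC * y1) (b := g.l2.toC * y2) (c := g.l3.toC * y3)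
  linarith [k g.l1 _ _ a1, k g.l2 _ _ a2, k g.l3 _ _ a3]

theorem LeafT_G_le {T n1 n2 n3 wm : ℕ} {g : Gp} {t : Tm} (w1 : wOf T t.a1 g.e1 ≤ wm)
    (w2 : wOf T t.a2 g.e2 ≤ wm) (w3 : wOf T t.a3 g.e3 ≤ wm) {h : ℝ} (a1 : (n1 : ℝ) ≤ h)
    (a2 : (n2 : ℝ) ≤ h) (a3 : (n3 : ℝ) ≤ h) (i j k : ℕ) :
    ‖LeafT_G T n1 n2 n3 g t i j k‖ ≤
      (t.A.n1 * 2 ^ 16 + t.B.n1 * (g.l1.n1 + (g.l2.n1 + g.l3.n1)) * (h + 65536)) * (wm + 3) ^ 12 := by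
  have c0 : ∀ (a : ℕ) (e : Bool), wOf T a e ≤ wm → ∀ j, ‖cf 4 (om T a e).toC j‖ ≤ (wm + 3) ^ 4 :=
    fun a e hw j => norm_cf4_le _ ((norm_om_le T a e).trans (by exact_mod_cast hw)) j
  have c1 : ∀ (a : ℕ) (e : Bool), wOf T a e ≤ wm → ∀ j, ‖cf' 4 (om T a e).toC j‖ ≤ (wm + 3) ^ 4 :=
    fun a e hw j => by
      unfold cf'
      split_ifs
      · rw [norm_zero]; positivity
      · exact c0 a e hw _
  have c3 : ∀ x y z : ℂ, ‖x‖ ≤ (wm + 3) ^ 4 → ‖y‖ ≤ (wm + 3) ^ 4 → ‖z‖ ≤ (wm + 3) ^ 4 →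
      ‖x * y * z‖ ≤ (wm + 3) ^ 12 := fun x y z hx hy hz => by
    rw [norm_mul, norm_mul]
    calc _ ≤ ((wm : ℝ) + 3) ^ 4 * (wm + 3) ^ 4 * (wm + 3) ^ 4 := by gcongr
      _ = _ := by ring
  have c4 : ∀ (l : Cx) (x : ℂ), ‖x‖ ≤ (wm + 3) ^ 12 →
      ‖65536 * l.toC * x‖ ≤ 65536 * l.n1 * (wm + 3) ^ 12 := fun l x hx => by
    rw [norm_mul, norm_mul, Complex.norm_ofNat]
    have := Cx.norm_toC_le l
    gcongr
  have hA : ‖65536 * t.A.toC + t.B.toC * (n1 * g.l1.toC + n2 * g.l2.toC + n3 * g.l3.toC)‖ ≤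
      65536 * t.A.n1 + t.B.n1 * (g.l1.n1 * h + (g.l2.n1 * h + g.l3.n1 * h)) := by
    refine (norm_add_le _ _).trans (add_le_add ?_ ?_)
    · rw [norm_mul, Complex.norm_ofNat]
      have := Cx.norm_toC_le t.A
      gcongr
    · have := LeafT_lin g t (y1 := n1) (y2 := n2) (y3 := n3) (h1 := h) (h2 := h) (h3 := h)
        (by rwa [Nat.abs_cast]) (by rwa [Nat.abs_cast]) (by rwa [Nat.abs_cast])
      simpa only [Complex.ofReal_natCast, mul_comm] using this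
  unfold LeafT_G tcf
  refine (norm_add_le _ _).trans ?_
  rw [norm_mul, norm_mul t.B.toC]
  have b1 := mul_le_mul hA (c3 _ _ _ (c0 _ _ w1 i) (c0 _ _ w2 j) (c0 _ _ w3 k)) (norm_nonneg _)
    ((norm_nonneg _).trans hA)
  have b2 := mul_le_mul (Cx.norm_toC_le t.B) (norm_add₃_le.trans (add_le_add (add_le_add
    (c4 g.l1 _ (c3 _ _ _ (c1 _ _ w1 i) (c0 _ _ w2 j) (c0 _ _ w3 k)))
    (c4 g.l2 _ (c3 _ _ _ (c0 _ _ w1 i) (c1 _ _ w2 j) (c0 _ _ w3 k))))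
    (c4 g.l3 _ (c3 _ _ _ (c0 _ _ w1 i) (c0 _ _ w2 j) (c1 _ _ w3 k))))) (norm_nonneg _)
    (Nat.cast_nonneg _)
  refine (add_le_add b1 b2).trans (le_of_eq ?_)
  ring

/-- Gaussian integers inside `ℂ` -/
noncomputable def LeafT_gau : Subring ℂ := GaussianInt.toComplex.range

theorem LeafT_toC_mem (a : Cx) : a.toC ∈ LeafT_gau :=
  ⟨⟨a.re, a.im⟩, by rw [GaussianInt.toComplex_def']; rfl⟩

theorem LeafT_re_int {z : ℂ} (h : z ∈ LeafT_gau) : ∃ n : ℤ, z.re = n := by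
  obtain ⟨a, rfl⟩ := h
  exact ⟨a.re, (GaussianInt.intCast_re a).symm⟩

theorem LeafT_G_mem (T n1 n2 n3 : ℕ) (g : Gp) (t : Tm) (i j k : ℕ) :
    LeafT_G T n1 n2 n3 g t i j k ∈ LeafT_gau := by
  have c0 : ∀ (ω : Cx) (j : ℕ), cf 4 ω.toC j ∈ LeafT_gau := fun ω j => by
    obtain ⟨c, hc⟩ := exists_cf_eq 4 ω j
    rw [hc]; exact LeafT_toC_mem c
  have c1 : ∀ (ω : Cx) (j : ℕ), cf' 4 ω.toC j ∈ LeafT_gau := fun ω j => by
    unfold cf'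
    split_ifs
    · exact zero_mem _
    · exact c0 ω _
  have c2 : (65536 : ℂ) ∈ LeafT_gau := by exact_mod_cast natCast_mem LeafT_gau 65536
  have c3 := LeafT_toC_mem
  have c4 : ∀ n : ℕ, (n : ℂ) ∈ LeafT_gau := natCast_mem LeafT_gau
  unfold LeafT_G tcf
  repeat' first | exact c0 _ _ | exact c1 _ _ | exact c2 | exact c3 _ | exact c4 _ | apply add_mem | apply mul_mem

theorem LeafT_ev3_sum {n : ℕ} (b : ℕ) (c : Fin n → ℂ) (G : Fin n → ℕ → ℕ → ℕ → ℂ) (x y z : ℂ) :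
    ev3 b (fun i j k => ∑ s, c s * G s i j k) x y z = ∑ s, c s * ev3 b (G s) x y z := by
  unfold ev3
  simp only [sum_mul, mul_sum]
  rw [sum_comm (s := univ)]
  refine sum_congr rfl fun i _ => ?_
  rw [sum_comm (s := univ)]
  refine sum_congr rfl fun j _ => ?_
  rw [sum_comm (s := univ)]
  refine sum_congr rfl fun k _ => sum_congr rfl fun s _ => by ring

theorem LeafT_ev3_cast (b : ℕ) (F : ℕ → ℕ → ℕ → ℤ) (x y z : ℤ) :
    ((ev3 b F x y z : ℤ) : ℝ) = ev3 b (fun i j k => (F i j k : ℝ)) x y z := by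
  unfold ev3
  push_cast
  rfl

/-! ### one term -/

theorem LeafT_term {T wm : ℕ} {g : Gp} {t : Tm} {b1 b2 b3 : Ax} (o1 : b1.ok = true) (o2 : b2.ok = true)
    (o3 : b3.ok = true) (i1 : b1.inf = false) (i2 : b2.inf = false) (i3 : b3.inf = false)
    (w1 : wOf T t.a1 g.e1 ≤ wm) (w2 : wOf T t.a2 g.e2 ≤ wm) (w3 : wOf T t.a3 g.e3 ≤ wm)
    {y1 y2 y3 : ℝ} (m1 : b1.mem y1) (m2 : b2.mem y2) (m3 : b3.mem y3) {r ru : ℝ} {z : ℂ}
    (hr : |r - Real.exp (-(((t.a1 : ℝ) * b1.cen + t.a2 * b2.cen + t.a3 * b3.cen) / 2 ^ 16)) * 2 ^ 64| ≤ 2)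
    (hru : |ru - Real.exp (-(((t.a1 : ℝ) * b1.lo + t.a2 * b2.lo + t.a3 * b3.lo) / 2 ^ 16)) * 2 ^ 64| ≤ 2)
    (hz : ‖z - Complex.exp ((((cond g.e1 (T * b1.cen) 0 : ℕ) : ℂ) + ((cond g.e2 (T * b2.cen) 0 : ℕ) : ℂ) +
      ((cond g.e3 (T * b3.cen) 0 : ℕ) : ℂ)) / 2 ^ 16 * Complex.I) * 2 ^ 64‖ ≤ 3) :
    (r * z * ev3 6 (LeafT_G T b1.cen b2.cen b3.cen g t) (y1 - b1.cen / 2 ^ 16 : ℝ)
        (y2 - b2.cen / 2 ^ 16 : ℝ) (y3 - b3.cen / 2 ^ 16 : ℝ)).re / (2 ^ 144 * 24 ^ 3) -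
      (ru + 2) * (t.A.n1 * 2 ^ 16 + t.B.n1 * (g.l1.n1 * b1.hi + (g.l2.n1 * b2.hi + g.l3.n1 * b3.hi))) *
        ((120 * 2 ^ (5 * b1.k) + (wOf T t.a1 g.e1 : ℝ) ^ 5) * (120 * 2 ^ (5 * b2.k) + (wOf T t.a2 g.e2 : ℝ) ^ 5) *
          (120 * 2 ^ (5 * b3.k) + (wOf T t.a3 g.e3 : ℝ) ^ 5) -
          120 * 2 ^ (5 * b1.k) * (120 * 2 ^ (5 * b2.k)) * (120 * 2 ^ (5 * b3.k))) /
        (2 ^ 80 * (120 * 2 ^ (5 * b1.k) * (120 * 2 ^ (5 * b2.k)) * (120 * 2 ^ (5 * b3.k)))) -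
      (t.A.n1 * 2 ^ 16 + t.B.n1 * (g.l1.n1 * b1.hi + (g.l2.n1 * b2.hi + g.l3.n1 * b3.hi))) *
        (6 * (((2 ^ b1.k + wm) / 2 ^ b1.k) ^ 4 * ((2 ^ b2.k + wm) / 2 ^ b2.k) ^ 4 *
          ((2 ^ b3.k + wm) / 2 ^ b3.k) ^ 4) / 2 ^ 80) ≤ (t.cval T g y1 y2 y3).re := by
  obtain ⟨u1, v1⟩ := LeafT_mem o1 i1 m1
  obtain ⟨u2, v2⟩ := LeafT_mem o2 i2 m2
  obtain ⟨u3, v3⟩ := LeafT_mem o3 i3 m3
  obtain ⟨-, -, -, c1, -⟩ := LeafT_ax o1
  obtain ⟨-, -, -, c2, -⟩ := LeafT_ax o2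
  obtain ⟨-, -, -, c3, -⟩ := LeafT_ax o3
  obtain ⟨x1, x1', x1''⟩ := LeafT_axis T t.a1 g.e1 w1 u1
  obtain ⟨x2, x2', x2''⟩ := LeafT_axis T t.a2 g.e2 w2 u2
  obtain ⟨x3, x3', x3''⟩ := LeafT_axis T t.a3 g.e3 w3 u3
  have hE : ∀ a k : ℕ, 1 ≤ Real.exp (a / 2 ^ k) := fun a k => Real.one_le_exp (by positivity)
  have htay := norm_exp_sub_tay3 4 _ _ _ (hE _ _) (hE _ _) (hE _ _) x1 x2 x3 x1' x2' x3'
  set ρ : ℝ := ((t.a1 : ℝ) * b1.cen + t.a2 * b2.cen + t.a3 * b3.cen) / 2 ^ 16 with hρ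
  set θ : ℝ := (((cond g.e1 (T * b1.cen) 0 : ℕ) : ℝ) + ((cond g.e2 (T * b2.cen) 0 : ℕ) : ℝ) +
      ((cond g.e3 (T * b3.cen) 0 : ℕ) : ℝ)) / 2 ^ 16 with hθ
  obtain ⟨-, -, hrz⟩ := LeafT_rz (r := r) (ρ := ρ) (θ := θ) (z := z) (by positivity) hr
    (by rw [hθ]; push_cast; exact hz)
  set U1 : ℝ := y1 - b1.cen / 2 ^ 16 with hU1
  set U2 : ℝ := y2 - b2.cen / 2 ^ 16 with hU2
  set U3 : ℝ := y3 - b3.cen / 2 ^ 16 with hU3
  set ω1 := (om T t.a1 g.e1).toC with hω1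
  set ω2 := (om T t.a2 g.e2).toC with hω2
  set ω3 := (om T t.a3 g.e3).toC with hω3
  set C : ℂ := t.A.toC + t.B.toC * (g.l1.toC * y1 + g.l2.toC * y2 + g.l3.toC * y3) with hC
  set P : ℂ := tay 4 (ω1 * U1) * tay 4 (ω2 * U2) * tay 4 (ω3 * U3) with hP
  set cc : ℝ := t.A.n1 * 2 ^ 16 + t.B.n1 * (g.l1.n1 * b1.hi + (g.l2.n1 * b2.hi + g.l3.n1 * b3.hi))
    with hcc
  have hCn : ‖C‖ ≤ cc / 2 ^ 16 := by
    refine (norm_add_le _ _).trans ((add_le_add (Cx.norm_toC_le _) (LeafT_lin g t v1 v2 v3)).trans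
      (le_of_eq ?_))
    rw [hcc]; ring
  have hPn : ‖P‖ ≤ ((2 ^ b1.k + wm) / 2 ^ b1.k) ^ 4 * ((2 ^ b2.k + wm) / 2 ^ b2.k) ^ 4 *
      ((2 ^ b3.k + wm) / 2 ^ b3.k) ^ 4 := by
    rw [hP, norm_mul, norm_mul]
    gcongr
  have hev : ev3 6 (LeafT_G T b1.cen b2.cen b3.cen g t) U1 U2 U3 = C * P * (2 ^ 16 * 24 ^ 3 : ℝ) := by
    have h := ev3_tcf 4 ω1 ω2 ω3 (65536 * t.A.toC + t.B.toC * (b1.cen * g.l1.toC + b2.cen * g.l2.toC +
      b3.cen * g.l3.toC)) t.B.toC (65536 * g.l1.toC) (65536 * g.l2.toC) (65536 * g.l3.toC) U1 U2 U3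
    refine h.trans ?_
    rw [← hP, hC, hU1, hU2, hU3]
    have : (((4 : ℕ).factorial : ℕ) : ℂ) = 24 := by norm_num [Nat.factorial]
    rw [this]
    push_cast; ring
  have hval : t.cval T g y1 y2 y3 = Complex.exp ((-ρ : ℝ) + θ * Complex.I) *
      Complex.exp (ω1 * U1 + ω2 * U2 + ω3 * U3) * C := by
    unfold Tm.cval
    rw [← Complex.exp_add]
    congr 2
    have e1 := LeafT_om T t.a1 g.e1 b1.cen
    have e2 := LeafT_om T t.a2 g.e2 b2.cen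
    have e3 := LeafT_om T t.a3 g.e3 b3.cen
    rw [← hω1] at e1; rw [← hω2] at e2; rw [← hω3] at e3
    rw [← hω1, ← hω2, ← hω3, hU1, hU2, hU3, hρ, hθ]
    push_cast at e1 e2 e3 ⊢
    linear_combination e1 + e2 + e3
  have hp : ‖Complex.exp ((-ρ : ℝ) + θ * Complex.I)‖ = Real.exp (-ρ) := by
    rw [Complex.norm_exp]; simp
  set q : ℝ := (1 + (wOf T t.a1 g.e1 : ℝ) ^ 5 / (120 * 2 ^ (5 * b1.k))) *
    (1 + (wOf T t.a2 g.e2 : ℝ) ^ 5 / (120 * 2 ^ (5 * b2.k))) *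
    (1 + (wOf T t.a3 g.e3 : ℝ) ^ 5 / (120 * 2 ^ (5 * b3.k))) - 1 with hq
  have hq0 : 0 ≤ q := by
    rw [hq, sub_nonneg]
    exact one_le_mul_of_one_le_of_one_le (one_le_mul_of_one_le_of_one_le
      (le_add_of_nonneg_right (by positivity)) (le_add_of_nonneg_right (by positivity)))
      (le_add_of_nonneg_right (by positivity))
  have hR : ‖Complex.exp ((-ρ : ℝ) + θ * Complex.I)‖ *
      ‖Complex.exp (ω1 * U1 + ω2 * U2 + ω3 * U3) - P‖ ≤ (ru + 2) / 2 ^ 64 * q := by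
    rw [hp]
    refine (mul_le_mul_of_nonneg_left htay (Real.exp_pos _).le).trans ?_
    rw [← mul_assoc, ← Real.exp_add, ← Real.exp_add, ← Real.exp_add]
    refine mul_le_mul_of_nonneg_right ?_ hq0
    have e : -ρ + ((t.a1 : ℝ) / 2 ^ b1.k + t.a2 / 2 ^ b2.k + t.a3 / 2 ^ b3.k) =
        -(((t.a1 : ℝ) * b1.lo + t.a2 * b2.lo + t.a3 * b3.lo) / 2 ^ 16) := by
      rw [hρ]
      linear_combination (-(t.a1 : ℝ)) * c1 - (t.a2 : ℝ) * c2 - (t.a3 : ℝ) * c3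
    rw [e, le_div_iff₀ (by positivity)]
    linarith [(abs_le.1 hru).1]
  have key := LeafT_err hrz hR hPn hCn
  rw [hval, hev]
  refine le_trans (le_of_eq ?_) key
  have e : (r * z * (C * P * (2 ^ 16 * 24 ^ 3 : ℝ))).re = (r * z * (C * P)).re * (2 ^ 16 * 24 ^ 3) := by
    rw [← mul_assoc, Complex.re_mul_ofReal]
  rw [e, hq]
  field_simp

/-! ### block extraction -/

theorem LeafT_split {R X a : ℕ} (h : R < 2 ^ a) :
    Nat.land (R + X * 2 ^ a) (Nat.pred (Nat.pow 2 a)) = R ∧ Nat.shiftRight (R + X * 2 ^ a) a = X := by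
  constructor
  · show (R + X * 2 ^ a) &&& (2 ^ a - 1) = R
    rw [Nat.and_two_pow_sub_one_eq_mod, Nat.add_mul_mod_self_right, Nat.mod_eq_of_lt h]
  · show (R + X * 2 ^ a) >>> a = X
    rw [Nat.shiftRight_eq_div_pow, Nat.add_mul_div_right _ _ (by positivity), Nat.div_eq_of_lt h,
      zero_add]

theorem LeafT_blk {KO : ℕ} (hK : 64 ≤ KO) {z : ℤ} (hz : z.natAbs < 2 ^ KO) :
    (blk KO z : ℤ) = z + offs KO ∧ blk KO z ≤ 2 ^ (KO + 2) := by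
  have e1 : offs KO = 2 ^ KO + 11400714819323198485 := rfl
  have e2 : blk KO z = (z + (offs KO : ℤ)).toNat := rfl
  have e3 : 2 ^ 64 ≤ 2 ^ KO := Nat.pow_le_pow_right (by norm_num) hK
  have e4 : 2 ^ (KO + 2) = 4 * 2 ^ KO := by ring
  rw [e2, e4, e1]
  generalize 2 ^ KO = M at *
  constructor <;> omega

theorem LeafT_sum_lt {α : Type} (l : List α) (hl : l.length ≤ 8192) (f : α → ℕ) {a : ℕ}
    (hf : ∀ t ∈ l, f t ≤ 2 ^ a) : (l.map f).sum < 2 ^ (a + 14) := by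
  have h := List.sum_le_card_nsmul (l.map f) (2 ^ a) (by
    intro x hx
    obtain ⟨t, ht, rfl⟩ := List.mem_map.1 hx
    exact hf t ht)
  rw [List.length_map, smul_eq_mul] at h
  have h2 : 0 < 2 ^ a := by positivity
  rw [pow_add]
  nlinarith

theorem LeafT_sum_pack {α : Type} (l : List α) (r b1 b2 b3 b4 : α → ℕ) (X Y : ℕ) :
    (l.map fun t => r t * (1 + (b1 t + (b2 t + (b3 t + b4 t * X) * X) * X) * Y)).sum =
      (l.map r).sum + ((l.map fun t => r t * b1 t).sum + ((l.map fun t => r t * b2 t).sum +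
        ((l.map fun t => r t * b3 t).sum + (l.map fun t => r t * b4 t).sum * X) * X) * X) * Y := by
  induction l with
  | nil => simp
  | cons a l ih => simp only [List.map_cons, List.sum_cons, ih]; ring

theorem LeafT_sum_off {α : Type} (l : List α) (r b : α → ℕ) (z : α → ℤ) (o : ℕ)
    (h : ∀ t ∈ l, (b t : ℤ) = z t + o) :
    (((l.map fun t => r t * b t).sum : ℕ) : ℤ) + -(((l.map r).sum * o : ℕ) : ℤ) =
      (l.map fun t => (r t : ℤ) * z t).sum := by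
  induction l with
  | nil => simp
  | cons a l ih =>
    have h1 := ih fun t ht => h t (List.mem_cons_of_mem _ ht)
    have h2 := h a List.mem_cons_self
    simp only [List.map_cons, List.sum_cons, ← h1]
    push_cast
    rw [h2]; ring

theorem LeafT_pt (c : Cfg) (T : ℕ) (g : Gp) (t : Tm) : ptOf c T g t =
    ⟨sh t.a1, sh t.a2, sh t.a3,
      1 + (blk c.KO (t.A.mul (ten 4 c.W T g t)).re + (blk c.KO (t.A.mul (ten 4 c.W T g t)).im +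
        (blk c.KO (t.B.mul (ten 4 c.W T g t)).re + blk c.KO (t.B.mul (ten 4 c.W T g t)).im *
          2 ^ (c.KO + 80)) * 2 ^ (c.KO + 80)) * 2 ^ (c.KO + 80)) * 2 ^ 80,
      t.A.n1, t.B.n1, wOf T t.a1 g.e1 ^ 5, wOf T t.a2 g.e2 ^ 5, wOf T t.a3 g.e3 ^ 5⟩ := by
  simp only [ptOf, mkPT, force_eq, Cx.force_eq, ← Nat.shiftLeft_eq]
  rfl

/-- the computed phase of a group -/
def LeafT_z (z1 z2 z3 : Cx) (g : Gp) : Cx :=
  (cond g.e3 (mulC (cond g.e2 (mulC (cond g.e1 z1 ⟨Int.ofNat one96, 0⟩) z2)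
    (cond g.e1 z1 ⟨Int.ofNat one96, 0⟩)) z3)
    (cond g.e2 (mulC (cond g.e1 z1 ⟨Int.ofNat one96, 0⟩) z2) (cond g.e1 z1 ⟨Int.ofNat one96, 0⟩))).shr 32

theorem LeafT_grpX {c : Cfg} {T : ℕ} {P : Pre} (p1 : P.M80 = Nat.pred (Nat.pow 2 80))
    (p2 : P.MK = Nat.pred (Nat.pow 2 (c.KO + 80))) (p3 : P.OFF = offs c.KO) (hK : 64 ≤ c.KO)
    (t1 t2 t3 : ℕ) (z1 z2 z3 : Cx) (n1 n2 n3 : ℕ) {g : Gp} (hl : g.ts.length ≤ 8192)
    (hr : ∀ t ∈ g.ts, rOf t1 t2 t3 (sh t.a1) (sh t.a2) (sh t.a3) ≤ 2 ^ 64 + 2)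
    (hb : ∀ t ∈ g.ts, (t.A.mul (ten 4 c.W T g t)).n1 < 2 ^ c.KO ∧
      (t.B.mul (ten 4 c.W T g t)).n1 < 2 ^ c.KO) :
    ((grpX (Nat.add c.KO 80) P t1 t2 t3 z1 z2 z3 n1 n2 n3 (pgOf c T g) : ℤ) : ℝ) =
      (g.ts.map fun t => ((rOf t1 t2 t3 (sh t.a1) (sh t.a2) (sh t.a3) : ℝ) * (LeafT_z z1 z2 z3 g).toC *
        ev3 6 (LeafT_G T n1 n2 n3 g t) ((2 ^ c.W : ℝ) : ℂ) ((2 ^ (6 * c.W) : ℝ) : ℂ)
          ((2 ^ (36 * c.W) : ℝ) : ℂ)).re).sum := by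
  set r : Tm → ℕ := fun t => rOf t1 t2 t3 (sh t.a1) (sh t.a2) (sh t.a3) with hrd
  set AV : Tm → Cx := fun t => t.A.mul (ten 4 c.W T g t) with hAV
  set BV : Tm → Cx := fun t => t.B.mul (ten 4 c.W T g t) with hBV
  have n1' : ∀ a : Cx, a.n1 < 2 ^ c.KO → a.re.natAbs < 2 ^ c.KO ∧ a.im.natAbs < 2 ^ c.KO := fun a ha => by
    have e : a.n1 = a.re.natAbs + a.im.natAbs := rfl
    omega
  have k1 : ∀ t ∈ g.ts, (blk c.KO (AV t).re : ℤ) = (AV t).re + offs c.KO ∧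
      blk c.KO (AV t).re ≤ 2 ^ (c.KO + 2) := fun t ht => LeafT_blk hK (n1' _ (hb t ht).1).1
  have k2 : ∀ t ∈ g.ts, (blk c.KO (AV t).im : ℤ) = (AV t).im + offs c.KO ∧
      blk c.KO (AV t).im ≤ 2 ^ (c.KO + 2) := fun t ht => LeafT_blk hK (n1' _ (hb t ht).1).2
  have k3 : ∀ t ∈ g.ts, (blk c.KO (BV t).re : ℤ) = (BV t).re + offs c.KO ∧
      blk c.KO (BV t).re ≤ 2 ^ (c.KO + 2) := fun t ht => LeafT_blk hK (n1' _ (hb t ht).2).1
  have k4 : ∀ t ∈ g.ts, (blk c.KO (BV t).im : ℤ) = (BV t).im + offs c.KO ∧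
      blk c.KO (BV t).im ≤ 2 ^ (c.KO + 2) := fun t ht => LeafT_blk hK (n1' _ (hb t ht).2).2
  have hr' : ∀ t ∈ g.ts, r t ≤ 2 ^ 65 := fun t ht => (hr t ht).trans (by norm_num)
  have hS : ∀ b : Tm → ℕ, (∀ t ∈ g.ts, b t ≤ 2 ^ (c.KO + 2)) →
      (g.ts.map fun t => r t * b t).sum < 2 ^ (c.KO + 80) := fun b hb => by
    have h := List.sum_le_card_nsmul (g.ts.map fun t => r t * b t) ((2 ^ 64 + 2) * 2 ^ (c.KO + 2)) (by
      intro x hx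
      obtain ⟨t, ht, rfl⟩ := List.mem_map.1 hx
      exact Nat.mul_le_mul (hr t ht) (hb t ht))
    rw [List.length_map, smul_eq_mul] at h
    refine h.trans_lt ((Nat.mul_le_mul_right _ hl).trans_lt ?_)
    rw [← mul_assoc, show c.KO + 80 = 78 + (c.KO + 2) by ring, pow_add 2 78]
    exact Nat.mul_lt_mul_of_pos_right (by norm_num) (by positivity)
  have hR : (g.ts.map r).sum < 2 ^ 80 :=
    (LeafT_sum_lt g.ts hl r hr').trans_le (by norm_num)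
  have hV : sumL (tmU t1 t2 t3) (g.ts.map (ptOf c T g)) = (g.ts.map r).sum +
      ((g.ts.map fun t => r t * blk c.KO (AV t).re).sum + ((g.ts.map fun t => r t * blk c.KO (AV t).im).sum +
        ((g.ts.map fun t => r t * blk c.KO (BV t).re).sum +
          (g.ts.map fun t => r t * blk c.KO (BV t).im).sum * 2 ^ (c.KO + 80)) * 2 ^ (c.KO + 80)) *
            2 ^ (c.KO + 80)) * 2 ^ 80 := by
    rw [← LeafT_sum_pack, sumL_eq, List.map_map]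
    refine congrArg List.sum (List.map_congr_left fun t _ => ?_)
    rw [Function.comp_apply, tmU_eq, LeafT_pt]
  have eK : Nat.add c.KO 80 = c.KO + 80 := rfl
  set w : Cx := (LeafT_z z1 z2 z3 g).mul ((((Cx.smul (Int.ofNat n1) g.l1).add
    (Cx.smul (Int.ofNat n2) g.l2)).add (Cx.smul (Int.ofNat n3) g.l3)).add
      (Cx.smul 65536 (linX 4 c.W g))) with hw
  have hX : grpX (Nat.add c.KO 80) P t1 t2 t3 z1 z2 z3 n1 n2 n3 (pgOf c T g) =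
      65536 * (LeafT_z z1 z2 z3 g).re * (g.ts.map fun t => (r t : ℤ) * (AV t).re).sum -
        65536 * (LeafT_z z1 z2 z3 g).im * (g.ts.map fun t => (r t : ℤ) * (AV t).im).sum +
        (w.re * (g.ts.map fun t => (r t : ℤ) * (BV t).re).sum -
          w.im * (g.ts.map fun t => (r t : ℤ) * (BV t).im).sum) := by
    rw [← LeafT_sum_off g.ts r _ _ _ fun t ht => (k1 t ht).1,
      ← LeafT_sum_off g.ts r _ _ _ fun t ht => (k2 t ht).1,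
      ← LeafT_sum_off g.ts r _ _ _ fun t ht => (k3 t ht).1,
      ← LeafT_sum_off g.ts r _ _ _ fun t ht => (k4 t ht).1]
    simp only [grpX, force_eq, forceZ_eq, Cx.force_eq, pgOf, hV, p1, p2, p3, eK,
      (LeafT_split hR).1, (LeafT_split hR).2, (LeafT_split (hS _ fun t ht => (k1 t ht).2)).1,
      (LeafT_split (hS _ fun t ht => (k1 t ht).2)).2, (LeafT_split (hS _ fun t ht => (k2 t ht).2)).1,
      (LeafT_split (hS _ fun t ht => (k2 t ht).2)).2, (LeafT_split (hS _ fun t ht => (k3 t ht).2)).1,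
      (LeafT_split (hS _ fun t ht => (k3 t ht).2)).2]
    rfl
  have hT : ∀ t : Tm, ((r t : ℝ) * (LeafT_z z1 z2 z3 g).toC *
      ev3 6 (LeafT_G T n1 n2 n3 g t) ((2 ^ c.W : ℝ) : ℂ) ((2 ^ (6 * c.W) : ℝ) : ℂ)
        ((2 ^ (36 * c.W) : ℝ) : ℂ)).re =
      ((65536 * (LeafT_z z1 z2 z3 g).re * ((r t : ℤ) * (AV t).re) -
        65536 * (LeafT_z z1 z2 z3 g).im * ((r t : ℤ) * (AV t).im) +
        (w.re * ((r t : ℤ) * (BV t).re) - w.im * ((r t : ℤ) * (BV t).im)) : ℤ) : ℝ) := fun t => by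
    have h := ev3_tcf 4 (om T t.a1 g.e1).toC (om T t.a2 g.e2).toC (om T t.a3 g.e3).toC
      (65536 * t.A.toC + t.B.toC * (n1 * g.l1.toC + n2 * g.l2.toC + n3 * g.l3.toC)) t.B.toC
      (65536 * g.l1.toC) (65536 * g.l2.toC) (65536 * g.l3.toC) (2 ^ c.W) (2 ^ (6 * c.W)) (2 ^ (36 * c.W))
    have h2 := ten_toC 4 c.W T g t
    have h3 := linX_toC 4 c.W g
    norm_num only at h2 h3 h
    have h4 : (r t : ℝ) * (LeafT_z z1 z2 z3 g).toC *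
        ev3 6 (LeafT_G T n1 n2 n3 g t) ((2 ^ c.W : ℝ) : ℂ) ((2 ^ (6 * c.W) : ℝ) : ℂ)
          ((2 ^ (36 * c.W) : ℝ) : ℂ) =
        ((r t : ℝ) : ℂ) * ((65536 : ℝ) * ((LeafT_z z1 z2 z3 g).toC * (AV t).toC) + w.toC * (BV t).toC) := by
      unfold LeafT_G
      push_cast
      rw [h, ← h2, hw, hAV, hBV]
      simp only [Cx.toC_mul, Cx.toC_add, Cx.toC_smul, h3, Int.ofNat_eq_natCast]
      push_cast
      ring
    rw [h4, Complex.re_ofReal_mul, Complex.add_re, Complex.re_ofReal_mul, Complex.mul_re, Complex.mul_re]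
    simp only [Cx.toC_re, Cx.toC_im]
    push_cast
    ring
  rw [hX]
  simp only [hrd] at hT ⊢
  simp only [hT]
  generalize g.ts = l
  induction l with
  | nil => simp
  | cons a l ih =>
    simp only [List.map_cons, List.sum_cons, ← ih]
    push_cast
    ring

theorem LeafT_grpR (c : Cfg) (T u1 u2 u3 k1 k2 k3 h1 h2 h3 : ℕ) (g : Gp) :
    ((grpR u1 u2 u3 (Nat.shiftLeft 120 (Nat.mul 5 k1)) (Nat.shiftLeft 120 (Nat.mul 5 k2))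
      (Nat.shiftLeft 120 (Nat.mul 5 k3)) (Nat.mul (Nat.mul (Nat.shiftLeft 120 (Nat.mul 5 k1))
        (Nat.shiftLeft 120 (Nat.mul 5 k2))) (Nat.shiftLeft 120 (Nat.mul 5 k3))) h1 h2 h3 (pgOf c T g) : ℕ) : ℝ) =
      (g.ts.map fun t => ((rOf u1 u2 u3 (sh t.a1) (sh t.a2) (sh t.a3) : ℝ) + 2) *
        (t.A.n1 * 2 ^ 16 + t.B.n1 * (g.l1.n1 * h1 + (g.l2.n1 * h2 + g.l3.n1 * h3))) *
        ((120 * 2 ^ (5 * k1) + (wOf T t.a1 g.e1 : ℝ) ^ 5) * (120 * 2 ^ (5 * k2) + (wOf T t.a2 g.e2 : ℝ) ^ 5) *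
          (120 * 2 ^ (5 * k3) + (wOf T t.a3 g.e3 : ℝ) ^ 5) -
          120 * 2 ^ (5 * k1) * (120 * 2 ^ (5 * k2)) * (120 * 2 ^ (5 * k3)))).sum := by
  have e : ∀ k : ℕ, Nat.shiftLeft 120 (Nat.mul 5 k) = 120 * 2 ^ (5 * k) := fun k =>
    Nat.shiftLeft_eq 120 (5 * k)
  simp only [grpR, force_eq, pgOf, sumL_eq, List.map_map, e, Nat.cast_list_sum]
  refine congrArg List.sum (List.map_congr_left fun t _ => ?_)
  simp only [Function.comp_apply, tmR_eq, LeafT_pt, Nat.shiftLeft_eq, Nat.mul_eq, Nat.add_eq]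
  rw [Nat.cast_mul, Nat.cast_sub (Nat.mul_le_mul (Nat.mul_le_mul (Nat.le_add_right _ _)
    (Nat.le_add_right _ _)) (Nat.le_add_right _ _))]
  push_cast
  ring

theorem LeafT_final {S Rm NN T0 w k1 k2 k3 : ℕ}
    (h : Nat.add (Nat.add (Nat.mul 125 S) (Nat.shiftLeft Rm 64))
          (Nat.shiftLeft (Nat.mul (Nat.mul 10368000 NN) (Nat.pow (Nat.mul (Nat.mul
            (Nat.add (Nat.pow 2 k1) w) (Nat.add (Nat.pow 2 k2) w))
            (Nat.add (Nat.pow 2 k3) w)) 4)) (Nat.add 64 (Nat.add (Nat.add k1 k2) k3))) <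
        Nat.shiftLeft (Nat.mul 125 T0) (Nat.mul 5 (Nat.add (Nat.add k1 k2) k3))) :
    0 < ((T0 : ℝ) - S / 2 ^ (5 * (k1 + k2 + k3))) / (2 ^ 144 * 24 ^ 3) -
      Rm / (2 ^ 80 * (120 * 2 ^ (5 * k1) * (120 * 2 ^ (5 * k2)) * (120 * 2 ^ (5 * k3)))) -
      NN * (6 * (((2 ^ k1 + w) / 2 ^ k1) ^ 4 * ((2 ^ k2 + w) / 2 ^ k2) ^ 4 *
          ((2 ^ k3 + w) / 2 ^ k3) ^ 4) / 2 ^ 80) := by
  have h1 : 125 * S + Rm * 2 ^ 64 + 10368000 * NN * ((2 ^ k1 + w) * (2 ^ k2 + w) * (2 ^ k3 + w)) ^ 4 *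
      2 ^ (64 + (k1 + k2 + k3)) < 125 * T0 * 2 ^ (5 * (k1 + k2 + k3)) := by
    simp only [← Nat.shiftLeft_eq]
    exact h
  have h2 : (125 * S + Rm * 2 ^ 64 + 10368000 * NN * ((2 ^ k1 + w) * (2 ^ k2 + w) * (2 ^ k3 + w)) ^ 4 *
      2 ^ (64 + (k1 + k2 + k3)) : ℝ) < 125 * T0 * 2 ^ (5 * (k1 + k2 + k3)) := by exact_mod_cast h1
  simp only [mul_comm 5, pow_mul, pow_add] at h2 ⊢
  have a1 : (0 : ℝ) < 2 ^ k1 := by positivity
  have a2 : (0 : ℝ) < 2 ^ k2 := by positivity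
  have a3 : (0 : ℝ) < 2 ^ k3 := by positivity
  generalize (2 : ℝ) ^ k1 = x at *
  generalize (2 : ℝ) ^ k2 = y at *
  generalize (2 : ℝ) ^ k3 = z at *
  have e : ((T0 : ℝ) - S / (x * y * z) ^ 5) / (2 ^ 144 * 24 ^ 3) -
      Rm / (2 ^ 80 * (120 * x ^ 5 * (120 * y ^ 5) * (120 * z ^ 5))) -
      NN * (6 * (((x + w) / x) ^ 4 * ((y + w) / y) ^ 4 * ((z + w) / z) ^ 4) / 2 ^ 80) =
      (125 * T0 * (x * y * z) ^ 5 - (125 * S + Rm * 2 ^ 64 +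
        10368000 * NN * ((x + w) * (y + w) * (z + w)) ^ 4 * (2 ^ 64 * (x * y * z)))) /
        (2 ^ 144 * 120 ^ 3 * (x * y * z) ^ 5) := by
    field_simp
    ring
  rw [e]
  exact div_pos (sub_pos.2 h2) (by positivity)

theorem LeafT_phase {T n1 n2 n3 : ℕ} (hT : T ≤ 63) (h1 : n1 < 2 ^ 22) (h2 : n2 < 2 ^ 22)
    (h3 : n3 < 2 ^ 22) (g : Gp) :
    ‖(LeafT_z (powC cTab (Nat.mul T n1) ⟨Int.ofNat one96, 0⟩) (powC cTab (Nat.mul T n2) ⟨Int.ofNat one96, 0⟩)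
        (powC cTab (Nat.mul T n3) ⟨Int.ofNat one96, 0⟩) g).toC -
      Complex.exp ((((cond g.e1 (T * n1) 0 : ℕ) : ℂ) + ((cond g.e2 (T * n2) 0 : ℕ) : ℂ) +
      ((cond g.e3 (T * n3) 0 : ℕ) : ℂ)) / 2 ^ 16 * Complex.I) * 2 ^ 64‖ ≤ 3 :=
  phase_spec hT h1 h2 h3 g.e1 g.e2 g.e3

theorem LeafT_rz' {r : ℝ} {a1 a2 a3 n1 n2 n3 m1 m2 m3 : ℕ} {z : ℂ}
    (hr : |r - Real.exp (-(((a1 : ℝ) * n1 + a2 * n2 + a3 * n3) / 2 ^ 16)) * 2 ^ 64| ≤ 2)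
    (hz : ‖z - Complex.exp (((m1 : ℂ) + m2 + m3) / 2 ^ 16 * Complex.I) * 2 ^ 64‖ ≤ 3) :
    |r| ≤ 2 ^ 64 + 2 ∧ ‖z‖ ≤ 2 ^ 64 + 3 := by
  have := LeafT_rz (θ := ((m1 : ℝ) + m2 + m3) / 2 ^ 16) (by positivity) hr (z := z)
    (by push_cast; exact hz)
  exact ⟨this.1, this.2.1⟩

theorem LeafT_aux (a b l1 l2 l3 h1 h2 h3 : ℕ) :
    (a : ℝ) * 2 ^ 16 + b * (l1 * h1 + (l2 * h2 + l3 * h3)) ≤
      a * 2 ^ 16 + b * (l1 + (l2 + l3)) * ((h1 + h2 + h3 : ℝ) + 65536) := by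
  rw [mul_assoc]
  refine add_le_add le_rfl (mul_le_mul_of_nonneg_left ?_ (Nat.cast_nonneg _))
  have a1 : (0 : ℝ) ≤ h1 := Nat.cast_nonneg _
  have a2 : (0 : ℝ) ≤ h2 := Nat.cast_nonneg _
  have a3 : (0 : ℝ) ≤ h3 := Nat.cast_nonneg _
  rw [add_mul, add_mul]
  gcongr <;> linarith

theorem LeafT_fin {a a' r n n' v : ℝ} {k1 k2 k3 w : ℕ} (h1 : a ≤ a') (h2 : n' ≤ n)
    (h3 : a' / (2 ^ 144 * 24 ^ 3) - r - n' * (6 * (((2 ^ k1 + w) / 2 ^ k1) ^ 4 *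
      ((2 ^ k2 + w) / 2 ^ k2) ^ 4 * ((2 ^ k3 + w) / 2 ^ k3) ^ 4) / 2 ^ 80) ≤ v) :
    a / (2 ^ 144 * 24 ^ 3) - r - n * (6 * (((2 ^ k1 + w) / 2 ^ k1) ^ 4 *
      ((2 ^ k2 + w) / 2 ^ k2) ^ 4 * ((2 ^ k3 + w) / 2 ^ k3) ^ 4) / 2 ^ 80) ≤ v :=
  le_trans (sub_le_sub (sub_le_sub (div_le_div_of_nonneg_right h1 (by positivity)) le_rfl)
    (mul_le_mul_of_nonneg_right h2 (by positivity))) h3

theorem chkT_sound {I : Inst} {c : Cfg} (hP : PreOk I c) {b1 b2 b3 : Ax}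
    (h : chkT I c (preOf I c) b1 b2 b3 = true) :
    ∃ δ : ℝ, 0 < δ ∧ ∀ y1 y2 y3 : ℝ, b1.mem y1 → b2.mem y2 → b3.mem y3 → δ ≤ I.val y1 y2 y3 := by
  obtain ⟨ok, hpre⟩ := preOf_eq I c
  generalize preOf I c = P at h hpre
  have q1 : P.eT = eTab := by rw [hpre]
  have q2 : P.cT = cTab := by rw [hpre]
  have q3 : P.gs = I.gs.map (pgOf c I.T) := by rw [hpre]
  have q4 : P.NA = I.NA := by rw [hpre]
  have q5 : P.NBL = I.NBL := by rw [hpre]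
  have p1 : P.M80 = Nat.pred (Nat.pow 2 80) := by rw [hpre]
  have p2 : P.MK = Nat.pred (Nat.pow 2 (c.KO + 80)) := by rw [hpre]
  have p3 : P.OFF = offs c.KO := by rw [hpre]
  have q6 : P.ONES = ones c.W 216 := by rw [hpre]
  have q7 : P.MW1 = Nat.pred (Nat.pow 2 c.W) := by rw [hpre]
  have q8 : P.MW6 = Nat.pred (Nat.pow 2 (Nat.mul 6 c.W)) := by rw [hpre]
  have q9 : P.MW36 = Nat.pred (Nat.pow 2 (Nat.mul 36 c.W)) := by rw [hpre]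
  have q10 : P.half = 2 ^ (c.W - 1) := by rw [hpre]; rfl
  clear hpre
  simp only [chkT, force_eq, Cx.force_eq, Bool.and_eq_true, Bool.not_eq_true', Bool.or_eq_false_iff,
    Nat.blt_eq, q1, q2, q3, q4, q5, q6, q7, q8, q9] at h
  obtain ⟨⟨⟨⟨o1, o2⟩, o3⟩, ⟨i1, i2⟩, i3⟩, hb, hf⟩ := h
  have hδ := LeafT_final hf
  clear hf
  replace hb : _ ∧ True := ⟨hb, trivial⟩
  refine ⟨_, hδ, fun y1 y2 y3 m1 m2 m3 => ?_⟩
  clear hδ
  obtain ⟨l1, l1', l1'', -, -⟩ := LeafT_ax o1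
  obtain ⟨l2, l2', l2'', -, -⟩ := LeafT_ax o2
  obtain ⟨l3, l3', l3'', -, -⟩ := LeafT_ax o3
  obtain ⟨n, γ, τ, hm, hs⟩ := LeafT_flat I.gs
  have hr := fun g (hg : g ∈ I.gs) t (ht : t ∈ g.ts) => rOf_spec hP.amax_le (l1'.trans_lt l1'')
    (l2'.trans_lt l2'') (l3'.trans_lt l3'') (hP.a_le g hg t ht).1 (hP.a_le g hg t ht).2.1
    (hP.a_le g hg t ht).2.2
  have hru := fun g (hg : g ∈ I.gs) t (ht : t ∈ g.ts) => rOf_spec hP.amax_le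
    ((l1.trans l1').trans_lt l1'') ((l2.trans l2').trans_lt l2'') ((l3.trans l3').trans_lt l3'')
    (hP.a_le g hg t ht).1 (hP.a_le g hg t ht).2.1 (hP.a_le g hg t ht).2.2
  have hz := LeafT_phase hP.T_le (l1'.trans_lt l1'') (l2'.trans_lt l2'') (l3'.trans_lt l3'')
  generalize expTab eTab c.amax b1.cen = t1 at *
  generalize expTab eTab c.amax b2.cen = t2 at *
  generalize expTab eTab c.amax b3.cen = t3 at *
  generalize expTab eTab c.amax b1.lo = u1 at *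
  generalize expTab eTab c.amax b2.lo = u2 at *
  generalize expTab eTab c.amax b3.lo = u3 at *
  generalize powC cTab (Nat.mul I.T b1.cen) ⟨Int.ofNat one96, 0⟩ = z1 at *
  generalize powC cTab (Nat.mul I.T b2.cen) ⟨Int.ofNat one96, 0⟩ = z2 at *
  generalize powC cTab (Nat.mul I.T b3.cen) ⟨Int.ofNat one96, 0⟩ = z3 at *
  generalize hNN : Nat.add (Nat.shiftLeft I.NA 16)
    (Nat.mul I.NBL (Nat.add (Nat.add (Nat.add b1.hi b2.hi) b3.hi) 65536)) = NN at *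
  generalize hhf : Nat.add P.half (Nat.land (Nat.add t1 (Nat.add (Nat.mul 3 t2) (Nat.mul 5 t3)))
    18446744073709551615) = hf at *
  have hrz : ∀ g ∈ I.gs, ∀ t ∈ g.ts, |(rOf t1 t2 t3 (sh t.a1) (sh t.a2) (sh t.a3) : ℝ)| ≤ 2 ^ 64 + 2 ∧
      ‖(LeafT_z z1 z2 z3 g).toC‖ ≤ 2 ^ 64 + 3 := fun g hg t ht => LeafT_rz' (hr g hg t ht) (hz g)
  -- the total coefficient tensor
  set cf0 : Fin n → ℂ := fun s => ((rOf t1 t2 t3 (sh (τ s).a1) (sh (τ s).a2) (sh (τ s).a3) : ℝ) : ℂ) *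
    (LeafT_z z1 z2 z3 (γ s)).toC with hcf0
  set G : ℕ → ℕ → ℕ → ℂ := fun i j k =>
    ∑ s, cf0 s * LeafT_G I.T b1.cen b2.cen b3.cen (γ s) (τ s) i j k with hG
  have hGm : ∀ i j k, ∃ m : ℤ, (G i j k).re = m := fun i j k =>
    LeafT_re_int (sum_mem fun s _ => mul_mem (mul_mem
      (by rw [Complex.ofReal_natCast]; exact natCast_mem _ _) (LeafT_toC_mem _)) (LeafT_G_mem ..))
  choose F hF using hGm
  have hev : ∀ x y z : ℝ, ev3 6 (fun i j k => (F i j k : ℝ)) x y z =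
      ∑ s, (cf0 s * ev3 6 (LeafT_G I.T b1.cen b2.cen b3.cen (γ s) (τ s)) x y z).re := fun x y z => by
    rw [← ev3_re 6 G F hF, hG, LeafT_ev3_sum, Complex.re_sum]
  have hX : sumZ (grpX (Nat.add c.KO 80) P t1 t2 t3 z1 z2 z3 b1.cen b2.cen b3.cen)
      (I.gs.map (pgOf c I.T)) = ev3 6 F (2 ^ c.W) (2 ^ (6 * c.W)) (2 ^ (36 * c.W)) := by
    apply Int.cast_injective (α := ℝ)
    rw [LeafT_ev3_cast]
    push_cast
    rw [hev, sumZ_eq, List.map_map, Int.cast_list_sum, List.map_map, ← hs ℝ fun g t =>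
      ((rOf t1 t2 t3 (sh t.a1) (sh t.a2) (sh t.a3) : ℝ) * (LeafT_z z1 z2 z3 g).toC *
        ev3 6 (LeafT_G I.T b1.cen b2.cen b3.cen g t) ((2 ^ c.W : ℝ) : ℂ) ((2 ^ (6 * c.W) : ℝ) : ℂ)
          ((2 ^ (36 * c.W) : ℝ) : ℂ)).re]
    refine congrArg List.sum (List.map_congr_left fun g hg => ?_)
    refine LeafT_grpX p1 p2 p3 hP.KO_ge t1 t2 t3 z1 z2 z3 _ _ _ (hP.len g hg) (fun t ht => ?_)
      (hP.blk_lt g hg)
    have := (hrz g hg t ht).1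
    rw [Nat.abs_cast] at this
    exact_mod_cast this
  have hNN' : (NN : ℝ) = ∑ s, (((τ s).A.n1 : ℝ) * 2 ^ 16 + (τ s).B.n1 *
      ((γ s).l1.n1 + ((γ s).l2.n1 + (γ s).l3.n1)) * ((b1.hi + b2.hi + b3.hi : ℝ) + 65536)) := by
    have e1 : I.NA = ∑ s, (τ s).A.n1 := by
      rw [← hs ℕ fun _ t => t.A.n1]
      simp only [Inst.NA, sumL_eq]
    have e2 : I.NBL = ∑ s, (τ s).B.n1 * ((γ s).l1.n1 + ((γ s).l2.n1 + (γ s).l3.n1)) := by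
      rw [← hs ℕ fun g t => t.B.n1 * (g.l1.n1 + (g.l2.n1 + g.l3.n1))]
      simp only [Inst.NBL, sumL_eq, List.sum_map_mul_right, Nat.mul_eq, Nat.add_eq]
    have e3 : NN = I.NA * 2 ^ 16 + I.NBL * (b1.hi + b2.hi + b3.hi + 65536) := by
      rw [← Nat.shiftLeft_eq]; exact hNN.symm
    rw [e3, e1, e2, sum_add_distrib, ← sum_mul, ← sum_mul]
    push_cast
    ring
  have hFb : ∀ i j k, |F i j k| ≤ (NN * (c.wmax + 3) ^ 12 * 2 ^ 130 : ℕ) := fun i j k => by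
    have h1 : |(F i j k : ℝ)| ≤ NN * (c.wmax + 3) ^ 12 * 2 ^ 130 := by
      rw [← hF, hNN', sum_mul, sum_mul]
      refine (Complex.abs_re_le_norm _).trans ((norm_sum_le _ _).trans (sum_le_sum fun s _ => ?_))
      obtain ⟨w1, w2, w3⟩ := hP.w_le _ (hm s).1 _ (hm s).2
      obtain ⟨r1, r2⟩ := hrz _ (hm s).1 _ (hm s).2
      have g1 := LeafT_G_le (n1 := b1.cen) (n2 := b2.cen) (n3 := b3.cen) w1 w2 w3
        (h := b1.hi + b2.hi + b3.hi) (by exact_mod_cast (by omega)) (by exact_mod_cast (by omega))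
        (by exact_mod_cast (by omega)) i j k
      have g2 : ‖cf0 s‖ ≤ 2 ^ 130 := by
        rw [hcf0, norm_mul, Complex.norm_real, Real.norm_eq_abs]
        exact (mul_le_mul r1 r2 (norm_nonneg _) (by positivity)).trans (by norm_num)
      rw [norm_mul, mul_comm]
      exact mul_le_mul g1 g2 (norm_nonneg _) ((norm_nonneg _).trans g1)
    exact_mod_cast h1
  have hFr : ∀ i j k, 0 ≤ F i j k + hf ∧ F i j k + hf < 2 ^ c.W := fun i j k => by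
    have h1 := abs_le.1 (hFb i j k)
    have h2 : NN * (c.wmax + 3) ^ 12 * 2 ^ 130 + 18446744073709551616 < P.half := by
      rw [← Nat.shiftLeft_eq]; exact hb.1
    have h3 : hf ≤ P.half + 18446744073709551615 := hhf ▸ Nat.add_le_add_left Nat.and_le_right _
    have h4 : P.half ≤ hf := hhf ▸ Nat.le_add_right _ _
    have h5 : 2 ^ c.W = 2 * P.half := by
      rw [q10, ← pow_succ']; congr 1; have := hP.W_ge; omega
    have h6 : (2 : ℤ) ^ c.W = 2 * P.half := by exact_mod_cast h5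
    rw [h6]
    generalize NN * (c.wmax + 3) ^ 12 * 2 ^ 130 = B at *
    constructor <;> omega
  have hsix := six_spec hP.W_ge F hFr rfl (LeafT_mem o1 i1 m1).1 (LeafT_mem o2 i2 m2).1
    (LeafT_mem o3 i3 m3).1
  rw [← hX, hev] at hsix
  have hval : I.val y1 y2 y3 = ∑ s, ((τ s).cval I.T (γ s) y1 y2 y3).re :=
    hs ℝ fun g t => (t.cval I.T g y1 y2 y3).re
  have hterm := sum_le_sum (s := univ) fun s _ => LeafT_term o1 o2 o3 i1 i2 i3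
    (hP.w_le _ (hm s).1 _ (hm s).2).1 (hP.w_le _ (hm s).1 _ (hm s).2).2.1
    (hP.w_le _ (hm s).1 _ (hm s).2).2.2 m1 m2 m3 (hr _ (hm s).1 _ (hm s).2)
    (hru _ (hm s).1 _ (hm s).2) (hz (γ s))
  rw [sum_sub_distrib, sum_sub_distrib, ← sum_div, ← sum_div, ← sum_mul, ← hval] at hterm
  have hRm := LeafT_grpR c I.T u1 u2 u3 b1.k b2.k b3.k b1.hi b2.hi b3.hi
  have hRm2 := (congrArg List.sum (List.map_congr_left (l := I.gs) fun g _ => hRm g)).trans (hs ℝ _)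
  have hN2 : ∑ s, (((τ s).A.n1 : ℝ) * 2 ^ 16 + (τ s).B.n1 *
      ((γ s).l1.n1 * b1.hi + ((γ s).l2.n1 * b2.hi + (γ s).l3.n1 * b3.hi))) ≤ (NN : ℝ) := by
    rw [hNN']
    exact sum_le_sum fun s _ => LeafT_aux ..
  rw [← hRm2] at hterm
  rw [sumL_eq, List.map_map, Nat.cast_list_sum, List.map_map]
  exact LeafT_fin hsix hN2 hterm

end Crest.Agent.R163.E2
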