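import Crest.Agent.R163.E2.Pack

/-!
# R163/E2/Local: the exact Taylor expansion at the origin

`coefs_spec`: `locX = ev3 (m+2) F …` with `F i j k = ∑ Re tcf …` (`ten_toC`, `linX_toC`, `ev3_tcf`, `ev3_re`, `exists_cf_eq`),
`|F| ≤ (NA + NBL) ((w1+m)(w2+m)(w3+m))^m` (`norm_cf_le`), `unpack_spec`, `ev_map_range`; remainder by `norm_exp_sub_tay3` with
`E_i = 1` (`Re ω ≤ 0`, `y ≥ 0`).
`locCheck_sound`: with `ρ_i ≤ 1`, `∏(1+ρ_i) - 1 ≤ 4 ∑ ρ_i`, `ρ_i ≤ w_i^(m+1) y_i^k0 2^(-j(m+1-k0)) / (m+1)!`;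
`dom`: `2^(jD) * ev p ≥ ev (dom p)` monomial by monomial (`y^α ≤ 2^(-j n) y^(red n α)`), `merge` preserves `ev`,
`ev (negSos sos) ≤ 0`; a list with nonnegative coefficients containing a positive multiple of `y_i^k0` has `ev ≥ y_i^k0`.
-/

set_option autoImplicit false

namespace Crest.Agent.R163.E2

theorem Poly.ev_nil (x y z : ℝ) : Poly.ev [] x y z = 0 := rfl

theorem Poly.ev_cons (m : ℕ × ℕ × ℕ × ℤ) (p : Poly) (x y z : ℝ) :
    Poly.ev (m :: p) x y z = (m.2.2.2 : ℝ) * x ^ m.1 * y ^ m.2.1 * z ^ m.2.2.1 + p.ev x y z := by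
  simp [Poly.ev]

theorem Poly.ev_append (p q : Poly) (x y z : ℝ) : Poly.ev (p ++ q) x y z = p.ev x y z + q.ev x y z := by
  simp [Poly.ev]

theorem Poly.ev_mul (p q : Poly) (x y z : ℝ) : (p.mul q).ev x y z = p.ev x y z * q.ev x y z := by
  induction p with
  | nil => simp [Poly.mul, Poly.ev]
  | cons a p ih =>
    have e : Poly.mul (a :: p) q = (q.map fun b => (a.1 + b.1, a.2.1 + b.2.1, a.2.2.1 + b.2.2.1,
        Int.mul a.2.2.2 b.2.2.2)) ++ Poly.mul p q := rfl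
    rw [e, Poly.ev_append, ih, Poly.ev_cons, add_mul]
    congr 1
    clear e ih
    induction q with
    | nil => simp [Poly.ev]
    | cons b q ih =>
      rw [List.map_cons, Poly.ev_cons, Poly.ev_cons, ih, Int.mul_def]
      push_cast
      ring

theorem Poly.ev_ins (i j k : ℕ) (c : ℤ) (p : Poly) (x y z : ℝ) :
    (Poly.ins i j k c p).ev x y z = (c : ℝ) * x ^ i * y ^ j * z ^ k + p.ev x y z := by
  induction p with
  | nil => exact Poly.ev_cons _ _ x y z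
  | cons m l ih =>
    have e : Poly.ins i j k c (m :: l) =
        cond (and (Nat.beq m.1 i) (and (Nat.beq m.2.1 j) (Nat.beq m.2.2.1 k)))
          (forceZ (Int.add m.2.2.2 c) fun s => (i, j, k, s) :: l) (m :: Poly.ins i j k c l) := rfl
    rw [e]
    cases h : and (Nat.beq m.1 i) (and (Nat.beq m.2.1 j) (Nat.beq m.2.2.1 k))
    · rw [cond_false, Poly.ev_cons, Poly.ev_cons, ih]
      ring
    · simp only [Bool.and_eq_true, Nat.beq_eq] at h
      rw [cond_true, forceZ_eq, Poly.ev_cons, Poly.ev_cons, h.1, h.2.1, h.2.2, Int.add_def]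
      push_cast
      ring

theorem Poly.ev_merge (p : Poly) (x y z : ℝ) : p.merge.ev x y z = p.ev x y z := by
  induction p with
  | nil => rfl
  | cons m l ih =>
    have e : Poly.merge (m :: l) = Poly.ins m.1 m.2.1 m.2.2.1 m.2.2.2 (Poly.merge l) := rfl
    rw [e, Poly.ev_ins, ih, Poly.ev_cons]


/-! ### double sums over the terms of an instance -/

theorem Loc_norm_list {α : Type} (l : List α) (z : α → ℂ) (b : α → ℝ) (h : ∀ a ∈ l, ‖z a‖ ≤ b a) :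
    ‖(l.map z).sum‖ ≤ (l.map b).sum := by
  induction l with
  | nil => simp
  | cons a l ih =>
    simp only [List.map_cons, List.sum_cons]
    exact (norm_add_le _ _).trans (add_le_add (h a List.mem_cons_self)
      (ih fun c hc => h c (List.mem_cons_of_mem _ hc)))

theorem Loc_re_list {α : Type} (l : List α) (z : α → ℂ) :
    (l.map z).sum.re = (l.map fun a => (z a).re).sum := by
  induction l with
  | nil => simp
  | cons a l ih => simp only [List.map_cons, List.sum_cons, Complex.add_re, ih]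

theorem Loc_int_list {α : Type} (l : List α) (z : α → ℂ) (h : ∀ a, ∃ n : ℤ, (z a).re = n) :
    ∃ n : ℤ, (l.map z).sum.re = n := by
  induction l with
  | nil => exact ⟨0, by simp⟩
  | cons a l ih =>
    obtain ⟨n, hn⟩ := ih
    obtain ⟨k, hk⟩ := h a
    exact ⟨k + n, by simp [hn, hk]⟩

theorem Loc_ev3_list {α : Type} (l : List α) (b : ℕ) (G : α → ℕ → ℕ → ℕ → ℂ) (x y z : ℂ) :
    ev3 b (fun i j k => (l.map fun a => G a i j k).sum) x y z =
      (l.map fun a => ev3 b (G a) x y z).sum := by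
  induction l with
  | nil => simp [ev3]
  | cons a l ih =>
    simp only [List.map_cons, List.sum_cons, ← ih]
    simp only [ev3, add_mul, Finset.sum_add_distrib]

/-- `∑_g ∑_t z g t` -/
noncomputable def LocS (I : Inst) (z : Gp → Tm → ℂ) : ℂ :=
  (I.gs.map fun g => (g.ts.map (z g)).sum).sum

theorem LocS_re (I : Inst) (z : Gp → Tm → ℂ) :
    (LocS I z).re = (I.gs.map fun g => (g.ts.map fun t => (z g t).re).sum).sum := by
  simp only [LocS, Loc_re_list]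

theorem LocS_lin (I : Inst) (z z' : Gp → Tm → ℂ) (c : ℂ) :
    LocS I (fun g t => z g t + c * z' g t) = LocS I z + c * LocS I z' := by
  simp only [LocS, List.sum_map_add, List.sum_map_mul_left]

theorem LocS_norm (I : Inst) (z : Gp → Tm → ℂ) (Y c : ℝ)
    (h : ∀ g ∈ I.gs, ∀ t ∈ g.ts, ‖z g t‖ ≤
      ((t.A.n1 : ℝ) + t.B.n1 * ((g.l1.n1 + (g.l2.n1 + g.l3.n1)) * Y)) * c) :
    ‖LocS I z‖ ≤ ((I.NA : ℝ) + I.NBL * Y) * c := by
  refine (Loc_norm_list _ _ _ fun g hg => Loc_norm_list _ _ _ (h g hg)).trans (le_of_eq ?_)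
  simp only [Inst.NA, Inst.NBL, sumL_eq, Nat.mul_eq, Nat.add_eq, Nat.cast_list_sum, List.map_map,
    Function.comp_def, Nat.cast_mul, Nat.cast_add, List.sum_map_mul_right, List.sum_map_add,
    ← mul_assoc]

theorem Loc_wm (I : Inst) (f : Gp → Tm → ℕ) {g : Gp} (hg : g ∈ I.gs) {t : Tm} (ht : t ∈ g.ts) :
    f g t ≤ I.wm f := by
  have h1 : ∀ (g : Gp) (b : ℕ) (l : List Tm),
      b ≤ (List.rec b (fun t _ ih' => Nat.max (f g t) ih') l : ℕ) ∧
      ∀ t ∈ l, f g t ≤ (List.rec b (fun t _ ih' => Nat.max (f g t) ih') l : ℕ) := by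
    intro g b l
    induction l with
    | nil => exact ⟨le_rfl, fun t ht => absurd ht List.not_mem_nil⟩
    | cons a l ih =>
      refine ⟨ih.1.trans (Nat.le_max_right _ _), fun t ht => ?_⟩
      rcases List.mem_cons.1 ht with rfl | ht
      · exact Nat.le_max_left _ _
      · exact (ih.2 t ht).trans (Nat.le_max_right _ _)
  unfold Inst.wm
  generalize I.gs = l at hg
  induction l with
  | nil => exact absurd hg List.not_mem_nil
  | cons a l ih =>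
    rcases List.mem_cons.1 hg with rfl | hg
    · exact (h1 g _ g.ts).2 t ht
    · exact (ih hg).trans (h1 a _ a.ts).1

theorem Loc_om (I : Inst) {g : Gp} (hg : g ∈ I.gs) {t : Tm} (ht : t ∈ g.ts) :
    ‖(om I.T t.a1 g.e1).toC‖ ≤ I.w1 ∧ ‖(om I.T t.a2 g.e2).toC‖ ≤ I.w2 ∧
      ‖(om I.T t.a3 g.e3).toC‖ ≤ I.w3 :=
  ⟨(norm_om_le _ _ _).trans (Nat.cast_le.2 (Loc_wm I (fun g t => wOf I.T t.a1 g.e1) hg ht)),
    (norm_om_le _ _ _).trans (Nat.cast_le.2 (Loc_wm I (fun g t => wOf I.T t.a2 g.e2) hg ht)),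
    (norm_om_le _ _ _).trans (Nat.cast_le.2 (Loc_wm I (fun g t => wOf I.T t.a3 g.e3) hg ht))⟩

theorem Loc_lin_norm (A B l1 l2 l3 : Cx) {u v1 v2 v3 : ℂ} {P Q : ℝ} (hu : ‖u‖ ≤ P)
    (h1 : ‖v1‖ ≤ Q) (h2 : ‖v2‖ ≤ Q) (h3 : ‖v3‖ ≤ Q) :
    ‖A.toC * u + B.toC * (l1.toC * v1 + l2.toC * v2 + l3.toC * v3)‖ ≤
      A.n1 * P + B.n1 * ((l1.n1 + (l2.n1 + l3.n1)) * Q) := by
  have k : ∀ (a : Cx) {v : ℂ} {R : ℝ}, ‖v‖ ≤ R → ‖a.toC * v‖ ≤ a.n1 * R := fun a v R hv => by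
    rw [norm_mul]
    exact mul_le_mul a.norm_toC_le hv (norm_nonneg _) (Nat.cast_nonneg _)
  refine (norm_add_le _ _).trans (add_le_add (k A hu) (k B ?_))
  refine norm_add₃_le.trans ?_
  linarith [k l1 h1, k l2 h2, k l3 h3]

/-- the coefficient tensor of one term -/
noncomputable def LocG (I : Inst) (m : ℕ) (g : Gp) (t : Tm) : ℕ → ℕ → ℕ → ℂ :=
  tcf m (om I.T t.a1 g.e1).toC (om I.T t.a2 g.e2).toC (om I.T t.a3 g.e3).toC t.A.toC t.B.toC
    g.l1.toC g.l2.toC g.l3.toC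

theorem Loc_cf' (m : ℕ) (ω : Cx) (j : ℕ) : ∃ c : Cx, cf' m ω.toC j = c.toC := by
  unfold cf'
  split_ifs
  · exact ⟨⟨0, 0⟩, by simp [Cx.toC]⟩
  · exact exists_cf_eq m ω _

theorem LocG_int (I : Inst) (m : ℕ) (g : Gp) (t : Tm) (i j k : ℕ) :
    ∃ n : ℤ, (LocG I m g t i j k).re = n := by
  obtain ⟨a1, h1⟩ := exists_cf_eq m (om I.T t.a1 g.e1) i
  obtain ⟨a2, h2⟩ := exists_cf_eq m (om I.T t.a2 g.e2) j
  obtain ⟨a3, h3⟩ := exists_cf_eq m (om I.T t.a3 g.e3) k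
  obtain ⟨b1, g1⟩ := Loc_cf' m (om I.T t.a1 g.e1) i
  obtain ⟨b2, g2⟩ := Loc_cf' m (om I.T t.a2 g.e2) j
  obtain ⟨b3, g3⟩ := Loc_cf' m (om I.T t.a3 g.e3) k
  simp only [LocG, tcf, h1, h2, h3, g1, g2, g3, ← Cx.toC_mul, ← Cx.toC_add, Cx.toC_re]
  exact ⟨_, rfl⟩

theorem Loc_norm_cf' (m : ℕ) (ω : ℂ) {w : ℝ} (h : ‖ω‖ ≤ w) (j : ℕ) : ‖cf' m ω j‖ ≤ (w + m) ^ m := by
  unfold cf'
  split_ifs
  · exact (norm_zero.trans_le (norm_nonneg _)).trans (norm_cf_le m ω h 0)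
  · exact norm_cf_le m ω h _

theorem LocG_norm (I : Inst) (m : ℕ) {g : Gp} (hg : g ∈ I.gs) {t : Tm} (ht : t ∈ g.ts) (i j k : ℕ) :
    ‖LocG I m g t i j k‖ ≤ ((t.A.n1 : ℝ) + t.B.n1 * ((g.l1.n1 + (g.l2.n1 + g.l3.n1)) * 1)) *
      (((I.w1 : ℝ) + m) * (I.w2 + m) * (I.w3 + m)) ^ m := by
  obtain ⟨h1, h2, h3⟩ := Loc_om I hg ht
  have k3 : ∀ {a b c : ℂ}, ‖a‖ ≤ ((I.w1 : ℝ) + m) ^ m → ‖b‖ ≤ ((I.w2 : ℝ) + m) ^ m →
      ‖c‖ ≤ ((I.w3 : ℝ) + m) ^ m → ‖a * b * c‖ ≤ (((I.w1 : ℝ) + m) * (I.w2 + m) * (I.w3 + m)) ^ m := by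
    intro a b c ha hb hc
    rw [norm_mul, norm_mul, mul_pow, mul_pow]
    gcongr
  refine (Loc_lin_norm t.A t.B g.l1 g.l2 g.l3
    (k3 (norm_cf_le m _ h1 i) (norm_cf_le m _ h2 j) (norm_cf_le m _ h3 k))
    (k3 (Loc_norm_cf' m _ h1 i) (norm_cf_le m _ h2 j) (norm_cf_le m _ h3 k))
    (k3 (norm_cf_le m _ h1 i) (Loc_norm_cf' m _ h2 j) (norm_cf_le m _ h3 k))
    (k3 (norm_cf_le m _ h1 i) (norm_cf_le m _ h2 j) (Loc_norm_cf' m _ h3 k))).trans (le_of_eq ?_)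
  ring

theorem Loc_locX (I : Inst) (m W : ℕ) : (locX I m W : ℝ) = (LocS I fun g t =>
    ev3 (m + 2) (LocG I m g t) (2 ^ W) (2 ^ ((m + 2) * W)) (2 ^ ((m + 2) * (m + 2) * W))).re := by
  rw [LocS_re]
  simp only [locX, sumZ_eq, Cx.force_eq, Int.cast_list_sum, List.map_map, Function.comp_def]
  refine congrArg List.sum (List.map_congr_left fun g _ =>
    congrArg List.sum (List.map_congr_left fun t _ => ?_))
  rw [LocG, ev3_tcf, ← ten_toC, ← linX_toC, ← Cx.toC_mul, ← Cx.toC_add, ← Cx.toC_mul, Cx.toC_re]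
  rfl

theorem Loc_coefs {I : Inst} {m W : ℕ} (h : coefsOk I m W = true) (x y z : ℝ) :
    (coefs I m W).ev x y z = (LocS I fun g t => ev3 (m + 2) (LocG I m g t) x y z).re := by
  simp only [coefsOk, Bool.and_eq_true, Nat.ble_eq, Nat.blt_eq, Nat.mul_eq, Nat.add_eq, Nat.pow_eq,
    Nat.pred_eq_sub_one] at h
  obtain ⟨hW, hlt⟩ := h
  have hint : ∀ i j k, ∃ n : ℤ, (LocS I fun g t => LocG I m g t i j k).re = n := fun i j k =>
    Loc_int_list _ _ fun g => Loc_int_list _ _ fun t => LocG_int I m g t i j k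
  choose F hF using hint
  have hev : ∀ x y z : ℝ, (LocS I fun g t => ev3 (m + 2) (LocG I m g t) x y z).re =
      ev3 (m + 2) (fun i j k => (F i j k : ℝ)) x y z := by
    intro x y z
    rw [← ev3_re (m + 2) _ F hF]
    simp only [LocS, Loc_ev3_list]
  have hb : ∀ i j k, |F i j k| < 2 ^ (W - 1) := by
    intro i j k
    have h1 := LocS_norm I _ 1 _ fun g hg t ht => LocG_norm I m hg ht i j k
    have h2 := (Complex.abs_re_le_norm _).trans h1
    have h3 : (((I.NA + I.NBL) * ((I.w1 + m) * (I.w2 + m) * (I.w3 + m)) ^ m : ℕ) : ℝ) <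
        ((2 ^ (W - 1) : ℕ) : ℝ) := Nat.cast_lt.2 hlt
    push_cast at h3
    rw [hF, mul_one] at h2
    exact_mod_cast h2.trans_lt h3
  have hX : locX I m W =
      ev3 (m + 2) F (2 ^ W) (2 ^ ((m + 2) * W)) (2 ^ ((m + 2) * (m + 2) * W)) := by
    have h1 := hev (2 ^ W) (2 ^ ((m + 2) * W)) (2 ^ ((m + 2) * (m + 2) * W))
    push_cast at h1
    rw [← Loc_locX] at h1
    refine Int.cast_injective (α := ℝ) (h1.trans ?_)
    simp only [ev3]
    push_cast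
    rfl
  rw [coefs, hX, unpack_spec hW F hb, ev_map_range, hev]

theorem Loc_rem (T a : ℕ) (e : Bool) {w y : ℝ} (hw : ‖(om T a e).toC‖ ≤ w) (hy : 0 ≤ y) (m : ℕ) :
    Real.exp ((om T a e).toC * y).re ≤ 1 ∧
      ‖(om T a e).toC * y‖ ^ (m + 1) / ((m + 1).factorial : ℝ) ≤
        (w * y) ^ (m + 1) / ((m + 1).factorial : ℝ) := by
  constructor
  · rw [Real.exp_le_one_iff, Complex.re_mul_ofReal, Cx.toC_re]
    refine mul_nonpos_of_nonpos_of_nonneg ?_ hy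
    simp [om]
  · rw [norm_mul, Complex.norm_real, Real.norm_of_nonneg hy]
    gcongr

theorem coefs_spec {I : Inst} {m W : ℕ} (h : coefsOk I m W = true) {y1 y2 y3 Y : ℝ} (h1 : 0 ≤ y1)
    (h2 : 0 ≤ y2) (h3 : 0 ≤ y3) (g1 : y1 ≤ Y) (g2 : y2 ≤ Y) (g3 : y3 ≤ Y) :
    |I.val y1 y2 y3 - (coefs I m W).ev y1 y2 y3 / (m.factorial : ℝ) ^ 3| ≤
      ((I.NA : ℝ) + I.NBL * Y) * ((1 + (I.w1 * y1) ^ (m + 1) / ((m + 1).factorial : ℝ)) *
        (1 + (I.w2 * y2) ^ (m + 1) / ((m + 1).factorial : ℝ)) *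
        (1 + (I.w3 * y3) ^ (m + 1) / ((m + 1).factorial : ℝ)) - 1) := by
  have hm : (m.factorial : ℂ) ≠ 0 := Nat.cast_ne_zero.2 m.factorial_ne_zero
  have e : I.val y1 y2 y3 - (coefs I m W).ev y1 y2 y3 / (m.factorial : ℝ) ^ 3 =
      (LocS I fun g t => t.cval I.T g y1 y2 y3 +
        ((-(1 / (m.factorial : ℝ) ^ 3) : ℝ) : ℂ) * ev3 (m + 2) (LocG I m g t) y1 y2 y3).re := by
    rw [LocS_lin, Complex.add_re, Complex.re_ofReal_mul, Loc_coefs h, LocS_re I fun g t => t.cval I.T g y1 y2 y3,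
      Inst.val]
    ring
  rw [e]
  refine (Complex.abs_re_le_norm _).trans (LocS_norm I _ Y _ fun g hg t ht => ?_)
  obtain ⟨o1, o2, o3⟩ := Loc_om I hg ht
  obtain ⟨a1, b1⟩ := Loc_rem _ _ _ o1 h1 m
  obtain ⟨a2, b2⟩ := Loc_rem _ _ _ o2 h2 m
  obtain ⟨a3, b3⟩ := Loc_rem _ _ _ o3 h3 m
  have k1 := norm_exp_sub_tay3 m _ _ _ le_rfl le_rfl le_rfl a1 a2 a3 b1 b2 b3
  have k2 := Loc_lin_norm t.A t.B g.l1 g.l2 g.l3 (u := 1) (v1 := y1) (v2 := y2) (v3 := y3) (Q := Y)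
    norm_one.le (by rwa [Complex.norm_real, Real.norm_of_nonneg h1])
    (by rwa [Complex.norm_real, Real.norm_of_nonneg h2])
    (by rwa [Complex.norm_real, Real.norm_of_nonneg h3])
  simp only [mul_one, one_mul] at k1 k2
  refine le_trans (le_of_eq ?_) (mul_le_mul k2 k1 (norm_nonneg _) ((norm_nonneg _).trans k2))
  rw [← norm_mul, LocG, ev3_tcf, Tm.cval]
  congr 1
  push_cast
  field_simp
  ring


/-! ### domination -/

theorem Loc_red {x y z h : ℝ} (hx : 0 ≤ x) (hy : 0 ≤ y) (hz : 0 ≤ z) (gx : x ≤ h) (gy : y ≤ h)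
    (gz : z ≤ h) (n : ℕ) : ∀ a b c : ℕ, n ≤ a + (b + c) → x ^ a * y ^ b * z ^ c ≤
      h ^ n * (x ^ (red n a b c).1 * y ^ (red n a b c).2.1 * z ^ (red n a b c).2.2) := by
  have hh : 0 ≤ h := hx.trans gx
  induction n with
  | zero =>
    intro a b c _
    rw [pow_zero, one_mul]
    exact le_rfl
  | succ n ih =>
    intro a b c hn
    have e : red (n + 1) a b c = cond (and (Nat.ble b a) (Nat.ble c a))
        (force a.pred fun a' => red n a' b c)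
        (cond (Nat.ble c b) (force b.pred fun b' => red n a b' c)
          (force c.pred fun c' => red n a b c')) := rfl
    rw [e, pow_succ' h, mul_assoc h]
    simp only [force_eq]
    cases h1 : and (Nat.ble b a) (Nat.ble c a)
    · cases h2 : Nat.ble c b
      · rw [cond_false, cond_false]
        have h3 : ¬ c ≤ b := fun h => by simp [Nat.ble_eq_true_of_le h] at h2
        obtain ⟨c, rfl⟩ : ∃ d, c = d + 1 := ⟨c - 1, by omega⟩
        refine le_trans ?_ (mul_le_mul_of_nonneg_left (ih a b c (by omega)) hh)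
        rw [pow_succ' z, mul_left_comm]
        exact mul_le_mul_of_nonneg_right gz (by positivity)
      · rw [cond_false, cond_true]
        have h3 : c ≤ b := Nat.le_of_ble_eq_true h2
        have h4 : ¬ (b ≤ a ∧ c ≤ a) := fun h => by
          simp [Nat.ble_eq_true_of_le h.1, Nat.ble_eq_true_of_le h.2] at h1
        obtain ⟨b, rfl⟩ : ∃ d, b = d + 1 := ⟨b - 1, by omega⟩
        refine le_trans ?_ (mul_le_mul_of_nonneg_left (ih a b c (by omega)) hh)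
        rw [pow_succ' y, mul_left_comm, mul_assoc y]
        exact mul_le_mul_of_nonneg_right gy (by positivity)
    · rw [cond_true]
      simp only [Bool.and_eq_true, Nat.ble_eq] at h1
      obtain ⟨a, rfl⟩ : ∃ d, a = d + 1 := ⟨a - 1, by omega⟩
      refine le_trans ?_ (mul_le_mul_of_nonneg_left (ih a b c (by omega)) hh)
      rw [pow_succ' x, mul_assoc x, mul_assoc x]
      exact mul_le_mul_of_nonneg_right gx (by positivity)

theorem Loc_dom {k0 j D : ℕ} {x y z : ℝ} (hx : 0 ≤ x) (hy : 0 ≤ y) (hz : 0 ≤ z) (gx : x ≤ 1 / 2 ^ j)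
    (gy : y ≤ 1 / 2 ^ j) (gz : z ≤ 1 / 2 ^ j) (p : Poly)
    (h0 : ∀ m ∈ p, k0 ≤ deg m ∨ m.2.2.2 = 0) (hD : ∀ m ∈ p, deg m ≤ k0 + D) :
    (dom k0 j D p).ev x y z ≤ 2 ^ (j * D) * p.ev x y z := by
  induction p with
  | nil =>
    rw [Poly.ev_nil, mul_zero]
    exact le_rfl
  | cons m l ih =>
    have ih' := ih (fun a ha => h0 a (List.mem_cons_of_mem _ ha))
      fun a ha => hD a (List.mem_cons_of_mem _ ha)
    have h1 := h0 m List.mem_cons_self
    have h2 := hD m List.mem_cons_self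
    obtain ⟨a, b, c, n⟩ := m
    have e : dom k0 j D ((a, b, c, n) :: l) = cond (Nat.ble (a + (b + c)) k0)
        (cond (Nat.beq (a + (b + c)) k0)
          ((a, b, c, n * ((2 ^ (j * D) : ℕ) : ℤ)) :: dom k0 j D l) (dom k0 j D l))
        (Int.rec (fun _ => dom k0 j D l) (fun q =>
          ((red (a + (b + c) - k0) a b c).1, (red (a + (b + c) - k0) a b c).2.1,
            (red (a + (b + c) - k0) a b c).2.2,
            Int.negSucc q * ((2 ^ (j * (D - (a + (b + c) - k0))) : ℕ) : ℤ)) :: dom k0 j D l) n) := rfl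
    change k0 ≤ a + (b + c) ∨ n = 0 at h1
    change a + (b + c) ≤ k0 + D at h2
    rw [e, Poly.ev_cons, mul_add]
    dsimp only
    cases h3 : Nat.ble (a + (b + c)) k0
    · have h4 : ¬ a + (b + c) ≤ k0 := fun h => by simp [Nat.ble_eq_true_of_le h] at h3
      rw [cond_false]
      cases n with
      | ofNat q =>
        have : (0 : ℝ) ≤ 2 ^ (j * D) * (((Int.ofNat q : ℤ) : ℝ) * x ^ a * y ^ b * z ^ c) := by
          have : (0 : ℝ) ≤ ((Int.ofNat q : ℤ) : ℝ) := Int.cast_nonneg (Int.natCast_nonneg q)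
          positivity
        change (dom k0 j D l).ev x y z ≤ _
        linarith
      | negSucc q =>
        change Poly.ev (_ :: dom k0 j D l) x y z ≤ _
        rw [Poly.ev_cons]
        dsimp only
        refine add_le_add ?_ ih'
        have h5 := Loc_red hx hy hz gx gy gz (a + (b + c) - k0) a b c (by omega)
        generalize red (a + (b + c) - k0) a b c = r at h5 ⊢
        obtain ⟨u, hu⟩ : ∃ u, D = (a + (b + c) - k0) + u := ⟨D - (a + (b + c) - k0), by omega⟩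
        generalize a + (b + c) - k0 = v at h5 hu ⊢
        subst hu
        rw [Nat.add_sub_cancel_left]
        have hq : ((Int.negSucc q : ℤ) : ℝ) ≤ 0 := Int.cast_nonpos.2 (Int.negSucc_lt_zero q).le
        rw [Int.cast_mul]
        generalize ((Int.negSucc q : ℤ) : ℝ) = N at hq ⊢
        have h6 := mul_le_mul_of_nonpos_left (mul_le_mul_of_nonneg_left h5
          (show (0 : ℝ) ≤ 2 ^ (j * (v + u)) by positivity)) hq
        have e2 : (2 : ℝ) ^ (j * (v + u)) * (1 / 2 ^ j) ^ v = 2 ^ (j * u) := by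
          rw [mul_add, pow_add, one_div, inv_pow, ← pow_mul]
          field_simp
        rw [← mul_assoc (2 ^ (j * (v + u)) : ℝ) ((1 / 2 ^ j) ^ v), e2] at h6
        push_cast
        linarith
    · rw [cond_true]
      have h4 : a + (b + c) ≤ k0 := Nat.le_of_ble_eq_true h3
      cases h5 : Nat.beq (a + (b + c)) k0
      · have h6 : a + (b + c) ≠ k0 := Nat.ne_of_beq_eq_false h5
        obtain rfl : n = 0 := h1.resolve_left (by omega)
        rw [cond_false]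
        simpa using ih'
      · rw [cond_true, Poly.ev_cons]
        dsimp only
        push_cast
        linarith

theorem Loc_negSos (sos : List (ℕ × Poly)) (x y z : ℝ) : (negSos sos).ev x y z ≤ 0 := by
  induction sos with
  | nil => exact le_rfl
  | cons s l ih =>
    have e : negSos (s :: l) =
        Poly.mul [(0, 0, 0, -(s.1 : ℤ))] (Poly.mul s.2 s.2) ++ negSos l := rfl
    rw [e, Poly.ev_append, Poly.ev_mul, Poly.ev_mul, Poly.ev_cons, Poly.ev_nil]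
    have := mul_nonneg (Nat.cast_nonneg (α := ℝ) s.1) (mul_self_nonneg (s.2.ev x y z))
    simp only [Int.cast_neg, Int.cast_natCast, pow_zero, mul_one, add_zero]
    linarith

theorem Loc_pos {x y z : ℝ} (hx : 0 ≤ x) (hy : 0 ≤ y) (hz : 0 ≤ z) (p : Poly)
    (h0 : ∀ m ∈ p, 0 ≤ m.2.2.2) : 0 ≤ p.ev x y z ∧
      ∀ i j k, hasPos i j k p = true → x ^ i * y ^ j * z ^ k ≤ p.ev x y z := by
  induction p with
  | nil => exact ⟨le_rfl, fun i j k h => absurd h Bool.false_ne_true⟩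
  | cons m l ih =>
    obtain ⟨h1, h2⟩ := ih fun a ha => h0 a (List.mem_cons_of_mem _ ha)
    have h3 : (0 : ℝ) ≤ (m.2.2.2 : ℝ) := Int.cast_nonneg (h0 m List.mem_cons_self)
    have h4 : (0 : ℝ) ≤ (m.2.2.2 : ℝ) * x ^ m.1 * y ^ m.2.1 * z ^ m.2.2.1 := by positivity
    rw [Poly.ev_cons]
    refine ⟨by linarith, fun i j k h => ?_⟩
    have e : hasPos i j k (m :: l) = or (and (and (Nat.beq m.1 i) (and (Nat.beq m.2.1 j)
        (Nat.beq m.2.2.1 k))) (decide (0 < m.2.2.2))) (hasPos i j k l) := rfl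
    rw [e] at h
    simp only [Bool.or_eq_true, Bool.and_eq_true, Nat.beq_eq, decide_eq_true_eq] at h
    rcases h with ⟨⟨rfl, rfl, rfl⟩, h5⟩ | h
    · have h6 : (1 : ℝ) ≤ (m.2.2.2 : ℝ) := by exact_mod_cast h5
      have h7 := mul_le_mul_of_nonneg_right h6
        (show 0 ≤ x ^ m.1 * y ^ m.2.1 * z ^ m.2.2.1 by positivity)
      linarith
    · linarith [h2 i j k h]

theorem Loc_mx {x y z : ℝ} (hx : 0 ≤ x) (hy : 0 ≤ y) (hz : 0 ≤ z) {k0 : ℕ} (hk : 1 ≤ k0) {p : Poly}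
    (h0 : ∀ m ∈ p, 0 ≤ m.2.2.2) {d3 : Bool} (h1 : hasPos k0 0 0 p = true)
    (h2 : hasPos 0 k0 0 p = true) (h3 : d3 = false ∨ hasPos 0 0 k0 p = true) :
    mx d3 x y z ^ k0 ≤ p.ev x y z := by
  obtain ⟨a0, a⟩ := Loc_pos hx hy hz p h0
  have b1 := a _ _ _ h1
  have b2 := a _ _ _ h2
  have b3 : (cond d3 z 0) ^ k0 ≤ p.ev x y z := by
    cases d3
    · exact (le_of_eq (zero_pow (by omega))).trans a0
    · simpa only [pow_zero, one_mul, cond_true] using a _ _ _ (h3.resolve_left (by simp))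
  simp only [pow_zero, one_mul, mul_one] at b1 b2
  unfold mx
  rcases max_choice x (max y (cond d3 z 0)) with e | e <;> rw [e]
  · exact b1
  · rcases max_choice y (cond d3 z 0) with e | e <;> rw [e]
    · exact b2
    · exact b3

theorem Loc_remC (I : Inst) {k0 m j : ℕ} (sc w : ℕ) (hk : k0 ≤ m + 1) {y : ℝ} (hy : 0 ≤ y)
    (gy : y ≤ 1 / 2 ^ j) :
    (remC I k0 m j sc w : ℝ) * y ^ k0 ≤
      -(4 * sc * ((I.NA : ℝ) + I.NBL) * (m.factorial : ℝ) ^ 3 * 2 ^ (j * (3 * (m + 1) - k0)) *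
        ((w * y) ^ (m + 1) / ((m + 1).factorial : ℝ))) := by
  have hY : 0 < (m + 1).factorial * 2 ^ (j * (m + 1 - k0)) := by positivity
  have h1 := (Nat.lt_mul_div_succ (4 * sc * (I.NA + I.NBL) * w ^ (m + 1) * m.factorial ^ 3 *
    2 ^ (j * (3 * (m + 1) - k0))) hY).le
  have e : remC I k0 m j sc w = -(((4 * sc * (I.NA + I.NBL) * w ^ (m + 1) * m.factorial ^ 3 *
      2 ^ (j * (3 * (m + 1) - k0))) / ((m + 1).factorial * 2 ^ (j * (m + 1 - k0))) + 1 : ℕ) : ℤ) :=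
    rfl
  rw [e]
  generalize (4 * sc * (I.NA + I.NBL) * w ^ (m + 1) * m.factorial ^ 3 *
      2 ^ (j * (3 * (m + 1) - k0))) / ((m + 1).factorial * 2 ^ (j * (m + 1 - k0))) + 1 = q at h1 ⊢
  have h2 := (Nat.cast_le (α := ℝ)).2 h1
  push_cast at h2 ⊢
  have hf : (0 : ℝ) < ((m + 1).factorial : ℝ) := by positivity
  have h3 : y ^ (m + 1 - k0) * 2 ^ (j * (m + 1 - k0)) ≤ 1 := by
    rw [pow_mul, ← mul_pow]
    exact pow_le_one₀ (by positivity) ((le_div_iff₀ (by positivity)).1 gy)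
  have e2 : y ^ (m + 1) = y ^ k0 * y ^ (m + 1 - k0) := by rw [← pow_add, Nat.add_sub_cancel' hk]
  rw [neg_mul, neg_le_neg_iff, mul_pow, e2, ← mul_div_assoc, div_le_iff₀ hf]
  have h4 := mul_le_mul_of_nonneg_right h2 (show 0 ≤ y ^ k0 * y ^ (m + 1 - k0) by positivity)
  have h5 := mul_le_mul_of_nonneg_left h3
    (show 0 ≤ (q : ℝ) * y ^ k0 * ((m + 1).factorial : ℝ) by positivity)
  linarith

theorem Loc_rho {m j w W : ℕ} (hw : w ≤ W) (h : W ^ (m + 1) ≤ (m + 1).factorial * 2 ^ (j * (m + 1)))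
    {y : ℝ} (hy : 0 ≤ y) (gy : y ≤ 1 / 2 ^ j) :
    0 ≤ ((w : ℝ) * y) ^ (m + 1) / ((m + 1).factorial : ℝ) ∧
      ((w : ℝ) * y) ^ (m + 1) / ((m + 1).factorial : ℝ) ≤ 1 := by
  refine ⟨by positivity, ?_⟩
  have h1 := (Nat.cast_le (α := ℝ)).2 ((Nat.pow_le_pow_left hw _).trans h)
  push_cast at h1
  have h3 : 2 ^ (j * (m + 1)) * y ^ (m + 1) ≤ 1 := by
    rw [pow_mul, ← mul_pow]
    exact pow_le_one₀ (by positivity) ((le_div_iff₀' (by positivity)).1 gy)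
  rw [div_le_one (by positivity), mul_pow]
  refine (mul_le_mul_of_nonneg_right h1 (by positivity)).trans ?_
  rw [mul_assoc]
  exact mul_le_of_le_one_right (by positivity) h3

theorem Loc_lowZero {k0 : ℕ} {p : Poly} (h : lowZero k0 p = true) :
    ∀ m ∈ p, k0 ≤ deg m ∨ m.2.2.2 = 0 := by
  simpa only [lowZero, allL_eq, List.all_eq_true, Bool.or_eq_true, Nat.ble_eq, Nat.beq_eq,
    Int.natAbs_eq_zero] using h

theorem locCheck_sound {I : Inst} {d3 : Bool} {k0 m j W sc : ℕ} {sos : List (ℕ × Poly)}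
    (h : locCheck I d3 k0 m j W sc sos = true) : LocHolds I d3 k0 j := by
  simp only [locCheck, Bool.and_eq_true, Bool.or_eq_true, Nat.ble_eq, Nat.beq_eq, allL_eq,
    List.all_eq_true, decide_eq_true_eq, Bool.not_eq_true'] at h
  obtain ⟨⟨hok, hsc, hk1, hk⟩, ⟨hd3, hw⟩, ⟨hlow, hdeg⟩, hnn, hp1, hp2, hp3⟩ := h
  have hsc' : (0 : ℝ) < sc := by exact_mod_cast hsc
  have hS : (0 : ℝ) < sc * (m.factorial : ℝ) ^ 3 * 2 ^ (j * (3 * (m + 1) - k0)) := by positivity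
  refine ⟨1 / (sc * (m.factorial : ℝ) ^ 3 * 2 ^ (j * (3 * (m + 1) - k0))), by positivity,
    fun y1 y2 y3 h1 h2 h3 g1 g2 g3 => ?_⟩
  have hj : (1 : ℝ) / 2 ^ j ≤ 1 := (div_le_one (by positivity)).2 (one_le_pow₀ (by norm_num))
  have a1 := (abs_le.1 (coefs_spec hok h1 h2 h3 (g1.trans hj) (g2.trans hj) (g3.trans hj))).1
  have a2 := Loc_dom h1 h2 h3 g1 g2 g3 _ (Loc_lowZero hlow) (D := 3 * (m + 1) - k0)
    fun x hx => (hdeg x hx).trans (by omega)
  rw [Poly.ev_append, Poly.ev_mul, Poly.ev_cons, Poly.ev_nil] at a2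
  have a3 := Loc_negSos sos y1 y2 y3
  have r1 := Loc_remC I sc I.w1 hk h1 g1
  have r2 := Loc_remC I sc I.w2 hk h2 g2
  have r3 := Loc_remC I sc I.w3 hk h3 g3
  obtain ⟨p1, q1⟩ := Loc_rho (w := I.w1) (by omega) hw h1 g1
  obtain ⟨p2, q2⟩ := Loc_rho (w := I.w2) (by omega) hw h2 g2
  obtain ⟨p3, q3⟩ := Loc_rho (w := I.w3) (by omega) hw h3 g3
  have r3' : Poly.ev (cond d3 [(0, 0, k0, remC I k0 m j sc I.w3)] []) y1 y2 y3 ≤
      -(4 * sc * ((I.NA : ℝ) + I.NBL) * (m.factorial : ℝ) ^ 3 * 2 ^ (j * (3 * (m + 1) - k0)) *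
        ((I.w3 * y3) ^ (m + 1) / ((m + 1).factorial : ℝ))) := by
    cases d3
    · simp [Poly.ev_nil, hd3.resolve_left Bool.false_ne_true]
    · simpa [Poly.ev_cons, Poly.ev_nil] using r3
  have b4 := Loc_mx h1 h2 h3 hk1 hnn hp1 hp2 hp3
  rw [Poly.ev_merge, Poly.ev_append, Poly.ev_cons, Poly.ev_cons] at b4
  simp only [pow_zero, mul_one, add_zero, Int.cast_natCast] at a2 b4
  rw [one_div, inv_mul_le_iff₀ hS]
  generalize (I.w1 * y1) ^ (m + 1) / ((m + 1).factorial : ℝ) = ρ1 at *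
  generalize (I.w2 * y2) ^ (m + 1) / ((m + 1).factorial : ℝ) = ρ2 at *
  generalize (I.w3 * y3) ^ (m + 1) / ((m + 1).factorial : ℝ) = ρ3 at *
  have c1 : (1 + ρ1) * (1 + ρ2) * (1 + ρ3) - 1 ≤ 4 * (ρ1 + ρ2 + ρ3) := by
    have := mul_le_of_le_one_right p1 q2
    have := mul_le_of_le_one_right p2 q3
    have := mul_le_of_le_one_right p3 q1
    have := mul_le_of_le_one_right (mul_nonneg p1 p2) q3
    linarith
  have c2 := mul_le_mul_of_nonneg_left c1 (show (0 : ℝ) ≤ I.NA + I.NBL * 1 by positivity)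
  have c3 := mul_le_mul_of_nonneg_left (show (coefs I m W).ev y1 y2 y3 / (m.factorial : ℝ) ^ 3 -
    (I.NA + I.NBL) * (4 * (ρ1 + ρ2 + ρ3)) ≤ I.val y1 y2 y3 by linarith) hS.le
  have e : sc * (m.factorial : ℝ) ^ 3 * 2 ^ (j * (3 * (m + 1) - k0)) *
      ((coefs I m W).ev y1 y2 y3 / (m.factorial : ℝ) ^ 3) =
      2 ^ (j * (3 * (m + 1) - k0)) * (sc * (coefs I m W).ev y1 y2 y3) := by
    field_simp
  have c4 := mul_nonpos_of_nonneg_of_nonpos
    (show (0 : ℝ) ≤ 2 ^ (j * (3 * (m + 1) - k0)) by positivity) a3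
  rw [mul_sub, e] at c3
  linarith


/-- `f = O(max y ^ k)` on the cube `[0, Y]³` -/
def LocO (Y : ℝ) (k : ℕ) (f : ℝ → ℝ → ℝ → ℝ) : Prop :=
  ∃ C : ℝ, 0 ≤ C ∧ ∀ y1 y2 y3 : ℝ, 0 ≤ y1 → 0 ≤ y2 → 0 ≤ y3 → y1 ≤ Y → y2 ≤ Y → y3 ≤ Y →
    |f y1 y2 y3| ≤ C * max y1 (max y2 y3) ^ k

theorem LocO.add {Y : ℝ} {k : ℕ} {f g : ℝ → ℝ → ℝ → ℝ} (hf : LocO Y k f) (hg : LocO Y k g) :
    LocO Y k fun x y z => f x y z + g x y z := by
  obtain ⟨C, hC, h⟩ := hf
  obtain ⟨C', hC', h'⟩ := hg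
  refine ⟨C + C', add_nonneg hC hC', fun x y z a b c d e i => (abs_add_le _ _).trans ?_⟩
  linarith [h x y z a b c d e i, h' x y z a b c d e i]

theorem LocO.mono (Y : ℝ) {k : ℕ} (n : ℝ) (a b c : ℕ) (h : k ≤ a + (b + c)) :
    LocO Y k fun x y z => n * x ^ a * y ^ b * z ^ c := by
  refine ⟨|n| * |Y| ^ (a + (b + c) - k), by positivity, fun x y z hx hy hz gx gy gz => ?_⟩
  have h1 : x ≤ max x (max y z) := le_max_left _ _
  have h2 : y ≤ max x (max y z) := (le_max_left _ _).trans (le_max_right _ _)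
  have h3 : z ≤ max x (max y z) := (le_max_right _ _).trans (le_max_right _ _)
  have h4 : max x (max y z) ≤ |Y| := (max_le gx (max_le gy gz)).trans (le_abs_self Y)
  generalize max x (max y z) = M at h1 h2 h3 h4
  have h0 : 0 ≤ M := hx.trans h1
  have e : M ^ a * (M ^ b * M ^ c) = M ^ (a + (b + c) - k) * M ^ k := by
    rw [← pow_add, ← pow_add, ← pow_add, Nat.sub_add_cancel h]
  dsimp only
  rw [mul_assoc n, mul_assoc n, mul_assoc (x ^ a), abs_mul,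
    abs_of_nonneg (show 0 ≤ x ^ a * (y ^ b * z ^ c) by positivity), mul_assoc |n|]
  refine mul_le_mul_of_nonneg_left (le_trans (b := M ^ a * (M ^ b * M ^ c)) ?_ ?_) (abs_nonneg n)
  · gcongr
  · rw [e]
    gcongr

theorem LocO.poly (Y : ℝ) {k : ℕ} (s : ℝ) (p : Poly) (h0 : ∀ m ∈ p, k ≤ deg m ∨ m.2.2.2 = 0) :
    LocO Y k fun x y z => p.ev x y z / s := by
  induction p with
  | nil => exact ⟨0, le_rfl, fun x y z _ _ _ _ _ _ => by simp [Poly.ev_nil]⟩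
  | cons m l ih =>
    have ih' := ih fun a ha => h0 a (List.mem_cons_of_mem _ ha)
    rcases h0 m List.mem_cons_self with h | h
    · convert (LocO.mono Y (m.2.2.2 / s) m.1 m.2.1 m.2.2.1 h).add ih' using 4
      rw [Poly.ev_cons]
      ring
    · simpa only [Poly.ev_cons, h, Int.cast_zero, zero_mul, zero_add] using ih'

theorem vanCheck_sound {I : Inst} {k0 W : ℕ} (h : vanCheck I k0 W = true) (Y : ℝ) :
    ∃ C : ℝ, 0 ≤ C ∧ ∀ y1 y2 y3 : ℝ, 0 ≤ y1 → 0 ≤ y2 → 0 ≤ y3 → y1 ≤ Y → y2 ≤ Y → y3 ≤ Y →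
      |I.val y1 y2 y3| ≤ C * max y1 (max y2 y3) ^ k0 := by
  simp only [vanCheck, Bool.and_eq_true] at h
  obtain ⟨hok, hlow⟩ := h
  obtain ⟨C, hC, h1⟩ := LocO.poly Y ((k0.factorial : ℝ) ^ 3) _ (Loc_lowZero hlow)
  set N : ℝ := I.NA + I.NBL * Y with hN
  set κ1 : ℝ := I.w1 ^ (k0 + 1) / ((k0 + 1).factorial : ℝ) with hκ1
  set κ2 : ℝ := I.w2 ^ (k0 + 1) / ((k0 + 1).factorial : ℝ) with hκ2
  set κ3 : ℝ := I.w3 ^ (k0 + 1) / ((k0 + 1).factorial : ℝ) with hκ3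
  obtain ⟨C', hC', h2⟩ := (((((((LocO.mono Y (N * κ1) (k0 + 1) 0 0 (k := k0) (by omega)).add
    (LocO.mono Y (N * κ2) 0 (k0 + 1) 0 (by omega))).add
    (LocO.mono Y (N * κ3) 0 0 (k0 + 1) (by omega))).add
    (LocO.mono Y (N * κ1 * κ2) (k0 + 1) (k0 + 1) 0 (by omega))).add
    (LocO.mono Y (N * κ1 * κ3) (k0 + 1) 0 (k0 + 1) (by omega))).add
    (LocO.mono Y (N * κ2 * κ3) 0 (k0 + 1) (k0 + 1) (by omega))).add
    (LocO.mono Y (N * κ1 * κ2 * κ3) (k0 + 1) (k0 + 1) (k0 + 1) (by omega)))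
  refine ⟨C + C', add_nonneg hC hC', fun x y z a b c d e i => ?_⟩
  have k1 := h1 x y z a b c d e i
  have k2 := (le_abs_self _).trans (h2 x y z a b c d e i)
  have k3 := coefs_spec hok a b c d e i
  have k4 := abs_sub_abs_le_abs_sub (I.val x y z)
    ((coefs I k0 W).ev x y z / (k0.factorial : ℝ) ^ 3)
  simp only [mul_pow, mul_div_right_comm, ← hN, ← hκ1, ← hκ2, ← hκ3] at k3
  simp only [pow_zero, mul_one] at k2
  linarith


end Crest.Agent.R163.E2
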