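import Mathlib

/-!
# R163/E2/Num: fixed-point arithmetic for kernel computations (definitions)

All numbers are scaled by `2^96`.  `xi0 ≈ exp (-2^-16)`, `ze0 ≈ exp (i 2^-16)`.
-/

set_option autoImplicit false

namespace Crest.Agent.R163.E2

/-- evaluate `x` to a literal before continuing (kernel call-by-value) -/
noncomputable def force {α : Type} (x : ℕ) (k : ℕ → α) : α :=
  Nat.rec (k 0) (fun n _ => k n.succ) x

@[simp] theorem force_eq {α : Type} (x : ℕ) (k : ℕ → α) : force x k = k x := by
  cases x <;> rfl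

noncomputable def forceZ {α : Type} (z : ℤ) (k : ℤ → α) : α :=
  Int.rec (fun n => force n fun m => k (Int.ofNat m)) (fun n => force n fun m => k (Int.negSucc m)) z

@[simp] theorem forceZ_eq {α : Type} (z : ℤ) (k : ℤ → α) : forceZ z k = k z := by
  cases z <;> simp [forceZ]

/-- Gaussian integers -/
structure Cx where
  re : ℤ
  im : ℤ
deriving DecidableEq

namespace Cx
noncomputable def toC (z : Cx) : ℂ := (z.re : ℂ) + (z.im : ℂ) * Complex.I
def add (a b : Cx) : Cx := ⟨Int.add a.re b.re, Int.add a.im b.im⟩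
def mul (a b : Cx) : Cx :=
  ⟨Int.sub (Int.mul a.re b.re) (Int.mul a.im b.im), Int.add (Int.mul a.re b.im) (Int.mul a.im b.re)⟩
def smul (c : ℤ) (a : Cx) : Cx := ⟨Int.mul c a.re, Int.mul c a.im⟩
def shr (a : Cx) (n : ℕ) : Cx := ⟨Int.shiftRight a.re n, Int.shiftRight a.im n⟩
/-- `ℓ¹` norm -/
def n1 (a : Cx) : ℕ := Nat.add a.re.natAbs a.im.natAbs
noncomputable def force {α : Type} (a : Cx) (k : Cx → α) : α :=
  forceZ a.re fun x => forceZ a.im fun y => k ⟨x, y⟩
@[simp] theorem force_eq {α : Type} (a : Cx) (k : Cx → α) : a.force k = k a := by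
  simp [force]
end Cx

def one96 : ℕ := 79228162514264337593543950336
/-- `2^97 - 1` -/
def m97 : ℕ := 158456325028528675187087900671
def xi0 : ℕ := 79226953597668048088906857950
def ze0 : Cx := ⟨79228162505040965556868131499, 1208925819567716678588279⟩

def mulN (a b : ℕ) : ℕ := Nat.shiftRight (Nat.mul a b) 96
def mulC (a b : Cx) : Cx := (a.mul b).shr 96

/-- `[x, x^2, x^4, …]` (`n` entries), passed to a continuation -/
noncomputable def sqN {α : Type} (n : ℕ) : ℕ → (List ℕ → α) → α :=
  Nat.rec (fun _ k => k []) (fun _ ih x k => force (mulN x x) fun y => ih y fun l => k (x :: l)) n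
noncomputable def sqC {α : Type} (n : ℕ) : Cx → (List Cx → α) → α :=
  Nat.rec (fun _ k => k []) (fun _ ih x k => (mulC x x).force fun y => ih y fun l => k (x :: l)) n

/-- `acc * x^n` from the table of repeated squares (needs `n < 2^length`) -/
noncomputable def powN (tab : List ℕ) : ℕ → ℕ → ℕ :=
  List.rec (fun _ acc => acc) (fun b _ ih n acc =>
    Nat.rec acc (fun _ _ => force (Nat.shiftRight n 1) fun n' =>
      force (cond (Nat.beq (Nat.land n 1) 1) (mulN acc b) acc) fun a => ih n' a) n) tab
noncomputable def powC (tab : List Cx) : ℕ → Cx → Cx :=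
  List.rec (fun _ acc => acc) (fun b _ ih n acc =>
    Nat.rec acc (fun _ _ => force (Nat.shiftRight n 1) fun n' =>
      cond (Nat.beq (Nat.land n 1) 1) ((mulC acc b).force fun a => ih n' a) (ih n' acc)) n) tab

/-- packed table `∑_{k ≤ cnt} pw x^k 2^(97 k)` -/
noncomputable def mkTab (x cnt : ℕ) : ℕ → ℕ :=
  Nat.rec (fun pw => pw)
    (fun _ ih pw => force (mulN pw x) fun pw' => Nat.add pw (Nat.shiftLeft (ih pw') 97)) cnt

def look (tab s : ℕ) : ℕ := Nat.land (Nat.shiftRight tab s) m97

/-- table of `exp (-a n / 2^16)`, `a ≤ amax`, in lane `a + 1` (lane `0` is junk: it only makes the low bits,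
hence the kernel's hash of the literal, depend on `n`) -/
noncomputable def expTab (eT : List ℕ) (amax n : ℕ) : ℕ :=
  force (powN eT n one96) fun x => Nat.add x (Nat.shiftLeft (mkTab x amax one96) 97)

/-- bit position of the table entry `a` -/
def sh (a : ℕ) : ℕ := Nat.mul 97 (Nat.succ a)

/-- `exp (-(a1 n1 + a2 n2 + a3 n3) / 2^16)` scaled by `2^64` (`s i = sh (a i)`), error at most `2` -/
def rOf (t1 t2 t3 s1 s2 s3 : ℕ) : ℕ :=
  Nat.shiftRight (Nat.mul (mulN (look t1 s1) (look t2 s2)) (look t3 s3)) 128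

/-- sum of `f` over a list -/
noncomputable def sumL {α : Type} (f : α → ℕ) (l : List α) : ℕ :=
  List.rec 0 (fun t _ ih => Nat.add (f t) ih) l
noncomputable def sumZ {α : Type} (f : α → ℤ) (l : List α) : ℤ :=
  List.rec 0 (fun t _ ih => Int.add (f t) ih) l
noncomputable def allL {α : Type} (f : α → Bool) (l : List α) : Bool :=
  List.rec true (fun t _ ih => and (f t) ih) l

@[simp] theorem sumL_eq {α : Type} (f : α → ℕ) (l : List α) : sumL f l = (l.map f).sum := by
  induction l with
  | nil => rfl
  | cons a l ih => simp only [List.map_cons, List.sum_cons, ← ih]; rfl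
@[simp] theorem sumZ_eq {α : Type} (f : α → ℤ) (l : List α) : sumZ f l = (l.map f).sum := by
  induction l with
  | nil => rfl
  | cons a l ih => simp only [List.map_cons, List.sum_cons, ← ih]; rfl
@[simp] theorem allL_eq {α : Type} (f : α → Bool) (l : List α) : allL f l = l.all f := by
  induction l with
  | nil => rfl
  | cons a l ih => simp only [List.all_cons, ← ih]; rfl

end Crest.Agent.R163.E2
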