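import Mathlib

/-!
# R163/E2/Taylor: tensor Taylor expansion of `exp`

Recipe for `norm_exp_sub_tay`: induction on `m` for the function `t ↦ exp (t z) - tay m (t z)` on `[0,1]`
(its derivative is `z (exp (t z) - tay (m-1) (t z))`), e.g. with `intervalIntegral.integral_eq_sub_of_hasDerivAt`
and `norm_integral_le_integral_norm`, or `image_norm_le_of_norm_deriv_right_le_deriv_boundary`; `‖exp (t z)‖ ≤ E`.
-/

set_option autoImplicit false

namespace Crest.Agent.R163.E2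

noncomputable def tay (m : ℕ) (z : ℂ) : ℂ := ∑ j ∈ Finset.range (m + 1), z ^ j / (j.factorial : ℂ)

theorem taylor_hasDerivAt (m : ℕ) (w : ℂ) :
    HasDerivAt (fun w : ℂ => ∑ j ∈ Finset.range (m + 1), w ^ j / (j.factorial : ℂ))
      (∑ j ∈ Finset.range m, w ^ j / (j.factorial : ℂ)) w := by
  induction m with
  | zero => simpa using hasDerivAt_const w (1 : ℂ)
  | succ m ih =>
    simp only [Finset.sum_range_succ _ (m + 1)]
    rw [Finset.sum_range_succ]
    refine (ih.add ((hasDerivAt_pow (m + 1) w).div_const ((m + 1).factorial : ℂ))).congr_deriv ?_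
    congr 1
    have h1 : ((m : ℂ) + 1) ≠ 0 := by exact_mod_cast Nat.succ_ne_zero m
    have h2 : (m.factorial : ℂ) ≠ 0 := by exact_mod_cast m.factorial_ne_zero
    rw [Nat.factorial_succ]
    push_cast
    field_simp

theorem taylor_bound (z : ℂ) {E : ℝ} (h1 : 1 ≤ E) (h2 : Real.exp z.re ≤ E) (m : ℕ) :
    ∀ t ∈ Set.Icc (0 : ℝ) 1,
      ‖Complex.exp (t * z) - ∑ j ∈ Finset.range m, (t * z) ^ j / (j.factorial : ℂ)‖ ≤
        ‖z‖ ^ m * t ^ m / (m.factorial : ℝ) * E := by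
  induction m with
  | zero =>
    intro t ht
    have h3 : Real.exp (t * z.re) ≤ E := by
      rcases le_total z.re 0 with h | h
      · exact (Real.exp_le_one_iff.2 (mul_nonpos_of_nonneg_of_nonpos ht.1 h)).trans h1
      · exact (Real.exp_le_exp.2 (mul_le_of_le_one_left h ht.2)).trans h2
    simpa [Complex.norm_exp] using h3
  | succ m ih =>
    have hd : ∀ t : ℝ, HasDerivAt (fun t : ℝ => Complex.exp (t * z) -
        ∑ j ∈ Finset.range (m + 1), ((t : ℂ) * z) ^ j / (j.factorial : ℂ))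
        ((Complex.exp (t * z) - ∑ j ∈ Finset.range m, ((t : ℂ) * z) ^ j / (j.factorial : ℂ)) * z)
        t := fun t => by
      have h3 := ((Complex.hasDerivAt_exp (t * z)).sub (taylor_hasDerivAt m (t * z))).comp (t : ℂ)
        (hasDerivAt_mul_const z)
      exact h3.comp_ofReal
    have hB : ∀ t : ℝ, HasDerivAt (fun t : ℝ => ‖z‖ ^ (m + 1) * t ^ (m + 1) /
        ((m + 1).factorial : ℝ) * E) (‖z‖ ^ m * t ^ m / (m.factorial : ℝ) * E * ‖z‖) t := fun t => by
      refine ((((hasDerivAt_pow (m + 1) t).const_mul (‖z‖ ^ (m + 1))).div_const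
        ((m + 1).factorial : ℝ)).mul_const E).congr_deriv ?_
      have h2 : (m.factorial : ℝ) ≠ 0 := by exact_mod_cast m.factorial_ne_zero
      rw [Nat.factorial_succ]
      push_cast
      field_simp
      ring
    refine image_norm_le_of_norm_deriv_right_le_deriv_boundary
      (fun t _ => (hd t).continuousAt.continuousWithinAt) (fun t _ => (hd t).hasDerivWithinAt) ?_ hB
      fun t ht => ?_
    · simp [Finset.sum_range_succ']
    · rw [norm_mul]
      exact mul_le_mul_of_nonneg_right (ih t (Set.Ico_subset_Icc_self ht)) (norm_nonneg _)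

theorem norm_exp_sub_tay (m : ℕ) (z : ℂ) {E : ℝ} (h1 : 1 ≤ E) (h2 : Real.exp z.re ≤ E) :
    ‖Complex.exp z - tay m z‖ ≤ ‖z‖ ^ (m + 1) / ((m + 1).factorial : ℝ) * E := by
  simpa [tay] using taylor_bound z h1 h2 (m + 1) 1 ⟨zero_le_one, le_rfl⟩


theorem norm_tay_le (m : ℕ) (z : ℂ) : ‖tay m z‖ ≤ (1 + ‖z‖) ^ m := by
  induction m with
  | zero => simp [tay]
  | succ m ih =>
    have h0 := norm_nonneg z
    have h1 : ‖z ^ (m + 1) / ((m + 1).factorial : ℂ)‖ ≤ (1 + ‖z‖) ^ m * ‖z‖ := by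
      rw [norm_div, norm_pow, Complex.norm_natCast]
      refine (div_le_self (by positivity) (by exact_mod_cast Nat.factorial_pos _)).trans ?_
      rw [pow_succ]
      gcongr
      linarith
    rw [tay, Finset.sum_range_succ]
    refine (norm_add_le _ _).trans ((add_le_add ih h1).trans (le_of_eq ?_))
    ring


theorem norm_exp_sub_tay3 (m : ℕ) (z1 z2 z3 : ℂ) {E1 E2 E3 r1 r2 r3 : ℝ}
    (a1 : 1 ≤ E1) (a2 : 1 ≤ E2) (a3 : 1 ≤ E3) (b1 : Real.exp z1.re ≤ E1) (b2 : Real.exp z2.re ≤ E2)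
    (b3 : Real.exp z3.re ≤ E3) (c1 : ‖z1‖ ^ (m + 1) / ((m + 1).factorial : ℝ) ≤ r1)
    (c2 : ‖z2‖ ^ (m + 1) / ((m + 1).factorial : ℝ) ≤ r2)
    (c3 : ‖z3‖ ^ (m + 1) / ((m + 1).factorial : ℝ) ≤ r3) :
    ‖Complex.exp (z1 + z2 + z3) - tay m z1 * tay m z2 * tay m z3‖ ≤
      E1 * E2 * E3 * ((1 + r1) * (1 + r2) * (1 + r3) - 1) := by
  have key : ∀ (z : ℂ) {E r : ℝ}, 1 ≤ E → Real.exp z.re ≤ E →
      ‖z‖ ^ (m + 1) / ((m + 1).factorial : ℝ) ≤ r → 0 ≤ r ∧ ‖Complex.exp z‖ ≤ E ∧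
        ‖Complex.exp z - tay m z‖ ≤ r * E ∧ ‖tay m z‖ ≤ (1 + r) * E := by
    intro z E r a b c
    have h1 : ‖Complex.exp z‖ ≤ E := by rwa [Complex.norm_exp]
    have h2 : ‖Complex.exp z - tay m z‖ ≤ r * E :=
      (norm_exp_sub_tay m z a b).trans (mul_le_mul_of_nonneg_right c (by linarith))
    refine ⟨le_trans (by positivity) c, h1, h2, ?_⟩
    have h3 := norm_sub_le (Complex.exp z) (Complex.exp z - tay m z)
    rw [sub_sub_cancel] at h3
    linarith
  obtain ⟨p1, q1, s1, t1⟩ := key z1 a1 b1 c1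
  obtain ⟨p2, q2, s2, t2⟩ := key z2 a2 b2 c2
  obtain ⟨p3, q3, s3, t3⟩ := key z3 a3 b3 c3
  have h : Complex.exp (z1 + z2 + z3) - tay m z1 * tay m z2 * tay m z3 =
      (Complex.exp z1 - tay m z1) * Complex.exp z2 * Complex.exp z3 +
        tay m z1 * (Complex.exp z2 - tay m z2) * Complex.exp z3 +
        tay m z1 * tay m z2 * (Complex.exp z3 - tay m z3) := by
    rw [Complex.exp_add, Complex.exp_add]; ring
  rw [h]
  refine norm_add₃_le.trans ?_
  simp only [norm_mul]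
  calc _ ≤ r1 * E1 * E2 * E3 + (1 + r1) * E1 * (r2 * E2) * E3 +
        (1 + r1) * E1 * ((1 + r2) * E2) * (r3 * E3) := by gcongr
    _ = _ := by ring


end Crest.Agent.R163.E2
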