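import Crest.Agent.R163.E2.Defs
import Crest.Agent.R163.E2.Apx
import Crest.Agent.R163.E2.Taylor

/-!
# R163/E2/Pack: Kronecker packing and the unfolding of `mkPre`

`ev3 b F x y z = ∑_{i,j,k<b} F i j k x^i y^j z^k`.  A packed integer is `ev3 b F 2^W 2^(bW) 2^(b²W)`, i.e.
`∑_{s<b³} F (s % b) (s / b % b) (s / b²) 2^(W s)`; adding `h * ones W (b³)` makes all digits `F + h ∈ [0, 2^W)`.
`cf m ω j = ω^j m!/j!` for `j ≤ m` and `0` otherwise; `tcf` is the coefficient tensor of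
`(A + B (λ·y)) ∏ m! tay m (ω_i y_i)`.
-/

set_option autoImplicit false

namespace Crest.Agent.R163.E2

open Finset

def ev3 {R : Type*} [CommRing R] (b : ℕ) (F : ℕ → ℕ → ℕ → R) (x y z : R) : R :=
  ∑ i ∈ range b, ∑ j ∈ range b, ∑ k ∈ range b, F i j k * x ^ i * y ^ j * z ^ k

noncomputable def cf (m : ℕ) (ω : ℂ) (j : ℕ) : ℂ :=
  if j ≤ m then ω ^ j * ((m.factorial / j.factorial : ℕ) : ℂ) else 0

/-- shifted coefficient (`0` at index `0`) -/
noncomputable def cf' (m : ℕ) (ω : ℂ) (j : ℕ) : ℂ := if j = 0 then 0 else cf m ω (j - 1)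

noncomputable def tcf (m : ℕ) (ω1 ω2 ω3 A B l1 l2 l3 : ℂ) (i j k : ℕ) : ℂ :=
  A * (cf m ω1 i * cf m ω2 j * cf m ω3 k) + B * (l1 * (cf' m ω1 i * cf m ω2 j * cf m ω3 k) +
    l2 * (cf m ω1 i * cf' m ω2 j * cf m ω3 k) + l3 * (cf m ω1 i * cf m ω2 j * cf' m ω3 k))

theorem sum_cf (m : ℕ) (ω x : ℂ) :
    ∑ j ∈ range (m + 2), cf m ω j * x ^ j = (m.factorial : ℂ) * tay m (ω * x) := by
  rw [sum_range_succ, tay, mul_sum]
  have h0 : cf m ω (m + 1) = 0 := by simp [cf]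
  rw [h0, zero_mul, add_zero]
  refine sum_congr rfl fun j hj => ?_
  have hj' : j ≤ m := Nat.lt_succ_iff.mp (mem_range.mp hj)
  have hne : (j.factorial : ℂ) ≠ 0 := Nat.cast_ne_zero.mpr (Nat.factorial_ne_zero j)
  rw [cf, if_pos hj', Nat.cast_div (Nat.factorial_dvd_factorial hj') hne, mul_pow]
  field_simp

theorem sum_cf' (m : ℕ) (ω x : ℂ) :
    ∑ j ∈ range (m + 2), cf' m ω j * x ^ j = x * ((m.factorial : ℂ) * tay m (ω * x)) := by
  rw [← sum_cf, sum_range_succ' (fun j => cf' m ω j * x ^ j), sum_range_succ (fun j => cf m ω j * x ^ j)]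
  have h0 : cf m ω (m + 1) = 0 := by simp [cf]
  have h1 : cf' m ω 0 = 0 := by simp [cf']
  rw [h0, h1, zero_mul, zero_mul, add_zero, add_zero, mul_sum]
  refine sum_congr rfl fun j _ => ?_
  have : cf' m ω (j + 1) = cf m ω j := by simp [cf']
  rw [this]; ring

theorem ev3_prod {R : Type*} [CommRing R] (b : ℕ) (p q r : ℕ → R) (x y z : R) :
    ev3 b (fun i j k => p i * q j * r k) x y z =
      (∑ i ∈ range b, p i * x ^ i) * (∑ j ∈ range b, q j * y ^ j) * (∑ k ∈ range b, r k * z ^ k) := by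
  rw [sum_mul_sum, sum_mul, ev3]
  refine sum_congr rfl fun i _ => ?_
  rw [sum_mul]
  refine sum_congr rfl fun j _ => ?_
  rw [mul_sum]
  refine sum_congr rfl fun k _ => ?_
  ring



theorem ev3_tcf (m : ℕ) (ω1 ω2 ω3 A B l1 l2 l3 x y z : ℂ) :
    ev3 (m + 2) (tcf m ω1 ω2 ω3 A B l1 l2 l3) x y z = (A + B * (l1 * x + l2 * y + l3 * z)) *
      ((m.factorial : ℂ) ^ 3 * (tay m (ω1 * x) * tay m (ω2 * y) * tay m (ω3 * z))) := by
  have h1 := sum_cf m ω1 x
  have h2 := sum_cf m ω2 y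
  have h3 := sum_cf m ω3 z
  have g1 := sum_cf' m ω1 x
  have g2 := sum_cf' m ω2 y
  have g3 := sum_cf' m ω3 z
  have key : ev3 (m + 2) (tcf m ω1 ω2 ω3 A B l1 l2 l3) x y z =
      A * ev3 (m + 2) (fun i j k => cf m ω1 i * cf m ω2 j * cf m ω3 k) x y z +
      B * (l1 * ev3 (m + 2) (fun i j k => cf' m ω1 i * cf m ω2 j * cf m ω3 k) x y z +
        l2 * ev3 (m + 2) (fun i j k => cf m ω1 i * cf' m ω2 j * cf m ω3 k) x y z +
        l3 * ev3 (m + 2) (fun i j k => cf m ω1 i * cf m ω2 j * cf' m ω3 k) x y z) := by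
    simp only [ev3, mul_sum, ← sum_add_distrib]
    refine sum_congr rfl fun i _ => sum_congr rfl fun j _ => sum_congr rfl fun k _ => ?_
    simp only [tcf]
    ring
  rw [key, ev3_prod, ev3_prod, ev3_prod, ev3_prod, h1, h2, h3, g1, g2, g3]
  ring

theorem norm_cf_le (m : ℕ) (ω : ℂ) {w : ℝ} (h : ‖ω‖ ≤ w) (j : ℕ) : ‖cf m ω j‖ ≤ (w + m) ^ m := by
  have hw : 0 ≤ w := (norm_nonneg _).trans h
  have hm : (0 : ℝ) ≤ m := Nat.cast_nonneg m
  unfold cf
  split_ifs with hj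
  · rw [norm_mul, norm_pow, Complex.norm_natCast]
    have e1 : m.factorial / j.factorial = m.descFactorial (m - j) := by
      rw [Nat.descFactorial_eq_div (Nat.sub_le m j), Nat.sub_sub_self hj]
    have e2 : ((m.factorial / j.factorial : ℕ) : ℝ) ≤ (w + m) ^ (m - j) := by
      rw [e1]
      calc ((m.descFactorial (m - j) : ℕ) : ℝ) ≤ ((m ^ (m - j) : ℕ) : ℝ) :=
            Nat.cast_le.mpr (Nat.descFactorial_le_pow m (m - j))
        _ = (m : ℝ) ^ (m - j) := by push_cast; rfl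
        _ ≤ (w + m) ^ (m - j) := pow_le_pow_left₀ hm (by linarith) _
    have e3 : ‖ω‖ ^ j ≤ (w + m) ^ j := pow_le_pow_left₀ (norm_nonneg _) (by linarith) _
    calc ‖ω‖ ^ j * ((m.factorial / j.factorial : ℕ) : ℝ) ≤ (w + m) ^ j * (w + m) ^ (m - j) :=
          mul_le_mul e3 e2 (Nat.cast_nonneg _) (by positivity)
      _ = (w + m) ^ m := by rw [← pow_add, Nat.add_sub_cancel' hj]
  · rw [norm_zero]; positivity

theorem norm_cf4_le (ω : ℂ) {w : ℝ} (h : ‖ω‖ ≤ w) (j : ℕ) : ‖cf 4 ω j‖ ≤ (w + 3) ^ 4 := by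
  have hw : 0 ≤ w := (norm_nonneg _).trans h
  unfold cf
  split_ifs with hj
  · rw [norm_mul, norm_pow, Complex.norm_natCast]
    have e3 : ‖ω‖ ^ j ≤ w ^ j := pow_le_pow_left₀ (norm_nonneg _) h _
    refine (mul_le_mul_of_nonneg_right e3 (Nat.cast_nonneg _)).trans ?_
    have e4 : (w + 3) ^ 4 = w ^ 4 + 12 * w ^ 3 + 54 * w ^ 2 + 108 * w + 81 := by ring
    have h2 : 0 ≤ w ^ 2 := by positivity
    have h3 : 0 ≤ w ^ 3 := by positivity
    have h4 : 0 ≤ w ^ 4 := by positivity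
    rw [e4]
    interval_cases j <;> norm_num [Nat.factorial] <;> linarith
  · rw [norm_zero]; positivity

theorem norm_om_le (T a : ℕ) (e : Bool) : ‖(om T a e).toC‖ ≤ wOf T a e := by
  cases e
  · have : (om T a false).toC = -(a : ℂ) := by simp [om, Cx.toC]
    rw [this]; simp [wOf]
  · have h1 : (om T a true).toC = ((-(a : ℝ) : ℝ) : ℂ) + ((T : ℝ) : ℂ) * Complex.I := by
      simp [om, Cx.toC]
    have h2 : wOf T a true = Nat.sqrt (a * a + T * T) + 1 := rfl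
    rw [h1, h2, Complex.norm_add_mul_I]
    have h3 : a * a + T * T < (Nat.sqrt (a * a + T * T) + 1) * (Nat.sqrt (a * a + T * T) + 1) :=
      Nat.lt_succ_sqrt _
    have h4 : ((a * a + T * T : ℕ) : ℝ) ≤
        (((Nat.sqrt (a * a + T * T) + 1) * (Nat.sqrt (a * a + T * T) + 1) : ℕ) : ℝ) :=
      Nat.cast_le.mpr h3.le
    rw [Real.sqrt_le_left (Nat.cast_nonneg _)]
    push_cast at h4 ⊢
    nlinarith

/-- `cf` of a Gaussian integer is a Gaussian integer -/
theorem exists_cf_eq (m : ℕ) (ω : Cx) (j : ℕ) : ∃ c : Cx, cf m ω.toC j = c.toC := by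
  have hp : ∀ n : ℕ, ∃ c : Cx, ω.toC ^ n = c.toC := by
    intro n
    induction n with
    | zero => exact ⟨⟨1, 0⟩, by simp [Cx.toC]⟩
    | succ n ih =>
      obtain ⟨c, hc⟩ := ih
      exact ⟨c.mul ω, by rw [pow_succ, hc, Cx.toC_mul]⟩
  unfold cf
  split_ifs with hj
  · obtain ⟨c, hc⟩ := hp j
    refine ⟨Cx.smul ((m.factorial / j.factorial : ℕ) : ℤ) c, ?_⟩
    rw [Cx.toC_smul, hc, Int.cast_natCast, mul_comm]
  · exact ⟨⟨0, 0⟩, by simp [Cx.toC]⟩


/-- the Horner loop of `vec1` -/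
noncomputable def horner (wx : Cx) (m : ℕ) : ℕ → Cx → Cx :=
  Nat.rec (fun _ acc => acc) (fun j ih c acc =>
      force (Nat.mul c j.succ) fun c' => ((acc.mul wx).add ⟨c', 0⟩).force fun a => ih c' a) m

theorem horner_succ (wx : Cx) (j c : ℕ) (acc : Cx) :
    horner wx (j + 1) c acc =
      horner wx j (c * (j + 1)) ((acc.mul wx).add ⟨((c * (j + 1) : ℕ) : ℤ), 0⟩) := by
  change force (Nat.mul c j.succ) (fun c' => ((acc.mul wx).add ⟨c', 0⟩).force fun a =>
    horner wx j c' a) = _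
  rw [force_eq, Cx.force_eq]
  rfl

theorem horner_toC (wx : Cx) (m : ℕ) : ∀ (c : ℕ) (acc : Cx), (horner wx m c acc).toC =
    acc.toC * wx.toC ^ m +
      (c : ℂ) * ∑ i ∈ range m, (m.factorial : ℂ) / (i.factorial : ℂ) * wx.toC ^ i := by
  induction m with
  | zero => intro c acc; simp [horner]
  | succ j ih =>
    intro c acc
    rw [horner_succ, ih, Cx.toC_add, Cx.toC_mul, sum_range_succ]
    have h1 : (⟨((c * (j + 1) : ℕ) : ℤ), 0⟩ : Cx).toC = (c : ℂ) * ((j : ℂ) + 1) := by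
      simp [Cx.toC]
    have hne : (j.factorial : ℂ) ≠ 0 := Nat.cast_ne_zero.mpr (Nat.factorial_ne_zero j)
    have h2 : (((j + 1).factorial : ℕ) : ℂ) = ((j : ℂ) + 1) * (j.factorial : ℂ) := by
      rw [Nat.factorial_succ]; push_cast; ring
    have h3 : ∑ i ∈ range j, (((j + 1).factorial : ℕ) : ℂ) / (i.factorial : ℂ) * wx.toC ^ i =
        ((j : ℂ) + 1) * ∑ i ∈ range j, (j.factorial : ℂ) / (i.factorial : ℂ) * wx.toC ^ i := by
      rw [mul_sum]
      refine sum_congr rfl fun i _ => ?_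
      rw [h2]; ring
    rw [h1, h3, h2, mul_div_assoc, div_self hne]
    push_cast
    ring



theorem vec1_toC (m : ℕ) (X : ℤ) (ω : Cx) :
    (vec1 m X ω).toC = (m.factorial : ℂ) * tay m (ω.toC * X) := by
  have h : vec1 m X ω = horner (Cx.smul X ω) m 1 ⟨1, 0⟩ := by
    unfold vec1 horner
    rw [Cx.force_eq]
  have hne : (m.factorial : ℂ) ≠ 0 := Nat.cast_ne_zero.mpr (Nat.factorial_ne_zero m)
  have h1 : (⟨1, 0⟩ : Cx).toC = 1 := by simp [Cx.toC]
  rw [h, horner_toC, h1, Nat.cast_one, one_mul, one_mul, tay, sum_range_succ, mul_add, mul_sum,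
    Cx.toC_smul, add_comm, mul_comm (X : ℂ)]
  congr 1
  · refine sum_congr rfl fun i _ => ?_
    ring
  · field_simp

theorem cast_ofNat_pow (n : ℕ) : ((Int.ofNat (Nat.pow 2 n) : ℤ) : ℂ) = 2 ^ n := by
  change (((2 ^ n : ℕ) : ℤ) : ℂ) = 2 ^ n
  push_cast; rfl



theorem ten_toC (m W T : ℕ) (g : Gp) (t : Tm) :
    (ten m W T g t).toC = (m.factorial : ℂ) ^ 3 *
      (tay m ((om T t.a1 g.e1).toC * 2 ^ W) * tay m ((om T t.a2 g.e2).toC * 2 ^ ((m + 2) * W)) *
        tay m ((om T t.a3 g.e3).toC * 2 ^ ((m + 2) * (m + 2) * W))) := by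
  unfold ten
  rw [Cx.toC_mul, Cx.toC_mul, vec1_toC, vec1_toC, vec1_toC, cast_ofNat_pow, cast_ofNat_pow,
    cast_ofNat_pow]
  simp only [Nat.mul_eq]
  ring

theorem linX_toC (m W : ℕ) (g : Gp) : (linX m W g).toC =
    g.l1.toC * 2 ^ W + g.l2.toC * 2 ^ ((m + 2) * W) + g.l3.toC * 2 ^ ((m + 2) * (m + 2) * W) := by
  unfold linX
  rw [Cx.toC_add, Cx.toC_add, Cx.toC_smul, Cx.toC_smul, Cx.toC_smul, cast_ofNat_pow, cast_ofNat_pow,
    cast_ofNat_pow]
  simp only [Nat.mul_eq]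
  ring

theorem ones_eq {W : ℕ} (hW : 2 ≤ W) (n : ℕ) : ones W n = ∑ i ∈ range n, 2 ^ (W * i) := by
  have h4 : 4 ≤ 2 ^ W := by
    calc 4 = 2 ^ 2 := rfl
      _ ≤ 2 ^ W := Nat.pow_le_pow_right (by norm_num) hW
  obtain ⟨M, hM⟩ : ∃ M, 2 ^ W = M + 1 := ⟨2 ^ W - 1, by omega⟩
  have key : ∀ n : ℕ, 2 ^ (W * n) = M * (∑ i ∈ range n, 2 ^ (W * i)) + 1 := by
    intro n
    induction n with
    | zero => simp
    | succ n ih =>
      rw [sum_range_succ, mul_add, mul_add, mul_one, pow_add, hM, mul_add, mul_one]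
      nth_rewrite 2 [ih]
      ring
  have h : ones W n = 2 ^ (W * n) / (2 ^ W - 1) := rfl
  rw [h, hM, Nat.add_sub_cancel, key n, Nat.mul_add_div (by omega), Nat.div_eq_of_lt (by omega),
    add_zero]


/-- real part of a packed complex polynomial with integer real parts -/
theorem ev3_re (b : ℕ) (G : ℕ → ℕ → ℕ → ℂ) (F : ℕ → ℕ → ℕ → ℤ) (h : ∀ i j k, (G i j k).re = F i j k)
    (x y z : ℝ) : (ev3 b G x y z).re = ev3 b (fun i j k => (F i j k : ℝ)) x y z := by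
  simp only [ev3, Complex.re_sum]
  refine sum_congr rfl fun i _ => sum_congr rfl fun j _ => sum_congr rfl fun k _ => ?_
  rw [← h, mul_assoc, mul_assoc, mul_assoc, mul_assoc, ← Complex.ofReal_pow, ← Complex.ofReal_pow,
    ← Complex.ofReal_pow, ← Complex.ofReal_mul, ← Complex.ofReal_mul, Complex.mul_re, Complex.ofReal_re,
    Complex.ofReal_im, mul_zero, sub_zero]


/-- base `2^W` packing -/
def pk (W n : ℕ) (d : ℕ → ℕ) : ℕ := ∑ i ∈ range n, d i * 2 ^ (W * i)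

theorem pk_succ (W n : ℕ) (d : ℕ → ℕ) :
    pk W (n + 1) d = d 0 + 2 ^ W * pk W n (fun i => d (i + 1)) := by
  unfold pk
  rw [sum_range_succ', mul_sum, add_comm]
  congr 1
  · simp
  · refine sum_congr rfl fun i _ => ?_
    rw [mul_add, mul_one, pow_add]; ring

theorem pk_lt (W n : ℕ) : ∀ d : ℕ → ℕ, (∀ i, d i < 2 ^ W) → pk W n d < 2 ^ (n * W) := by
  induction n with
  | zero => intro d _; simp [pk]
  | succ n ih =>
    intro d hd
    have h1 := ih (fun i => d (i + 1)) (fun i => hd _)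
    have h0 := hd 0
    rw [pk_succ, add_mul, one_mul, pow_add, mul_comm (2 ^ (n * W))]
    calc d 0 + 2 ^ W * pk W n (fun i => d (i + 1)) < 2 ^ W * (pk W n (fun i => d (i + 1)) + 1) := by
          rw [mul_add, mul_one]; omega
      _ ≤ 2 ^ W * 2 ^ (n * W) := Nat.mul_le_mul_left _ h1

theorem land_pk (W n : ℕ) (d : ℕ → ℕ) (hd : d 0 < 2 ^ W) :
    Nat.land (pk W (n + 1) d) (Nat.pred (Nat.pow 2 W)) = d 0 := by
  change pk W (n + 1) d &&& (2 ^ W - 1) = d 0
  rw [Nat.and_two_pow_sub_one_eq_mod, pk_succ, Nat.add_mul_mod_self_left, Nat.mod_eq_of_lt hd]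

theorem shr_pk (W n : ℕ) (d : ℕ → ℕ) (hd : d 0 < 2 ^ W) :
    Nat.shiftRight (pk W (n + 1) d) W = pk W n (fun i => d (i + 1)) := by
  change pk W (n + 1) d >>> W = _
  rw [Nat.shiftRight_eq_div_pow, pk_succ, Nat.add_mul_div_left _ _ (by positivity),
    Nat.div_eq_of_lt hd, zero_add]

theorem sum_range_mul_eq {M : Type*} [AddCommMonoid M] (a b : ℕ) (g : ℕ → M) :
    ∑ s ∈ range (b * a), g s = ∑ k ∈ range a, ∑ i ∈ range b, g (b * k + i) := by
  induction a with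
  | zero => simp
  | succ a ih => rw [mul_add, mul_one, sum_range_add, ih, sum_range_succ]

theorem sum_range_cube {M : Type*} [AddCommMonoid M] (b : ℕ) (G : ℕ → ℕ → ℕ → M) :
    ∑ s ∈ range (b * b * b), G (s % b) (s / b % b) (s / (b * b)) =
      ∑ i ∈ range b, ∑ j ∈ range b, ∑ k ∈ range b, G i j k := by
  have h1 : ∑ s ∈ range (b * b * b), G (s % b) (s / b % b) (s / (b * b)) =
      ∑ k ∈ range b, ∑ j ∈ range b, ∑ i ∈ range b, G i j k := by
    rw [mul_assoc, sum_range_mul_eq, sum_range_mul_eq]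
    refine sum_congr rfl fun k _ => sum_congr rfl fun j hj => sum_congr rfl fun i hi => ?_
    have hi' := mem_range.mp hi
    have hj' := mem_range.mp hj
    have hb : 0 < b := by omega
    have e1 : (b * (b * k + j) + i) % b = i := by
      rw [Nat.mul_add_mod, Nat.mod_eq_of_lt hi']
    have e2 : (b * (b * k + j) + i) / b = b * k + j := by
      rw [Nat.mul_add_div hb, Nat.div_eq_of_lt hi', add_zero]
    have e3 : (b * k + j) % b = j := by rw [Nat.mul_add_mod, Nat.mod_eq_of_lt hj']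
    have e4 : (b * k + j) / b = k := by rw [Nat.mul_add_div hb, Nat.div_eq_of_lt hj', add_zero]
    rw [← Nat.div_div_eq_div_mul, e1, e2, e3, e4]
  rw [h1, sum_comm]
  refine (sum_congr rfl fun j _ => sum_comm).trans ?_
  rw [sum_comm]

theorem ev3_eq_sum {R : Type*} [CommRing R] (b W : ℕ) (F : ℕ → ℕ → ℕ → R) :
    ev3 b F (2 ^ W) (2 ^ (b * W)) (2 ^ (b * b * W)) =
      ∑ s ∈ range (b * b * b), F (s % b) (s / b % b) (s / (b * b)) * 2 ^ (W * s) := by
  rw [ev3, ← sum_range_cube b (fun i j k => F i j k * (2 ^ W) ^ i * (2 ^ (b * W)) ^ j *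
    (2 ^ (b * b * W)) ^ k)]
  refine sum_congr rfl fun s _ => ?_
  have e : s = s % b + b * (s / b % b) + b * b * (s / (b * b)) := by
    rw [← Nat.div_div_eq_div_mul, add_assoc, mul_assoc, ← mul_add, Nat.mod_add_div, Nat.mod_add_div]
  have e' : W * s = W * (s % b) + b * W * (s / b % b) + b * b * W * (s / (b * b)) := by
    nth_rewrite 1 [e]
    ring
  rw [e', pow_add, pow_add, pow_mul, pow_mul, pow_mul]
  ring

theorem toNat_pack {W : ℕ} (hW : 2 ≤ W) (b : ℕ) (F : ℕ → ℕ → ℕ → ℤ) (h : ℕ)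
    (hF : ∀ i j k, 0 ≤ F i j k + h) :
    Int.toNat (Int.add (ev3 b F (2 ^ W) (2 ^ (b * W)) (2 ^ (b * b * W)))
      (Int.ofNat (Nat.mul h (ones W (b * b * b))))) =
    pk W (b * b * b) (fun s => (F (s % b) (s / b % b) (s / (b * b)) + h).toNat) := by
  have e : Int.add (ev3 b F (2 ^ W) (2 ^ (b * W)) (2 ^ (b * b * W)))
      (Int.ofNat (Nat.mul h (ones W (b * b * b)))) =
      ((pk W (b * b * b) (fun s => (F (s % b) (s / b % b) (s / (b * b)) + h).toNat) : ℕ) : ℤ) := by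
    change ev3 b F (2 ^ W) (2 ^ (b * W)) (2 ^ (b * b * W)) + ((h * ones W (b * b * b) : ℕ) : ℤ) = _
    rw [ev3_eq_sum, ones_eq hW, pk]
    push_cast
    rw [mul_sum, ← sum_add_distrib]
    refine sum_congr rfl fun s _ => ?_
    rw [Int.toNat_of_nonneg (hF _ _ _)]
    ring
  rw [e, Int.toNat_natCast]

theorem unpack_succ (W b n s N : ℕ) : unpack W b (n + 1) s N =
    (s % b, s / b % b, s / (b * b),
      ((Nat.land N (Nat.pred (Nat.pow 2 W)) : ℕ) : ℤ) - ((Nat.pow 2 (Nat.pred W) : ℕ) : ℤ)) ::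
      unpack W b n (s + 1) (Nat.shiftRight N W) := by
  change (force (Nat.mod s b) fun i => force (Nat.mod (Nat.div s b) b) fun j =>
    force (Nat.div s (Nat.mul b b)) fun k =>
    forceZ (Int.sub (Int.ofNat (Nat.land N (Nat.pred (Nat.pow 2 W))))
      (Int.ofNat (Nat.pow 2 (Nat.pred W)))) fun c =>
    force (Nat.shiftRight N W) fun N' => force s.succ fun s' =>
      ((i, j, k, c) :: unpack W b n s' N' : Poly)) = _
  simp only [force_eq, forceZ_eq]
  rfl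

theorem unpack_pk (W b : ℕ) (D : ℕ → ℕ) (hD : ∀ s, D s < 2 ^ W) (n : ℕ) : ∀ s0 : ℕ,
    unpack W b n s0 (pk W n fun i => D (s0 + i)) = (List.range' s0 n).map fun s =>
      (s % b, s / b % b, s / (b * b), (D s : ℤ) - ((Nat.pow 2 (Nat.pred W) : ℕ) : ℤ)) := by
  induction n with
  | zero => intro s0; rfl
  | succ n ih =>
    intro s0
    rw [unpack_succ, land_pk W n (fun i => D (s0 + i)) (hD _), shr_pk W n (fun i => D (s0 + i)) (hD _),
      List.range'_succ, List.map_cons,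
      ← ih (s0 + 1)]
    have : (fun i => D (s0 + (i + 1))) = fun i => D (s0 + 1 + i) := by
      funext i; congr 1; omega
    simp only [this, add_zero]



/-- the list produced by `unpack` -/
theorem unpack_spec {W b : ℕ} (hW : 2 ≤ W) (F : ℕ → ℕ → ℕ → ℤ)
    (hF : ∀ i j k, |F i j k| < 2 ^ (W - 1)) :
    unpack W b (b * b * b) 0 (Int.toNat (Int.add (ev3 b F (2 ^ W) (2 ^ (b * W)) (2 ^ (b * b * W)))
      (Int.ofNat (Nat.mul (Nat.pow 2 (Nat.pred W)) (ones W (b * b * b)))))) =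
    (List.range (b * b * b)).map fun s => (s % b, s / b % b, s / (b * b), F (s % b) (s / b % b) (s / (b * b))) := by
  obtain ⟨V, rfl⟩ : ∃ V, W = V + 1 := ⟨W - 1, by omega⟩
  simp only [Nat.add_sub_cancel] at hF
  have hF' : ∀ i j k, 0 ≤ F i j k + ((2 ^ V : ℕ) : ℤ) ∧ F i j k + ((2 ^ V : ℕ) : ℤ) < 2 ^ (V + 1) := by
    intro i j k
    have := abs_lt.mp (hF i j k)
    push_cast
    rw [pow_succ]
    constructor <;> linarith [this.1, this.2]
  have hN := toNat_pack hW b F (2 ^ V) (fun i j k => (hF' i j k).1)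
  have e : Nat.pow 2 (Nat.pred (V + 1)) = 2 ^ V := rfl
  rw [e, hN]
  have hd : ∀ s, (F (s % b) (s / b % b) (s / (b * b)) + ((2 ^ V : ℕ) : ℤ)).toNat < 2 ^ (V + 1) := by
    intro s
    have := hF' (s % b) (s / b % b) (s / (b * b))
    rw [Int.toNat_lt this.1]
    exact_mod_cast this.2
  have hu := unpack_pk (V + 1) b
    (fun s => (F (s % b) (s / b % b) (s / (b * b)) + ((2 ^ V : ℕ) : ℤ)).toNat) hd (b * b * b) 0
  simp only [zero_add] at hu
  rw [hu, List.range_eq_range']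
  refine List.map_congr_left fun s _ => ?_
  rw [Int.toNat_of_nonneg (hF' _ _ _).1, e, add_sub_cancel_right]

theorem sum_map_range (g : ℕ → ℝ) (n : ℕ) : ((List.range n).map g).sum = ∑ s ∈ range n, g s := by
  induction n with
  | zero => simp
  | succ n ih => rw [List.range_succ, List.map_append, List.sum_append, ih, sum_range_succ]; simp



theorem ev_map_range (b : ℕ) (F : ℕ → ℕ → ℕ → ℤ) (x y z : ℝ) :
    Poly.ev ((List.range (b * b * b)).map fun s =>
      (s % b, s / b % b, s / (b * b), F (s % b) (s / b % b) (s / (b * b)))) x y z =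
    ev3 b (fun i j k => (F i j k : ℝ)) x y z := by
  rw [ev3, ← sum_range_cube b (fun i j k => (F i j k : ℝ) * x ^ i * y ^ j * z ^ k), Poly.ev,
    List.map_map, ← sum_map_range]
  rfl


theorem pk_mul (W a b : ℕ) (d : ℕ → ℕ) :
    pk W (b * a) d = pk (b * W) a (fun k => pk W b (fun i => d (b * k + i))) := by
  unfold pk
  rw [sum_range_mul_eq]
  refine sum_congr rfl fun k _ => ?_
  rw [sum_mul]
  refine sum_congr rfl fun i _ => ?_
  rw [mul_assoc, ← pow_add]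
  congr 2
  ring

theorem pk_congr (W n : ℕ) {d d' : ℕ → ℕ} (h : ∀ i < n, d i = d' i) : pk W n d = pk W n d' :=
  sum_congr rfl fun i hi => by rw [h i (mem_range.mp hi)]

theorem pk_cube (W : ℕ) (D : ℕ → ℕ → ℕ → ℕ) :
    pk W (6 * 6 * 6) (fun s => D (s % 6) (s / 6 % 6) (s / (6 * 6))) =
      pk (36 * W) 6 (fun k => pk (6 * W) 6 (fun j => pk W 6 (fun i => D i j k))) := by
  rw [pk_mul W 6 (6 * 6)]
  refine pk_congr _ _ fun k _ => ?_
  rw [pk_mul W 6 6]
  refine pk_congr _ _ fun j hj => pk_congr _ _ fun i hi => ?_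
  congr 1 <;> omega

def evn (i : ℕ) : Bool := decide (Even i)

theorem six_pk (Wd k : ℕ) (f : Bool → ℕ → ℕ) (d : ℕ → ℕ) (hd : ∀ i, d i < 2 ^ Wd) :
    six (Nat.pred (Nat.pow 2 Wd)) Wd k f (pk Wd 6 d) =
      ∑ i ∈ range 6, f (evn i) (d i) * 2 ^ (k * (5 - i)) := by
  have e0 : evn 0 = true := by decide
  have e1 : evn 1 = false := by decide
  have e2 : evn 2 = true := by decide
  have e3 : evn 3 = false := by decide
  have e4 : evn 4 = true := by decide
  have e5 : evn 5 = false := by decide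
  unfold six
  simp only []
  rw [shr_pk Wd 5 d (hd _), shr_pk Wd 4 _ (by exact hd _), shr_pk Wd 3 _ (by exact hd _),
    shr_pk Wd 2 _ (by exact hd _), shr_pk Wd 1 _ (by exact hd _), land_pk Wd 5 _ (by exact hd _),
    land_pk Wd 4 _ (by exact hd _), land_pk Wd 3 _ (by exact hd _),
    land_pk Wd 2 _ (by exact hd _), land_pk Wd 1 _ (by exact hd _), land_pk Wd 0 _ (by exact hd _)]
  simp only [sum_range_succ, sum_range_zero, e0, e1, e2, e3, e4, e5, Nat.add_eq, Nat.shiftLeft_eq',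
    Nat.shiftLeft_eq]
  norm_num
  ring

theorem pow_sub_div (k : ℕ) {i : ℕ} (hi : i < 6) :
    (2 : ℝ) ^ (k * (5 - i)) / 2 ^ (5 * k) = (1 / 2 ^ k) ^ i := by
  have e : 5 * k = k * (5 - i) + k * i := by
    rw [← mul_add, Nat.sub_add_cancel (by omega), mul_comm]
  rw [e, pow_add, one_div, inv_pow, ← pow_mul]
  field_simp

theorem mag_spec (h D : ℕ) (e : Bool) {u r : ℝ} (hu : |u| ≤ r) (he : e = true → 0 ≤ u) :
    0 ≤ ((D : ℝ) - h) * u + (mag h e D : ℝ) * r := by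
  have hr : 0 ≤ r := (abs_nonneg _).trans hu
  have hu' := abs_le.mp hu
  rcases le_total h D with hc | hc
  · have hc' : (0 : ℝ) ≤ (D : ℝ) - h := by
      have : (h : ℝ) ≤ D := Nat.cast_le.mpr hc
      linarith
    cases e
    · have : (mag h false D : ℝ) = (D : ℝ) - h := by
        change (((h - D) + (D - h) : ℕ) : ℝ) = _
        rw [Nat.sub_eq_zero_of_le hc, zero_add, Nat.cast_sub hc]
      rw [this, ← mul_add]
      exact mul_nonneg hc' (by linarith [hu'.1])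
    · exact add_nonneg (mul_nonneg hc' (he rfl)) (mul_nonneg (Nat.cast_nonneg _) hr)
  · have hc' : (0 : ℝ) ≤ (h : ℝ) - D := by
      have : (D : ℝ) ≤ h := Nat.cast_le.mpr hc
      linarith
    have : (mag h e D : ℝ) = (h : ℝ) - D := by
      cases e
      · change (((h - D) + (D - h) : ℕ) : ℝ) = _
        rw [Nat.sub_eq_zero_of_le hc, add_zero, Nat.cast_sub hc]
      · change (((h - D) : ℕ) : ℝ) = _
        rw [Nat.cast_sub hc]
    rw [this]
    have := mul_nonneg hc' (by linarith [hu'.2] : 0 ≤ r - u)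
    linarith



/-- the range bound computed in `chkT` (`hf` is the lane offset) -/
theorem six_spec {W hf k1 k2 k3 : ℕ} (hW : 2 ≤ W) (F : ℕ → ℕ → ℕ → ℤ)
    (hF : ∀ i j k, 0 ≤ F i j k + hf ∧ F i j k + hf < 2 ^ W) {N : ℕ}
    (hN : N = Int.toNat (Int.add (ev3 6 F (2 ^ W) (2 ^ (6 * W)) (2 ^ (36 * W)))
      (Int.ofNat (Nat.mul hf (ones W 216)))))
    {u1 u2 u3 : ℝ} (h1 : |u1| ≤ 1 / 2 ^ k1) (h2 : |u2| ≤ 1 / 2 ^ k2) (h3 : |u3| ≤ 1 / 2 ^ k3) :
    ((Nat.sub (Nat.land N (Nat.pred (Nat.pow 2 W))) hf : ℕ) : ℝ) -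
      ((six (Nat.pred (Nat.pow 2 (Nat.mul 36 W))) (Nat.mul 36 W) k3 (fun e3 c3 =>
        six (Nat.pred (Nat.pow 2 (Nat.mul 6 W))) (Nat.mul 6 W) k2 (fun e2 c2 =>
          Bool.rec (six (Nat.pred (Nat.pow 2 W)) W k1 (fun _ l => mag hf false l) c2)
            (six (Nat.pred (Nat.pow 2 W)) W k1 (fun e1 l => mag hf e1 l) c2) (and e3 e2)) c3) N : ℕ) : ℝ)
        / 2 ^ (5 * (k1 + k2 + k3))
      ≤ ev3 6 (fun i j k => (F i j k : ℝ)) u1 u2 u3 := by
  obtain ⟨D, hD⟩ : ∃ D : ℕ → ℕ → ℕ → ℕ, ∀ i j k, D i j k = (F i j k + hf).toNat :=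
    ⟨_, fun _ _ _ => rfl⟩
  have hDF : ∀ i j k, F i j k = (D i j k : ℤ) - hf := by
    intro i j k
    rw [hD, Int.toNat_of_nonneg (hF i j k).1, add_sub_cancel_right]
  have hDlt : ∀ i j k, D i j k < 2 ^ W := by
    intro i j k
    rw [hD, Int.toNat_lt (hF i j k).1]
    exact_mod_cast (hF i j k).2
  have hN' : N = pk (36 * W) 6 (fun k => pk (6 * W) 6 (fun j => pk W 6 (fun i => D i j k))) := by
    have := toNat_pack hW 6 F hf (fun i j k => (hF i j k).1)
    rw [hN, ← pk_cube]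
    simp only [← hD] at this
    exact this
  have hl1 : ∀ j k, pk W 6 (fun i => D i j k) < 2 ^ (6 * W) := fun j k =>
    pk_lt W 6 _ fun i => hDlt i j k
  have hl2 : ∀ k, pk (6 * W) 6 (fun j => pk W 6 (fun i => D i j k)) < 2 ^ (36 * W) := fun k => by
    have := pk_lt (6 * W) 6 _ fun j => hl1 j k
    rwa [← mul_assoc] at this
  have h0 : Nat.land N (Nat.pred (Nat.pow 2 W)) = D 0 0 0 := by
    have := toNat_pack hW 6 F hf (fun i j k => (hF i j k).1)
    simp only [← hD] at this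
    have e : N = pk W (215 + 1) (fun s => D (s % 6) (s / 6 % 6) (s / (6 * 6))) := hN.trans this
    rw [e, land_pk W 215 _ (by exact hDlt _ _ _)]
  have hS : six (Nat.pred (Nat.pow 2 (Nat.mul 36 W))) (Nat.mul 36 W) k3 (fun e3 c3 =>
        six (Nat.pred (Nat.pow 2 (Nat.mul 6 W))) (Nat.mul 6 W) k2 (fun e2 c2 =>
          Bool.rec (six (Nat.pred (Nat.pow 2 W)) W k1 (fun _ l => mag hf false l) c2)
            (six (Nat.pred (Nat.pow 2 W)) W k1 (fun e1 l => mag hf e1 l) c2) (and e3 e2)) c3) N =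
      ∑ k ∈ range 6, (∑ j ∈ range 6, (∑ i ∈ range 6,
        mag hf (evn i && (evn k && evn j)) (D i j k) * 2 ^ (k1 * (5 - i))) * 2 ^ (k2 * (5 - j))) *
        2 ^ (k3 * (5 - k)) := by
    rw [hN']
    simp only [Nat.mul_eq]
    rw [six_pk _ _ _ _ hl2]
    refine sum_congr rfl fun k _ => ?_
    rw [six_pk _ _ _ _ (fun j => hl1 j k)]
    congr 1
    refine sum_congr rfl fun j _ => ?_
    congr 1
    cases evn k && evn j
    · simp only [Bool.and_false]
      exact six_pk _ _ _ _ (fun i => hDlt i j k)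
    · simp only [Bool.and_true]
      exact six_pk _ _ _ _ (fun i => hDlt i j k)
  rw [h0, hS]
  have hq : ((∑ k ∈ range 6, (∑ j ∈ range 6, (∑ i ∈ range 6,
        mag hf (evn i && (evn k && evn j)) (D i j k) * 2 ^ (k1 * (5 - i))) * 2 ^ (k2 * (5 - j))) *
        2 ^ (k3 * (5 - k)) : ℕ) : ℝ) / 2 ^ (5 * (k1 + k2 + k3)) =
      ∑ i ∈ range 6, ∑ j ∈ range 6, ∑ k ∈ range 6,
        (mag hf (evn i && (evn k && evn j)) (D i j k) : ℝ) *
          ((1 / 2 ^ k1) ^ i * (1 / 2 ^ k2) ^ j * (1 / 2 ^ k3) ^ k) := by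
    push_cast
    simp only [sum_mul, sum_div]
    rw [sum_comm]
    refine (sum_congr rfl fun j _ => sum_comm).trans ?_
    rw [sum_comm]
    refine sum_congr rfl fun i hi => sum_congr rfl fun j hj => sum_congr rfl fun k hk => ?_
    rw [← pow_sub_div k1 (mem_range.mp hi), ← pow_sub_div k2 (mem_range.mp hj),
      ← pow_sub_div k3 (mem_range.mp hk), mul_add, mul_add, pow_add, pow_add]
    field_simp
  rw [hq, sub_le_iff_le_add, ev3, ← sum_add_distrib]
  simp only [← sum_add_distrib]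
  have hterm : ∀ i j k, 0 ≤ (F i j k : ℝ) * u1 ^ i * u2 ^ j * u3 ^ k +
      (mag hf (evn i && (evn k && evn j)) (D i j k) : ℝ) *
        ((1 / 2 ^ k1) ^ i * (1 / 2 ^ k2) ^ j * (1 / 2 ^ k3) ^ k) := by
    intro i j k
    have hab : |u1 ^ i * u2 ^ j * u3 ^ k| ≤
        (1 / 2 ^ k1) ^ i * (1 / 2 ^ k2) ^ j * (1 / 2 ^ k3) ^ k := by
      rw [abs_mul, abs_mul, abs_pow, abs_pow, abs_pow]
      gcongr
    have hpos : (evn i && (evn k && evn j)) = true → 0 ≤ u1 ^ i * u2 ^ j * u3 ^ k := by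
      intro he
      simp only [evn, Bool.and_eq_true, decide_eq_true_eq] at he
      exact mul_nonneg (mul_nonneg (he.1.pow_nonneg _) (he.2.2.pow_nonneg _)) (he.2.1.pow_nonneg _)
    have := mag_spec hf (D i j k) _ hab hpos
    rw [hDF]
    push_cast
    rw [mul_assoc, mul_assoc, ← mul_assoc (u1 ^ i)]
    exact this
  refine le_trans ?_ (single_le_sum (fun i _ => sum_nonneg fun j _ => sum_nonneg fun k _ =>
    hterm i j k) (mem_range.mpr (by norm_num : 0 < 6)))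
  refine le_trans ?_ (single_le_sum (fun j _ => sum_nonneg fun k _ =>
    hterm 0 j k) (mem_range.mpr (by norm_num : 0 < 6)))
  refine le_trans ?_ (single_le_sum (fun k _ => hterm 0 0 k) (mem_range.mpr (by norm_num : 0 < 6)))
  have he : evn 0 = true := by simp [evn]
  simp only [he, pow_zero, mul_one, Bool.and_self, hDF, mag, cond_true, Nat.sub_eq]
  push_cast
  rcases le_total hf (D 0 0 0) with hc | hc
  · rw [Nat.cast_sub hc, Nat.sub_eq_zero_of_le hc]; simp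
  · rw [Nat.cast_sub hc, Nat.sub_eq_zero_of_le hc]; simp


/-! ### `mkPre` without continuations -/

noncomputable def ptOf (c : Cfg) (T : ℕ) (g : Gp) (t : Tm) : PT := mkPT c T g t fun p _ => p
noncomputable def ptOk (c : Cfg) (T : ℕ) (g : Gp) (t : Tm) : Bool := mkPT c T g t fun _ b => b
noncomputable def pgOf (c : Cfg) (T : ℕ) (g : Gp) : PG :=
  ⟨g.e1, g.e2, g.e3, g.l1, g.l2, g.l3, Cx.smul 65536 (linX 4 c.W g), g.ts.map (ptOf c T g)⟩
noncomputable def preOf (I : Inst) (c : Cfg) : Pre := mkPre I c id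

theorem mkPT_eq {α : Type} (c : Cfg) (T : ℕ) (g : Gp) (t : Tm) (k : PT → Bool → α) :
    mkPT c T g t k = k (ptOf c T g t) (ptOk c T g t) := by
  simp only [mkPT, ptOf, ptOk, force_eq, Cx.force_eq]

theorem mkPTs_eq {α : Type} (c : Cfg) (T : ℕ) (g : Gp) (ts : List Tm) :
    ∀ k : List PT → Bool → α, mkPTs c T g ts k = k (ts.map (ptOf c T g)) (ts.all (ptOk c T g)) := by
  induction ts with
  | nil => intro k; rfl
  | cons t ts ih =>
    intro k
    change (mkPT c T g t fun p b => mkPTs c T g ts fun l b' =>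
      @Bool.rec (fun _ => α) (k (p :: l) false) (k (p :: l) true) (and b b')) = _
    rw [mkPT_eq, ih, List.map_cons, List.all_cons]
    cases (ptOk c T g t && ts.all (ptOk c T g)) <;> rfl

noncomputable def pgOk (c : Cfg) (T : ℕ) (g : Gp) : Bool :=
  g.ts.all (ptOk c T g) && Nat.ble g.ts.length 8192

theorem mkPGs_eq {α : Type} (c : Cfg) (T : ℕ) (gs : List Gp) :
    ∀ k : List PG → Bool → α, mkPGs c T gs k = k (gs.map (pgOf c T)) (gs.all (pgOk c T)) := by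
  induction gs with
  | nil => intro k; rfl
  | cons g gs ih =>
    intro k
    change (mkPTs c T g g.ts fun ts b =>
      (Cx.smul 65536 (linX 4 c.W g)).force fun LX => mkPGs c T gs fun l b' =>
        @Bool.rec (fun _ => α) (k (⟨g.e1, g.e2, g.e3, g.l1, g.l2, g.l3, LX, ts⟩ :: l) false)
          (k (⟨g.e1, g.e2, g.e3, g.l1, g.l2, g.l3, LX, ts⟩ :: l) true)
          (and (and b b') (Nat.ble g.ts.length 8192))) = _
    rw [mkPTs_eq, Cx.force_eq, ih, List.map_cons, List.all_cons]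
    have e : (pgOk c T g && gs.all (pgOk c T)) =
        ((g.ts.all (ptOk c T g) && gs.all (pgOk c T)) && Nat.ble g.ts.length 8192) := by
      unfold pgOk
      rw [Bool.and_right_comm]
    rw [e]
    cases ((g.ts.all (ptOk c T g) && gs.all (pgOk c T)) && Nat.ble g.ts.length 8192) <;> rfl

theorem mkPre_eq' {α : Type} (I : Inst) (c : Cfg) (k : Pre → α) : mkPre I c k =
    k ⟨eTab, cTab, I.gs.map (pgOf c I.T), I.NA, I.NBL, Nat.pred (Nat.pow 2 80),
      Nat.pred (Nat.pow 2 (c.KO + 80)), offs c.KO, ones c.W 216, Nat.pred (Nat.pow 2 c.W),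
      Nat.pred (Nat.pow 2 (Nat.mul 6 c.W)), Nat.pred (Nat.pow 2 (Nat.mul 36 c.W)),
      Nat.pow 2 (Nat.pred c.W), and (I.gs.all (pgOk c I.T))
        (and (Nat.ble c.amax 64) (and (Nat.ble I.T 63) (and (Nat.ble 2 c.W) (Nat.ble 64 c.KO))))⟩ := by
  unfold mkPre
  rw [sqN_eq, sqC_eq, mkPGs_eq]
  simp only [force_eq]



theorem mkPre_eq {α : Type} (I : Inst) (c : Cfg) (k : Pre → α) : mkPre I c k = k (preOf I c) := by
  rw [preOf, mkPre_eq', mkPre_eq']
  rfl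

theorem preOf_eq (I : Inst) (c : Cfg) : ∃ ok : Bool, preOf I c =
    ⟨eTab, cTab, I.gs.map (pgOf c I.T), I.NA, I.NBL, Nat.pred (Nat.pow 2 80),
      Nat.pred (Nat.pow 2 (c.KO + 80)), offs c.KO, ones c.W 216, Nat.pred (Nat.pow 2 c.W),
      Nat.pred (Nat.pow 2 (Nat.mul 6 c.W)), Nat.pred (Nat.pow 2 (Nat.mul 36 c.W)),
      Nat.pow 2 (Nat.pred c.W), ok⟩ := ⟨_, mkPre_eq' I c id⟩

/-- what `Pre.ok` certifies -/
structure PreOk (I : Inst) (c : Cfg) : Prop where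
  amax_le : c.amax ≤ 64
  T_le : I.T ≤ 63
  W_ge : 2 ≤ c.W
  KO_ge : 64 ≤ c.KO
  len : ∀ g ∈ I.gs, g.ts.length ≤ 8192
  a_le : ∀ g ∈ I.gs, ∀ t ∈ g.ts, t.a1 ≤ c.amax ∧ t.a2 ≤ c.amax ∧ t.a3 ≤ c.amax
  w_le : ∀ g ∈ I.gs, ∀ t ∈ g.ts,
    wOf I.T t.a1 g.e1 ≤ c.wmax ∧ wOf I.T t.a2 g.e2 ≤ c.wmax ∧ wOf I.T t.a3 g.e3 ≤ c.wmax
  blk_lt : ∀ g ∈ I.gs, ∀ t ∈ g.ts, (t.A.mul (ten 4 c.W I.T g t)).n1 < 2 ^ c.KO ∧
    (t.B.mul (ten 4 c.W I.T g t)).n1 < 2 ^ c.KO

theorem preOk_of_ok {I : Inst} {c : Cfg} (h : (preOf I c).ok = true) : PreOk I c := by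
  rw [preOf, mkPre_eq'] at h
  simp only [id, Bool.and_eq_true, Nat.ble_eq, List.all_eq_true, pgOk] at h
  obtain ⟨h1, h2, h3, h4, h5⟩ := h
  have h6 : ∀ g ∈ I.gs, ∀ t ∈ g.ts, ((t.A.mul (ten 4 c.W I.T g t)).n1 < 2 ^ c.KO ∧
      (t.B.mul (ten 4 c.W I.T g t)).n1 < 2 ^ c.KO) ∧
      (t.a1 ≤ c.amax ∧ t.a2 ≤ c.amax ∧ t.a3 ≤ c.amax) ∧
      (wOf I.T t.a1 g.e1 ≤ c.wmax ∧ wOf I.T t.a2 g.e2 ≤ c.wmax ∧ wOf I.T t.a3 g.e3 ≤ c.wmax) := by
    intro g hg t ht
    have := (h1 g hg).1 t ht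
    simp only [ptOk, mkPT, force_eq, Cx.force_eq, Bool.and_eq_true, Nat.ble_eq, Nat.blt_eq] at this
    exact this
  exact ⟨h2, h3, h4, h5, fun g hg => (h1 g hg).2, fun g hg t ht => (h6 g hg t ht).2.1,
    fun g hg t ht => (h6 g hg t ht).2.2, fun g hg t ht => (h6 g hg t ht).1⟩


end Crest.Agent.R163.E2
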