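import Crest.Agent.R163.E2.LeafT

/-!
# R163/E2/Sound: zeroth order leaves, the tree, and the final statement

`chkI`: positive real terms are `≥ A.re exp (-a·hi)` (or `≥ 0`); every other term is at least
`-exp (-a·lo) (|A| + |B| ∑ |λ_i| Y_i)` where `y_i exp (-a_i (y_i - lo_i)) ≤ Y_i` (`= hi_i`, or `lo_i + 1/a_i` on an unbounded
axis since `s exp (-a s) ≤ 1/a`).  `δ = (pos - neg) / 2^80`.
-/

set_option autoImplicit false

namespace Crest.Agent.R163.E2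

theorem sound_ok {a : Ax} (h : a.ok = true) : 1 ≤ a.k ∧ a.k ≤ 16 ∧ a.hi < 2 ^ 22 := by
  simp only [Ax.ok, Bool.and_eq_true, Nat.ble_eq] at h
  exact ⟨h.1, h.2.1, by have := h.2.2; omega⟩

theorem sound_lo_lt {a : Ax} (h : a.ok = true) : a.lo < 2 ^ 22 := by
  have h1 := (sound_ok h).2.2
  have h2 : a.lo ≤ a.hi := Nat.le_add_right _ _
  omega

theorem sound_hi {a : Ax} (h : a.ok = true) :
    (a.hi : ℝ) / 2 ^ 16 = (a.lo : ℝ) / 2 ^ 16 + 2 / 2 ^ a.k := by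
  obtain ⟨-, h2, -⟩ := sound_ok h
  have e : (2 : ℝ) ^ (17 - a.k) * 2 ^ a.k = 2 ^ 17 := by
    rw [← pow_add]; congr 1; omega
  have e' : (a.hi : ℝ) = a.lo + 2 ^ (17 - a.k) := by
    show ((a.lo + 2 ^ (17 - a.k) : ℕ) : ℝ) = _
    push_cast; rfl
  rw [e']
  field_simp
  linear_combination e

theorem sound_cen {a : Ax} (h : a.ok = true) :
    (a.cen : ℝ) / 2 ^ 16 = (a.lo : ℝ) / 2 ^ 16 + 1 / 2 ^ a.k := by
  obtain ⟨-, h2, -⟩ := sound_ok h
  have e : (2 : ℝ) ^ (16 - a.k) * 2 ^ a.k = 2 ^ 16 := by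
    rw [← pow_add]; congr 1; omega
  have e' : (a.cen : ℝ) = a.lo + 2 ^ (16 - a.k) := by
    show ((a.lo + 2 ^ (16 - a.k) : ℕ) : ℝ) = _
    push_cast; rfl
  rw [e']
  field_simp
  linear_combination e

theorem sound_nonneg {a : Ax} {y : ℝ} (h : a.mem y) : 0 ≤ y :=
  le_trans (by positivity) h.1

theorem sound_le_hi {a : Ax} (h : a.ok = true) {y : ℝ} (hy : a.mem y) (hi : a.inf = false) :
    y ≤ (a.hi : ℝ) / 2 ^ 16 := by
  rw [sound_hi h]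
  exact hy.2 hi

theorem sound_mul_le_hi {b : Ax} (h : b.ok = true) {y : ℝ} (hy : b.mem y) {a : ℕ}
    (ha : b.inf = false ∨ a = 0) : (a : ℝ) * y ≤ (a : ℝ) * b.hi / 2 ^ 16 := by
  rcases ha with ha | rfl
  · rw [mul_div_assoc]
    exact mul_le_mul_of_nonneg_left (sound_le_hi h hy ha) (Nat.cast_nonneg a)
  · simp

theorem sound_lo_le_mul {b : Ax} {y : ℝ} (hy : b.mem y) (a : ℕ) :
    (a : ℝ) * b.lo / 2 ^ 16 ≤ (a : ℝ) * y := by
  rw [mul_div_assoc]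
  exact mul_le_mul_of_nonneg_left hy.1 (Nat.cast_nonneg a)

theorem sound_yBd {b : Ax} (h : b.ok = true) {y : ℝ} (hy : b.mem y) {a : ℕ}
    (ha : b.inf = false ∨ 1 ≤ a) :
    y * Real.exp (-((a : ℝ) * y - (a : ℝ) * b.lo / 2 ^ 16)) ≤ (yBd b a : ℝ) / 2 ^ 16 := by
  have h0 := sound_nonneg hy
  have h1 := sound_lo_le_mul hy a
  have h2 : Real.exp (-((a : ℝ) * y - (a : ℝ) * b.lo / 2 ^ 16)) ≤ 1 :=
    Real.exp_le_one_iff.2 (by linarith)
  cases hi : b.inf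
  · have e : yBd b a = b.hi := by simp [yBd, hi]
    rw [e]
    exact (mul_le_of_le_one_right h0 h2).trans (sound_le_hi h hy hi)
  · have ha1 : 1 ≤ a := by
      rcases ha with ha | ha
      · rw [hi] at ha; exact absurd ha (by simp)
      · exact ha
    have e : (yBd b a : ℝ) = b.lo + ((65536 / a : ℕ) + 1 : ℝ) := by
      have : yBd b a = b.lo + (65536 / a + 1) := by simp only [yBd, hi]; rfl
      rw [this]
      push_cast; rfl
    have ha0 : (0 : ℝ) < a := by exact_mod_cast ha1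
    have h3 : (65536 : ℝ) ≤ a * ((65536 / a : ℕ) + 1 : ℝ) := by
      have := (Nat.lt_mul_div_succ 65536 (show 0 < a by omega)).le
      exact_mod_cast this
    set s := y - (b.lo : ℝ) / 2 ^ 16 with hs
    have hs0 : 0 ≤ s := by linarith [hy.1]
    have e2 : (a : ℝ) * y - (a : ℝ) * b.lo / 2 ^ 16 = a * s := by rw [hs]; ring
    rw [e2] at h2 ⊢
    have h4 : a * s * Real.exp (-(a * s)) ≤ 1 := by
      rw [Real.exp_neg, ← div_eq_mul_inv, div_le_one (Real.exp_pos _)]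
      linarith [Real.add_one_le_exp (a * s)]
    have h5 : s * Real.exp (-(a * s)) ≤ ((65536 / a : ℕ) + 1 : ℝ) / 2 ^ 16 := by
      refine le_of_mul_le_mul_left ?_ ha0
      rw [← mul_assoc, ← mul_div_assoc, le_div_iff₀ (by positivity)]
      nlinarith
    have h6 : (b.lo : ℝ) / 2 ^ 16 * Real.exp (-(a * s)) ≤ (b.lo : ℝ) / 2 ^ 16 :=
      mul_le_of_le_one_right (by positivity) h2
    have e3 : y = (b.lo : ℝ) / 2 ^ 16 + s := by rw [hs]; ring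
    rw [e, add_div]
    calc y * Real.exp (-(a * s))
        = (b.lo : ℝ) / 2 ^ 16 * Real.exp (-(a * s)) + s * Real.exp (-(a * s)) := by
          rw [← add_mul, ← e3]
      _ ≤ _ := add_le_add h6 h5

theorem sound_sum {α : Type} (l : List α) (f g : α → ℕ) (F : α → ℝ) (K : ℝ)
    (h : ∀ a ∈ l, ((f a : ℝ) - g a) / K ≤ F a) :
    ((((l.map f).sum : ℕ) : ℝ) - ((l.map g).sum : ℕ)) / K ≤ (l.map F).sum := by
  induction l with
  | nil => simp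
  | cons a l ih =>
    have h1 := h a (List.mem_cons_self ..)
    have h2 := ih fun b hb => h b (List.mem_cons_of_mem _ hb)
    simp only [List.map_cons, List.sum_cons, Nat.cast_add]
    have e : ((f a : ℝ) + ((l.map f).sum : ℕ) - (g a + ((l.map g).sum : ℕ))) / K =
        ((f a : ℝ) - g a) / K + ((((l.map f).sum : ℕ) : ℝ) - ((l.map g).sum : ℕ)) / K := by ring
    rw [e]
    exact add_le_add h1 h2

theorem sound_exp_re (T : ℕ) (g : Gp) (t : Tm) (y1 y2 y3 : ℝ) :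
    ((om T t.a1 g.e1).toC * y1 + (om T t.a2 g.e2).toC * y2 + (om T t.a3 g.e3).toC * y3).re =
      -((t.a1 : ℝ) * y1 + t.a2 * y2 + t.a3 * y3) := by
  simp only [Complex.add_re, Complex.mul_re, Complex.ofReal_re, Complex.ofReal_im, Cx.toC_re,
    Cx.toC_im, om, mul_zero, sub_zero]
  push_cast
  ring

theorem sound_norm_cval (T : ℕ) (g : Gp) (t : Tm) {y1 y2 y3 : ℝ} (h1 : 0 ≤ y1) (h2 : 0 ≤ y2)
    (h3 : 0 ≤ y3) :
    ‖t.cval T g y1 y2 y3‖ ≤ Real.exp (-((t.a1 : ℝ) * y1 + t.a2 * y2 + t.a3 * y3)) *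
      (t.A.n1 + t.B.n1 * (g.l1.n1 * y1 + g.l2.n1 * y2 + g.l3.n1 * y3)) := by
  rw [Tm.cval, norm_mul, Complex.norm_exp, sound_exp_re]
  refine mul_le_mul_of_nonneg_left ?_ (Real.exp_pos _).le
  have key : ∀ (l : Cx) (y : ℝ), 0 ≤ y → ‖l.toC * y‖ ≤ l.n1 * y := fun l y hy => by
    rw [norm_mul, Complex.norm_real, Real.norm_of_nonneg hy]
    exact mul_le_mul_of_nonneg_right l.norm_toC_le hy
  refine (norm_add_le _ _).trans (add_le_add t.A.norm_toC_le ?_)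
  rw [norm_mul]
  refine mul_le_mul t.B.norm_toC_le ?_ (norm_nonneg _) (Nat.cast_nonneg _)
  exact (norm_add₃_le ..).trans
    (add_le_add (add_le_add (key _ _ h1) (key _ _ h2)) (key _ _ h3))

theorem sound_cval_pos (T : ℕ) {g : Gp} {t : Tm} (h : t.isPos g = true) (y1 y2 y3 : ℝ) :
    0 ≤ t.A.re ∧ (t.cval T g y1 y2 y3).re =
      Real.exp (-((t.a1 : ℝ) * y1 + t.a2 * y2 + t.a3 * y3)) * t.A.re := by
  simp only [Tm.isPos, Bool.and_eq_true, Bool.not_eq_true', Bool.or_eq_false_iff, Cx.isZ,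
    Nat.beq_eq] at h
  obtain ⟨⟨⟨e1, e2⟩, e3⟩, hB, hA⟩ := h
  refine ⟨?_, ?_⟩
  · cases hre : t.A.re with
    | ofNat n => exact Int.natCast_nonneg n
    | negSucc n => rw [hre] at hA; exact absurd hA (by simp)
  · have hB0 : t.B.toC = 0 := by
      have := t.B.norm_toC_le
      rw [hB] at this
      simpa using this
    have him : ((om T t.a1 g.e1).toC * y1 + (om T t.a2 g.e2).toC * y2 +
        (om T t.a3 g.e3).toC * y3).im = 0 := by
      simp [om, e1, e2, e3]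
    rw [Tm.cval, hB0, zero_mul, add_zero, Complex.mul_re, Complex.exp_re, Complex.exp_im, him,
      sound_exp_re]
    simp

theorem sound_exp_lo {b1 b2 b3 : Ax} {y1 y2 y3 : ℝ} (h1 : b1.mem y1) (h2 : b2.mem y2)
    (h3 : b3.mem y3) (a1 a2 a3 : ℕ) :
    Real.exp (-((a1 : ℝ) * y1 + a2 * y2 + a3 * y3)) ≤
      Real.exp (-(((a1 : ℝ) * b1.lo + a2 * b2.lo + a3 * b3.lo) / 2 ^ 16)) := by
  refine Real.exp_le_exp.2 ?_
  have := sound_lo_le_mul h1 a1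
  have := sound_lo_le_mul h2 a2
  have := sound_lo_le_mul h3 a3
  rw [add_div, add_div]
  linarith

/-- one linear factor of a non-positive term -/
theorem sound_lin {b : Ax} (hb : b.ok = true) {y : ℝ} (hy : b.mem y) {a nB nl : ℕ}
    (h : nB = 0 ∨ b.inf = false ∨ nl = 0 ∨ 1 ≤ a) {E E0 : ℝ} (hE0 : 0 ≤ E0)
    (hE : E ≤ E0 * Real.exp (-((a : ℝ) * y - (a : ℝ) * b.lo / 2 ^ 16))) :
    E * (nB * (nl * y)) ≤ E0 * (nB * (nl * (yBd b a : ℝ)) / 2 ^ 16) := by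
  by_cases h0 : nB = 0 ∨ nl = 0
  · rcases h0 with rfl | rfl <;> simp
  · have h1 : b.inf = false ∨ 1 ≤ a := by tauto
    have h2 := sound_yBd hb hy h1
    have h3 := sound_nonneg hy
    calc E * (nB * (nl * y))
        ≤ E0 * Real.exp (-((a : ℝ) * y - (a : ℝ) * b.lo / 2 ^ 16)) * (nB * (nl * y)) :=
          mul_le_mul_of_nonneg_right hE (by positivity)
      _ = E0 * (nB * nl) * (y * Real.exp (-((a : ℝ) * y - (a : ℝ) * b.lo / 2 ^ 16))) := by ring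
      _ ≤ E0 * (nB * nl) * ((yBd b a : ℝ) / 2 ^ 16) :=
          mul_le_mul_of_nonneg_left h2 (by positivity)
      _ = _ := by ring

theorem sound_neg (T : ℕ) (g : Gp) (t : Tm) {b1 b2 b3 : Ax} (o1 : b1.ok = true) (o2 : b2.ok = true)
    (o3 : b3.ok = true) {y1 y2 y3 : ℝ} (h1 : b1.mem y1) (h2 : b2.mem y2) (h3 : b3.mem y3)
    (c1 : t.B.n1 = 0 ∨ b1.inf = false ∨ g.l1.n1 = 0 ∨ 1 ≤ t.a1)
    (c2 : t.B.n1 = 0 ∨ b2.inf = false ∨ g.l2.n1 = 0 ∨ 1 ≤ t.a2)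
    (c3 : t.B.n1 = 0 ∨ b3.inf = false ∨ g.l3.n1 = 0 ∨ 1 ≤ t.a3) {r : ℕ}
    (hr : Real.exp (-(((t.a1 : ℝ) * b1.lo + t.a2 * b2.lo + t.a3 * b3.lo) / 2 ^ 16)) * 2 ^ 64 ≤ r + 2) :
    ‖t.cval T g y1 y2 y3‖ ≤ (((r + 2) * (t.A.n1 <<< 16 + t.B.n1 * (g.l1.n1 * yBd b1 t.a1 +
      (g.l2.n1 * yBd b2 t.a2 + g.l3.n1 * yBd b3 t.a3))) : ℕ) : ℝ) / 2 ^ 80 := by
  refine (sound_norm_cval T g t (sound_nonneg h1) (sound_nonneg h2) (sound_nonneg h3)).trans ?_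
  have l1 := sound_lo_le_mul h1 t.a1
  have l2 := sound_lo_le_mul h2 t.a2
  have l3 := sound_lo_le_mul h3 t.a3
  have k0 := sound_exp_lo h1 h2 h3 t.a1 t.a2 t.a3
  set E := Real.exp (-((t.a1 : ℝ) * y1 + t.a2 * y2 + t.a3 * y3)) with hE
  set E0 := Real.exp (-(((t.a1 : ℝ) * b1.lo + t.a2 * b2.lo + t.a3 * b3.lo) / 2 ^ 16)) with hE0
  have p0 : 0 ≤ E0 := (Real.exp_pos _).le
  have k1 := sound_lin o1 h1 c1 (E := E) p0 (by
    rw [hE, hE0, ← Real.exp_add, Real.exp_le_exp, add_div, add_div]; linarith)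
  have k2 := sound_lin o2 h2 c2 (E := E) p0 (by
    rw [hE, hE0, ← Real.exp_add, Real.exp_le_exp, add_div, add_div]; linarith)
  have k3 := sound_lin o3 h3 c3 (E := E) p0 (by
    rw [hE, hE0, ← Real.exp_add, Real.exp_le_exp, add_div, add_div]; linarith)
  have k4 : E * t.A.n1 ≤ E0 * t.A.n1 := mul_le_mul_of_nonneg_right k0 (Nat.cast_nonneg _)
  set M : ℝ := t.A.n1 + t.B.n1 * ((g.l1.n1 : ℝ) * yBd b1 t.a1 + (g.l2.n1 * yBd b2 t.a2 +
    g.l3.n1 * yBd b3 t.a3)) / 2 ^ 16 with hM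
  have hM0 : 0 ≤ M := by positivity
  have k5 : E0 ≤ ((r : ℝ) + 2) / 2 ^ 64 := by rwa [le_div_iff₀ (by positivity)]
  calc E * (t.A.n1 + t.B.n1 * (g.l1.n1 * y1 + g.l2.n1 * y2 + g.l3.n1 * y3))
      = E * t.A.n1 + E * (t.B.n1 * (g.l1.n1 * y1)) + E * (t.B.n1 * (g.l2.n1 * y2)) +
        E * (t.B.n1 * (g.l3.n1 * y3)) := by ring
    _ ≤ E0 * M := by
        have : E0 * M = E0 * t.A.n1 + E0 * (t.B.n1 * (g.l1.n1 * (yBd b1 t.a1 : ℝ)) / 2 ^ 16) +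
            E0 * (t.B.n1 * (g.l2.n1 * (yBd b2 t.a2 : ℝ)) / 2 ^ 16) +
            E0 * (t.B.n1 * (g.l3.n1 * (yBd b3 t.a3 : ℝ)) / 2 ^ 16) := by rw [hM]; ring
        rw [this]
        linarith
    _ ≤ ((r : ℝ) + 2) / 2 ^ 64 * M := mul_le_mul_of_nonneg_right k5 hM0
    _ = _ := by
        rw [hM, Nat.shiftLeft_eq]
        push_cast
        ring

theorem sound_pos (T : ℕ) {g : Gp} {t : Tm} (hp : t.isPos g = true) {b1 b2 b3 : Ax}
    (o1 : b1.ok = true) (o2 : b2.ok = true) (o3 : b3.ok = true) {y1 y2 y3 : ℝ} (h1 : b1.mem y1)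
    (h2 : b2.mem y2) (h3 : b3.mem y3) (c1 : b1.inf = false ∨ t.a1 = 0)
    (c2 : b2.inf = false ∨ t.a2 = 0) (c3 : b3.inf = false ∨ t.a3 = 0) {r : ℕ}
    (hr : (r : ℝ) - 2 ≤
      Real.exp (-(((t.a1 : ℝ) * b1.hi + t.a2 * b2.hi + t.a3 * b3.hi) / 2 ^ 16)) * 2 ^ 64) :
    (((((r - 2) * t.A.re.toNat) <<< 16 : ℕ) : ℝ)) / 2 ^ 80 ≤ (t.cval T g y1 y2 y3).re := by
  obtain ⟨hA, e⟩ := sound_cval_pos T hp y1 y2 y3
  have l1 := sound_mul_le_hi o1 h1 c1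
  have l2 := sound_mul_le_hi o2 h2 c2
  have l3 := sound_mul_le_hi o3 h3 c3
  have k0 : Real.exp (-(((t.a1 : ℝ) * b1.hi + t.a2 * b2.hi + t.a3 * b3.hi) / 2 ^ 16)) ≤
      Real.exp (-((t.a1 : ℝ) * y1 + t.a2 * y2 + t.a3 * y3)) := by
    rw [Real.exp_le_exp, add_div, add_div]
    linarith
  have k1 : ((r - 2 : ℕ) : ℝ) ≤ Real.exp (-((t.a1 : ℝ) * y1 + t.a2 * y2 + t.a3 * y3)) * 2 ^ 64 := by
    rcases le_total 2 r with h | h
    · rw [Nat.cast_sub h]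
      refine le_trans (by exact_mod_cast hr) (mul_le_mul_of_nonneg_right k0 (by positivity))
    · rw [Nat.sub_eq_zero_of_le h, Nat.cast_zero]
      positivity
  have k2 : ((t.A.re.toNat : ℕ) : ℝ) = t.A.re := by
    exact_mod_cast congrArg (Int.cast (R := ℝ)) (Int.toNat_of_nonneg hA)
  have k3 : (0 : ℝ) ≤ t.A.re := by exact_mod_cast hA
  rw [e, Nat.shiftLeft_eq, Nat.cast_mul, Nat.cast_mul, k2, div_le_iff₀ (by positivity)]
  have k4 := mul_le_mul_of_nonneg_right k1 k3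
  push_cast
  nlinarith

theorem sound_min {d3 : Bool} {y1 y2 y3 : ℝ} (h : 0 ≤ y1) : 0 ≤ min 1 (mx d3 y1 y2 y3) :=
  le_min zero_le_one (h.trans (le_max_left _ _))

theorem sound_of_pos {I : Inst} {d3 : Bool} {k0 : ℕ} {b1 b2 b3 : Ax}
    (h : ∃ δ : ℝ, 0 < δ ∧ ∀ y1 y2 y3 : ℝ, b1.mem y1 → b2.mem y2 → b3.mem y3 → δ ≤ I.val y1 y2 y3) :
    Holds I d3 k0 b1 b2 b3 := by
  obtain ⟨δ, hδ, H⟩ := h
  refine ⟨δ, hδ, fun y1 y2 y3 h1 h2 h3 _ => le_trans ?_ (H y1 y2 y3 h1 h2 h3)⟩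
  exact mul_le_of_le_one_right hδ.le (pow_le_one₀ (sound_min (sound_nonneg h1)) (min_le_left _ _))

theorem sound_loc {b : Ax} {j : ℕ} (h0 : b.lo = 0) (hk : j < b.k) (hi : b.inf = false) {y : ℝ}
    (hy : b.mem y) : y ≤ 1 / 2 ^ j := by
  have h1 := hy.2 hi
  rw [h0, Nat.cast_zero, zero_div, zero_add] at h1
  refine h1.trans ?_
  rw [div_le_div_iff₀ (by positivity) (by positivity), one_mul, ← pow_succ']
  exact pow_le_pow_right₀ (by norm_num) hk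

theorem Ax.sound_force {α : Type} (a : Ax) (k : Ax → α) : a.force k = k a := by
  obtain ⟨lo, kk, i⟩ := a
  cases i <;> simp [Ax.force]

theorem chkI_sound {I : Inst} {c : Cfg} (hP : PreOk I c) {b1 b2 b3 : Ax}
    (h : chkI I c (preOf I c) b1 b2 b3 = true) :
    ∃ δ : ℝ, 0 < δ ∧ ∀ y1 y2 y3 : ℝ, b1.mem y1 → b2.mem y2 → b3.mem y3 → δ ≤ I.val y1 y2 y3 := by
  obtain ⟨ok, hpre⟩ := preOf_eq I c
  rw [hpre] at h
  simp only [chkI, force_eq, Bool.and_eq_true, allL_eq, List.all_eq_true, sumL_eq, Nat.blt_eq,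
    Bool.or_eq_true, Bool.not_eq_true', Nat.ble_eq, Cx.isZ, Nat.beq_eq] at h
  obtain ⟨⟨⟨o1, o2⟩, o3⟩, hc, hlt⟩ := h
  refine ⟨_, div_pos (sub_pos.2 (Nat.cast_lt (α := ℝ).2 hlt)) (show (0 : ℝ) < 2 ^ 80 by positivity),
    fun y1 y2 y3 h1 h2 h3 => ?_⟩
  refine sound_sum _ _ _ _ _ fun g hg => sound_sum _ _ _ _ _ fun t ht => ?_
  obtain ⟨a1, a2, a3⟩ := hP.a_le g hg t ht
  cases hp : t.isPos g
  · have hr := (abs_le.1 (rOf_spec hP.amax_le (sound_lo_lt o1) (sound_lo_lt o2) (sound_lo_lt o3)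
      a1 a2 a3)).1
    have hc' := hc g hg t ht
    have k := sound_neg I.T g t o1 o2 o3 h1 h2 h3 (by tauto) (by tauto) (by tauto)
      (r := rOf (expTab eTab c.amax b1.lo) (expTab eTab c.amax b2.lo) (expTab eTab c.amax b3.lo)
        (sh t.a1) (sh t.a2) (sh t.a3)) (by linarith)
    have k2 := (abs_le.1 (Complex.abs_re_le_norm (t.cval I.T g y1 y2 y3))).1
    simp only [Bool.false_and, cond_false, Nat.cast_zero, zero_sub, neg_div]
    exact le_trans (neg_le_neg k) k2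
  · simp only [cond_true, Nat.cast_zero, sub_zero, Bool.true_and]
    cases hq : (((!b1.inf || t.a1.beq 0) && (!b2.inf || t.a2.beq 0)) && (!b3.inf || t.a3.beq 0))
    · obtain ⟨hA, e⟩ := sound_cval_pos I.T hp y1 y2 y3
      have k3 : (0 : ℝ) ≤ t.A.re := by exact_mod_cast hA
      simp only [cond_false, Nat.cast_zero, zero_div]
      rw [e]
      positivity
    · simp only [Bool.and_eq_true, Bool.or_eq_true, Bool.not_eq_true', Nat.beq_eq] at hq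
      have hr := (abs_le.1 (rOf_spec hP.amax_le (sound_ok o1).2.2 (sound_ok o2).2.2
        (sound_ok o3).2.2 a1 a2 a3)).2
      simp only [cond_true]
      exact sound_pos I.T hp o1 o2 o3 h1 h2 h3 hq.1.1 hq.1.2 hq.2 (by linarith)

theorem chkK_sound {I : Inst} {c : Cfg} (hP : PreOk I c) {b1 b2 b3 : Ax}
    (h : chkK I c (preOf I c) b1 b2 b3 = true) {y1 y2 y3 : ℝ} (h1 : b1.mem y1) (h2 : b2.mem y2)
    (h3 : b3.mem y3) : ¬ I.Con y1 y2 y3 := by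
  obtain ⟨ok, hpre⟩ := preOf_eq I c
  rw [hpre] at h
  simp only [chkK, force_eq, Bool.and_eq_true, allL_eq, List.all_eq_true, sumL_eq, Nat.blt_eq,
    Nat.ble_eq] at h
  obtain ⟨⟨⟨o1, o2⟩, o3⟩, hc, hlt⟩ := h
  have k := sound_sum I.con (fun _ => 0) (fun x : ℕ × ℕ × ℕ × ℕ => Nat.mul x.2.2.2 (Nat.add
      (rOf (expTab eTab c.amax b1.lo) (expTab eTab c.amax b2.lo) (expTab eTab c.amax b3.lo)
        (sh x.1) (sh x.2.1) (sh x.2.2.1)) 2))
    (fun x => -((x.2.2.2 : ℝ) *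
      Real.exp (-((x.1 : ℝ) * y1 + (x.2.1 : ℝ) * y2 + (x.2.2.1 : ℝ) * y3)))) (2 ^ 64) fun x hx => by
      obtain ⟨a1, a2, a3⟩ := hc x hx
      have hr := (abs_le.1 (rOf_spec hP.amax_le (sound_lo_lt o1) (sound_lo_lt o2) (sound_lo_lt o3)
        a1 a2 a3)).1
      have k0 := sound_exp_lo h1 h2 h3 x.1 x.2.1 x.2.2.1
      simp only [Nat.mul_eq, Nat.add_eq, Nat.cast_zero, zero_sub, Nat.cast_mul, Nat.cast_add,
        Nat.cast_ofNat]
      rw [neg_div, neg_le_neg_iff, le_div_iff₀ (by positivity), mul_assoc]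
      refine mul_le_mul_of_nonneg_left ?_ (Nat.cast_nonneg _)
      nlinarith
  have hlt' := (Nat.cast_lt (α := ℝ)).2 hlt
  have e : ((Nat.shiftLeft I.c0 64 : ℕ) : ℝ) = I.c0 * 2 ^ 64 := by
    rw [Nat.shiftLeft_eq', Nat.shiftLeft_eq]
    push_cast; ring
  rw [e] at hlt'
  have e2 : ∀ (l : List (ℕ × ℕ × ℕ × ℕ)) (F : ℕ × ℕ × ℕ × ℕ → ℝ),
      (l.map fun x => -F x).sum = -(l.map F).sum := fun l F => by
    induction l with
    | nil => simp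
    | cons a l ih => simp only [List.map_cons, List.sum_cons, ih]; ring
  rw [e2, List.map_const', List.sum_replicate, smul_zero, Nat.cast_zero, zero_sub, neg_div,
    neg_le_neg_iff, le_div_iff₀ (by positivity)] at k
  intro hcon
  have k2 := mul_le_mul_of_nonneg_right hcon (show (0 : ℝ) ≤ 2 ^ 64 by positivity)
  linarith

theorem Ax.mem_split {a : Ax} (h : a.ok = true) {y : ℝ} (hy : a.mem y) :
    a.left.mem y ∨ a.right.mem y := by
  have e : (2 : ℝ) / 2 ^ (a.k + 1) = 1 / 2 ^ a.k := by rw [pow_succ]; field_simp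
  cases hi : a.inf
  · have hl : a.left = ⟨a.lo, a.k + 1, false⟩ := by simp [Ax.left, hi]
    have hr : a.right = ⟨a.cen, a.k + 1, false⟩ := by simp [Ax.right, hi]
    rw [hl, hr]
    rcases le_total y ((a.lo : ℝ) / 2 ^ 16 + 1 / 2 ^ a.k) with h1 | h1
    · exact Or.inl ⟨hy.1, fun _ => by simpa only [e] using h1⟩
    · refine Or.inr ⟨by simpa only [sound_cen h] using h1, fun _ => ?_⟩
      have h2 := hy.2 hi
      have e2 : (2 : ℝ) / 2 ^ a.k = 1 / 2 ^ a.k + 1 / 2 ^ a.k := by ring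
      simp only [e, sound_cen h]
      linarith
  · have hl : a.left = ⟨a.lo, a.k, false⟩ := by simp [Ax.left, hi]
    have hr : a.right = ⟨a.hi, a.k, true⟩ := by simp [Ax.right, hi]
    rw [hl, hr]
    rcases le_total y ((a.lo : ℝ) / 2 ^ 16 + 2 / 2 ^ a.k) with h1 | h1
    · exact Or.inl ⟨hy.1, fun _ => h1⟩
    · exact Or.inr ⟨by simpa only [sound_hi h] using h1, fun h2 => absurd h2 (by simp)⟩

theorem Holds.x {I : Inst} {d3 : Bool} {k0 : ℕ} {b1 b2 b3 : Ax} (h : b1.ok = true)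
    (hl : Holds I d3 k0 b1.left b2 b3) (hr : Holds I d3 k0 b1.right b2 b3) :
    Holds I d3 k0 b1 b2 b3 := by
  obtain ⟨δ₁, p₁, H₁⟩ := hl
  obtain ⟨δ₂, p₂, H₂⟩ := hr
  refine ⟨min δ₁ δ₂, lt_min p₁ p₂, fun y1 y2 y3 h1 h2 h3 hc => ?_⟩
  have h0 := pow_nonneg (sound_min (d3 := d3) (y2 := y2) (y3 := y3) (sound_nonneg h1)) k0
  rcases Ax.mem_split h h1 with hm | hm
  · exact (mul_le_mul_of_nonneg_right (min_le_left _ _) h0).trans (H₁ y1 y2 y3 hm h2 h3 hc)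
  · exact (mul_le_mul_of_nonneg_right (min_le_right _ _) h0).trans (H₂ y1 y2 y3 hm h2 h3 hc)
theorem Holds.y {I : Inst} {d3 : Bool} {k0 : ℕ} {b1 b2 b3 : Ax} (h : b2.ok = true)
    (hl : Holds I d3 k0 b1 b2.left b3) (hr : Holds I d3 k0 b1 b2.right b3) :
    Holds I d3 k0 b1 b2 b3 := by
  obtain ⟨δ₁, p₁, H₁⟩ := hl
  obtain ⟨δ₂, p₂, H₂⟩ := hr
  refine ⟨min δ₁ δ₂, lt_min p₁ p₂, fun y1 y2 y3 h1 h2 h3 hc => ?_⟩
  have h0 := pow_nonneg (sound_min (d3 := d3) (y2 := y2) (y3 := y3) (sound_nonneg h1)) k0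
  rcases Ax.mem_split h h2 with hm | hm
  · exact (mul_le_mul_of_nonneg_right (min_le_left _ _) h0).trans (H₁ y1 y2 y3 h1 hm h3 hc)
  · exact (mul_le_mul_of_nonneg_right (min_le_right _ _) h0).trans (H₂ y1 y2 y3 h1 hm h3 hc)
theorem Holds.z {I : Inst} {d3 : Bool} {k0 : ℕ} {b1 b2 b3 : Ax} (h : b3.ok = true)
    (hl : Holds I d3 k0 b1 b2 b3.left) (hr : Holds I d3 k0 b1 b2 b3.right) :
    Holds I d3 k0 b1 b2 b3 := by
  obtain ⟨δ₁, p₁, H₁⟩ := hl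
  obtain ⟨δ₂, p₂, H₂⟩ := hr
  refine ⟨min δ₁ δ₂, lt_min p₁ p₂, fun y1 y2 y3 h1 h2 h3 hc => ?_⟩
  have h0 := pow_nonneg (sound_min (d3 := d3) (y2 := y2) (y3 := y3) (sound_nonneg h1)) k0
  rcases Ax.mem_split h h3 with hm | hm
  · exact (mul_le_mul_of_nonneg_right (min_le_left _ _) h0).trans (H₁ y1 y2 y3 h1 h2 hm hc)
  · exact (mul_le_mul_of_nonneg_right (min_le_right _ _) h0).trans (H₂ y1 y2 y3 h1 h2 hm hc)

theorem check_sound {I : Inst} {d3 : Bool} {k0 j : ℕ} (hloc : j ≠ 0 → LocHolds I d3 k0 j) {c : Cfg}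
    {t : Tr} {b1 b2 b3 : Ax} (h : check I c j t b1 b2 b3 = true) : Holds I d3 k0 b1 b2 b3 := by
  rw [check, mkPre_eq, Bool.and_eq_true] at h
  obtain ⟨hok, h⟩ := h
  have hP := preOk_of_ok hok
  induction t generalizing b1 b2 b3 with
  | T => exact sound_of_pos (chkT_sound hP h)
  | I => exact sound_of_pos (chkI_sound hP h)
  | K => exact ⟨1, one_pos, fun y1 y2 y3 h1 h2 h3 hc => absurd hc (chkK_sound hP h h1 h2 h3)⟩
  | L =>
    have h' : chkL j b1 b2 b3 = true := h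
    simp only [chkL, Bool.and_eq_true, Nat.ble_eq, Nat.beq_eq, Nat.blt_eq, Bool.not_eq_true',
      Bool.or_eq_false_iff] at h'
    obtain ⟨hj, ⟨⟨z1, z2⟩, z3⟩, ⟨⟨k1, k2⟩, k3⟩, ⟨i1, i2⟩, i3⟩ := h'
    obtain ⟨δ, hδ, H⟩ := hloc (by omega)
    refine ⟨δ, hδ, fun y1 y2 y3 h1 h2 h3 _ => le_trans ?_ (H y1 y2 y3 (sound_nonneg h1)
      (sound_nonneg h2) (sound_nonneg h3) (sound_loc z1 k1 i1 h1) (sound_loc z2 k2 i2 h2)
      (sound_loc z3 k3 i3 h3))⟩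
    exact mul_le_mul_of_nonneg_left
      (pow_le_pow_left₀ (sound_min (sound_nonneg h1)) (min_le_right _ _) k0) hδ.le
  | x l r ihl ihr =>
    have h' : (b1.ok && ((b1.left.force fun a => chkTree I c j (preOf I c) l a b2 b3) &&
      (b1.right.force fun a => chkTree I c j (preOf I c) r a b2 b3))) = true := h
    simp only [Ax.sound_force, Bool.and_eq_true] at h'
    exact Holds.x h'.1 (ihl h'.2.1) (ihr h'.2.2)
  | y l r ihl ihr =>
    have h' : (b2.ok && ((b2.left.force fun a => chkTree I c j (preOf I c) l b1 a b3) &&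
      (b2.right.force fun a => chkTree I c j (preOf I c) r b1 a b3))) = true := h
    simp only [Ax.sound_force, Bool.and_eq_true] at h'
    exact Holds.y h'.1 (ihl h'.2.1) (ihr h'.2.2)
  | z l r ihl ihr =>
    have h' : (b3.ok && ((b3.left.force fun a => chkTree I c j (preOf I c) l b1 b2 a) &&
      (b3.right.force fun a => chkTree I c j (preOf I c) r b1 b2 a))) = true := h
    simp only [Ax.sound_force, Bool.and_eq_true] at h'
    exact Holds.z h'.1 (ihl h'.2.1) (ihr h'.2.2)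

theorem Holds.final3 {I : Inst} {k0 k : ℕ}
    (h : Holds I true k0 ⟨0, k, true⟩ ⟨0, k, true⟩ ⟨0, k, true⟩) :
    ∃ δ : ℝ, 0 < δ ∧ ∀ y1 y2 y3 : ℝ, 0 ≤ y1 → 0 ≤ y2 → 0 ≤ y3 → I.Con y1 y2 y3 →
      δ * min 1 (max y1 (max y2 y3)) ^ k0 ≤ I.val y1 y2 y3 := by
  obtain ⟨δ, hδ, H⟩ := h
  have m : ∀ y : ℝ, 0 ≤ y → (⟨0, k, true⟩ : Ax).mem y := fun y hy =>
    ⟨by simpa using hy, fun h => absurd h (by simp)⟩
  exact ⟨δ, hδ, fun y1 y2 y3 h1 h2 h3 hc => H y1 y2 y3 (m _ h1) (m _ h2) (m _ h3) hc⟩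

theorem Holds.final2 {I : Inst} {k0 k : ℕ}
    (h : Holds I false k0 ⟨0, k, true⟩ ⟨0, k, true⟩ ⟨0, 16, false⟩) :
    ∃ δ : ℝ, 0 < δ ∧ ∀ y1 y2 : ℝ, 0 ≤ y1 → 0 ≤ y2 → I.Con y1 y2 0 →
      δ * min 1 (max y1 y2) ^ k0 ≤ I.val y1 y2 0 := by
  obtain ⟨δ, hδ, H⟩ := h
  have m : ∀ y : ℝ, 0 ≤ y → (⟨0, k, true⟩ : Ax).mem y := fun y hy =>
    ⟨by simpa using hy, fun h => absurd h (by simp)⟩
  refine ⟨δ, hδ, fun y1 y2 h1 h2 hc => ?_⟩
  have H' := H y1 y2 0 (m _ h1) (m _ h2) ⟨by simp, fun _ => by positivity⟩ hc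
  have e : mx false y1 y2 0 = max y1 y2 := by simp only [mx, cond_false, max_eq_left h2]
  rwa [e] at H'

end Crest.Agent.R163.E2
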